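import Vale.Agent.P253.MathlibUsed
import Mathlib.Analysis.Complex.Polynomial.Basic
import Mathlib.LinearAlgebra.Eigenspace.Pi
import Mathlib.LinearAlgebra.Eigenspace.Triangularizable

/-!
P253: simultaneous diagonalization of commuting self-adjoint operators.
-/

open Complex Module

set_option linter.unusedSectionVars false

noncomputable section

namespace Vale.Agent.P253.H577

variable {E : Type*} [NormedAddCommGroup E] [NormedSpace ℂ E] [FiniteDimensional ℂ E]

/-- a real inner product which is invariant under the complex structure -/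
structure HermForm (g : E →L[ℝ] E →L[ℝ] ℝ) : Prop where
  symm : ∀ x y, g x y = g y x
  pos : ∀ x, x ≠ 0 → 0 < g x x
  herm : ∀ x y, g (I • x) (I • y) = g x y

namespace HermForm

variable {g : E →L[ℝ] E →L[ℝ] ℝ} (hg : HermForm g)

include hg

omit [FiniteDimensional ℂ E]

theorem I_left (x y : E) : g (I • x) y = -g x (I • y) := by
  have h1 := hg.herm x (-(I • y))
  rw [smul_neg, smul_smul, I_mul_I, neg_one_smul, neg_neg, map_neg] at h1
  exact h1

theorem I_self (x : E) : g x (I • x) = 0 := by
  have h1 := hg.I_left x x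
  rw [hg.symm] at h1
  linarith only [h1]

theorem self_eq_zero {x : E} (h : g x x = 0) : x = 0 := by
  by_contra h0
  have := hg.pos x h0
  linarith only [this, h]

theorem eigenvalue_real {T : Module.End ℂ E} (hT : ∀ x y, g (T x) y = g x (T y)) {μ : ℂ} {x : E}
    (hx : T x = μ • x) (hx0 : x ≠ 0) : μ.im = 0 := by
  have h1 : g (T x) (I • x) = -g (T x) (I • x) := by
    conv_lhs => rw [hT, map_smul, hg.symm, hg.I_left]
  have h2 : T x = μ.re • x + μ.im • (I • x) := by
    rw [hx]
    conv_lhs => rw [← re_add_im μ, add_smul, mul_smul]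
    rfl
  have h3 : g (T x) (I • x) = μ.im * g x x := by
    rw [h2]
    simp only [map_add, map_smul, add_apply, smul_apply, smul_eq_mul]
    rw [hg.I_self, hg.herm]
    ring
  have h4 := hg.pos x hx0
  have h5 : μ.im * g x x = 0 := by linarith only [h1, h3]
  rcases mul_eq_zero.1 h5 with h6 | h6
  · exact h6
  · linarith only [h4, h6]

theorem real_smul_symm {T : Module.End ℂ E} (hT : ∀ x y, g (T x) y = g x (T y)) {μ : ℂ}
    (hμ : μ.im = 0) (x y : E) : g ((T - μ • (1 : Module.End ℂ E)) x) y =
      g x ((T - μ • (1 : Module.End ℂ E)) y) := by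
  have h1 : ∀ x : E, μ • x = μ.re • x := by
    intro x
    conv_lhs => rw [← re_add_im μ, hμ]
    simp
  have h2 : ∀ x : E, (T - μ • (1 : Module.End ℂ E)) x = T x - μ.re • x := by
    intro x
    rw [← h1]
    simp
  rw [h2, h2]
  simp only [map_sub, map_smul, sub_apply, smul_apply]
  rw [hT]

theorem pow_ker {S : Module.End ℂ E} (hS : ∀ x y, g (S x) y = g x (S y)) :
    ∀ (k : ℕ) (x : E), (S ^ (k + 1)) x = 0 → S x = 0 := by
  intro k
  induction k with
  | zero => intro x hx; simpa using hx
  | succ k ih =>
    intro x hx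
    apply ih
    apply hg.self_eq_zero
    have h1 : (S ^ (k + 1)) x = S ((S ^ k) x) := by
      rw [pow_succ']; rfl
    have h2 : S ((S ^ (k + 1)) x) = (S ^ (k + 1 + 1)) x := by
      rw [pow_succ' S (k + 1)]; rfl
    conv_lhs => rw [h1]
    rw [hS, ← h1, h2, hx, map_zero]

theorem maxGen {T : Module.End ℂ E} (hT : ∀ x y, g (T x) y = g x (T y)) {μ : ℂ} {x : E}
    (hx : x ∈ T.maxGenEigenspace μ) (hx0 : x ≠ 0) : μ.im = 0 ∧ T x = μ • x := by
  rw [Module.End.mem_maxGenEigenspace] at hx
  obtain ⟨k, hk⟩ := hx
  -- an eigenvector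
  have him : μ.im = 0 := by
    classical
    have hex : ∃ k, ((T - μ • (1 : Module.End ℂ E)) ^ k) x = 0 := ⟨k, hk⟩
    have h1 := Nat.find_spec hex
    set m := Nat.find hex with hm
    rcases Nat.eq_zero_or_pos m with h0 | h0
    · rw [h0] at h1
      exact absurd (by simpa using h1) hx0
    obtain ⟨l, hl⟩ : ∃ l, m = l + 1 := ⟨m - 1, by omega⟩
    have h2 : ((T - μ • (1 : Module.End ℂ E)) ^ l) x ≠ 0 := Nat.find_min hex (by omega)
    rw [hl, pow_succ'] at h1
    have h3 : (T - μ • (1 : Module.End ℂ E)) (((T - μ • (1 : Module.End ℂ E)) ^ l) x) = 0 := h1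
    refine hg.eigenvalue_real hT (μ := μ) (x := ((T - μ • (1 : Module.End ℂ E)) ^ l) x) ?_ h2
    have h4 : T (((T - μ • (1 : Module.End ℂ E)) ^ l) x) -
        μ • (((T - μ • (1 : Module.End ℂ E)) ^ l) x) = 0 := by
      simpa using! h3
    exact sub_eq_zero.1 h4
  refine ⟨him, ?_⟩
  have h1 : (T - μ • (1 : Module.End ℂ E)) x = 0 := by
    rcases k with _ | k
    · exact absurd (by simpa using hk) hx0
    · exact hg.pow_ker (hg.real_smul_symm hT him) k x hk
  have h4 : T x - μ • x = 0 := by simpa using! h1
  exact sub_eq_zero.1 h4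

end HermForm

/-- joint eigenbasis of a commuting family of self-adjoint complex linear operators -/
theorem exists_joint_basis {g : E →L[ℝ] E →L[ℝ] ℝ} (hg : HermForm g) {ι : Type*}
    (T : ι → Module.End ℂ E) (hT : ∀ i x y, g (T i x) y = g x (T i y))
    (hcomm : ∀ i j, Commute (T i) (T j)) :
    ∃ (b : Basis (Fin (finrank ℂ E)) ℂ E) (r : Fin (finrank ℂ E) → ι → ℝ),
      ∀ j i, T i (b j) = r j i • b j := by
  classical
  set S : Set E := {x | ∃ χ : ι → ℝ, ∀ i, T i x = χ i • x} with hS
  have hspan : Submodule.span ℂ S = ⊤ := by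
    rw [eq_top_iff, ← Module.End.iSup_iInf_maxGenEigenspace_eq_top_of_iSup_maxGenEigenspace_eq_top_of_commute
      T (fun i j _ => hcomm i j) (fun i => Module.End.iSup_maxGenEigenspace_eq_top (T i))]
    refine iSup_le fun χ => ?_
    intro x hx
    rw [Submodule.mem_iInf] at hx
    by_cases hx0 : x = 0
    · rw [hx0]; exact Submodule.zero_mem _
    · apply Submodule.subset_span
      refine ⟨fun i => (χ i).re, fun i => ?_⟩
      obtain ⟨h1, h2⟩ := hg.maxGen (hT i) (hx i) hx0
      rw [h2]
      conv_lhs => rw [← re_add_im (χ i), h1]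
      simp
  obtain ⟨s, hsS, hs1, hs2⟩ := exists_linearIndependent ℂ S
  rw [hspan] at hs1
  let b₀ : Basis s ℂ E := Basis.mk hs2 (by rw [Subtype.range_coe, hs1])
  have hfin : Fintype s := FiniteDimensional.fintypeBasisIndex b₀
  have hcard : Fintype.card s = finrank ℂ E := (finrank_eq_card_basis b₀).symm
  let b : Basis (Fin (finrank ℂ E)) ℂ E := b₀.reindex (Fintype.equivFinOfCardEq hcard)
  have hb : ∀ j, b j ∈ S := by
    intro j
    have : b j = (((Fintype.equivFinOfCardEq hcard).symm j : s) : E) := by
      simp [b, b₀]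
    rw [this]
    exact hsS (Subtype.coe_prop _)
  choose r hr using hb
  exact ⟨b, r, hr⟩

theorem finrank_ker_le_aux {K : Type*} [AddCommGroup K]
    [Module ℝ K] [FiniteDimensional ℝ K] (T : K → Module.End ℂ E)
    (hadd : ∀ κ κ' x, T (κ + κ') x = T κ x + T κ' x) (hsmul : ∀ (s : ℝ) κ x, T (s • κ) x = s • T κ x)
    (hinj : ∀ κ, (∀ x, T κ x = 0) → κ = 0) (W : Submodule ℂ E) (hW : ∀ x ∈ W, ∀ κ, T κ x = 0)
    {n : ℕ} (b : Basis (Fin n) ℂ E) (r : Fin n → K → ℝ) (hr : ∀ j i, T i (b j) = r j i • b j) :
    finrank ℂ W + finrank ℝ K ≤ n := by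
  classical
  -- the weights which do not vanish
  set J : Finset (Fin n) := Finset.univ.filter (fun j => ∀ κ, r j κ = 0) with hJ
  -- `W` injects into the functions on `J`
  have h1 : finrank ℂ W ≤ J.card := by
    let f : W →ₗ[ℂ] (J → ℂ) :=
      (LinearMap.pi fun j : J => (b.coord (j : Fin n))).comp W.subtype
    have hf : Function.Injective f := by
      rw [injective_iff_map_eq_zero]
      intro x hx
      have h2 : ∀ j, b.coord j (x : E) = 0 := by
        intro j
        by_cases hj : j ∈ J
        · exact congrFun hx ⟨j, hj⟩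
        · have h3 : ∃ κ, r j κ ≠ 0 := by
            by_contra hcon
            push Not at hcon
            exact hj (by rw [hJ]; simpa using hcon)
          obtain ⟨κ, hκ⟩ := h3
          have h4 := hW x x.2 κ
          have h5 : T κ (x : E) = ∑ i, b.coord i (x : E) • (r i κ • b i) := by
            conv_lhs => rw [← b.sum_repr (x : E), map_sum]
            refine Finset.sum_congr rfl fun i _ => ?_
            rw [map_smul, hr]
            rfl
          rw [h5] at h4
          have h6 := congrArg (b.coord j) h4
          rw [map_sum, map_zero, Finset.sum_eq_single j] at h6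
          · rw [map_smul] at h6
            have h7 : b.coord j (r j κ • b j) = r j κ := by
              have : r j κ • b j = ((r j κ : ℂ)) • b j := rfl
              rw [this, map_smul]
              simp
            rw [h7, smul_eq_mul] at h6
            rcases mul_eq_zero.1 h6 with h8 | h8
            · exact h8
            · exact absurd (by exact_mod_cast h8) hκ
          · intro i _ hij
            rw [map_smul]
            have : r i κ • b i = ((r i κ : ℂ)) • b i := rfl
            rw [this, map_smul]
            simp [hij]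
          · simp
      have h3 : (x : E) = 0 := by
        apply b.ext_elem
        intro j
        rw [map_zero]
        exact h2 j
      exact Subtype.ext h3
    have h2 := LinearMap.finrank_le_finrank_of_injective hf
    simpa using h2
  have h2 : finrank ℝ K ≤ (Finset.univ.filter (fun j : Fin n => ¬ ∀ κ, r j κ = 0)).card := by
    set J' : Finset (Fin n) := Finset.univ.filter (fun j : Fin n => ¬ ∀ κ, r j κ = 0) with hJ'
    have hrl : ∀ j, ∀ κ κ', r j (κ + κ') = r j κ + r j κ' := by
      intro j κ κ'
      have h3 := hadd κ κ' (b j)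
      rw [hr, hr, hr, ← add_smul] at h3
      exact smul_left_injective ℝ (b.ne_zero j) h3
    have hrs : ∀ j, ∀ (s : ℝ) κ, r j (s • κ) = s * r j κ := by
      intro j s κ
      have h3 := hsmul s κ (b j)
      rw [hr, hr, smul_smul] at h3
      exact smul_left_injective ℝ (b.ne_zero j) h3
    let f : K →ₗ[ℝ] (J' → ℝ) :=
      { toFun := fun κ j => r j κ
        map_add' := fun κ κ' => by funext j; exact hrl j κ κ'
        map_smul' := fun s κ => by funext j; exact hrs j s κ }
    have hf : Function.Injective f := by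
      rw [injective_iff_map_eq_zero]
      intro κ hκ
      apply hinj
      have h3 : ∀ j, r j κ = 0 := by
        intro j
        by_cases hj : j ∈ J'
        · exact congrFun hκ ⟨j, hj⟩
        · have h4 : ∀ κ, r j κ = 0 := by
            by_contra hcon
            exact hj (by rw [hJ']; simpa using hcon)
          exact h4 κ
      have h4 : T κ = 0 := by
        apply b.ext
        intro j
        rw [hr, h3, zero_smul]
        rfl
      intro x
      rw [h4]
      rfl
    have h2 := LinearMap.finrank_le_finrank_of_injective hf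
    simpa using h2
  have h3 := Finset.card_filter_add_card_filter_not (s := (Finset.univ : Finset (Fin n)))
    (fun j => ∀ κ, r j κ = 0)
  rw [Finset.card_univ, Fintype.card_fin] at h3
  have h4 : J.card + (Finset.univ.filter (fun j : Fin n => ¬ ∀ κ, r j κ = 0)).card = n := by
    rw [hJ]; exact h3
  omega

/-- the common kernel of a commuting family of self-adjoint operators, depending injectively on a
parameter in a real vector space, is as small as possible -/
theorem finrank_ker_le {g : E →L[ℝ] E →L[ℝ] ℝ} (hg : HermForm g) {K : Type*} [AddCommGroup K]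
    [Module ℝ K] [FiniteDimensional ℝ K] (T : K → Module.End ℂ E)
    (hadd : ∀ κ κ' x, T (κ + κ') x = T κ x + T κ' x) (hsmul : ∀ (s : ℝ) κ x, T (s • κ) x = s • T κ x)
    (hT : ∀ i x y, g (T i x) y = g x (T i y)) (hcomm : ∀ i j, Commute (T i) (T j))
    (hinj : ∀ κ, (∀ x, T κ x = 0) → κ = 0) (W : Submodule ℂ E) (hW : ∀ x ∈ W, ∀ κ, T κ x = 0) :
    finrank ℂ W + finrank ℝ K ≤ finrank ℂ E := by
  obtain ⟨b, r, hr⟩ := exists_joint_basis hg T hT hcomm
  exact finrank_ker_le_aux T hadd hsmul hinj W hW b r hr

end Vale.Agent.P253.H577
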