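import Vale.Agent.P253.H577.Iso
import Vale.Agent.P253.H577.Alg

/-!
P253: on a minimal stratum the gradient of the length of a field is a field of the family.
-/

open scoped ContDiff Topology
open Set Metric Complex Filter Vale.Agent.P253.Mfd Module

set_option maxSynthPendingDepth 3
set_option linter.unusedSectionVars false

noncomputable section

namespace Vale.Agent.P253.H577

variable {E : Type*} [NormedAddCommGroup E] [NormedSpace ℂ E] [FiniteDimensional ℂ E]
  {V : Type*} [NormedAddCommGroup V] [NormedSpace ℝ V]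
  {G : E → E →L[ℝ] E →L[ℝ] ℝ} {U : Set E} {z : E} {L : E → V →L[ℝ] E}

theorem hermForm_of_local (h : LocalKahler G U) (hz : z ∈ U) : HermForm (G z) :=
  ⟨h.symm z hz, h.pos z hz, h.herm z hz⟩

/-- a totally real subspace generates a complex subspace of the same dimension -/
theorem finrank_le_span {g : E →L[ℝ] E →L[ℝ] ℝ} (hg : HermForm g) (R : Submodule ℝ E)
    (hR : ∀ x ∈ R, ∀ y ∈ R, g x (I • y) = 0) :
    finrank ℝ R ≤ finrank ℂ (Submodule.span ℂ (R : Set E)) := by
  have hfd : FiniteDimensional ℝ E := FiniteDimensional.complexToReal E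
  let b := finBasis ℝ R
  have hli : LinearIndependent ℂ (fun i => ((b i : R) : E)) := by
    rw [Fintype.linearIndependent_iff]
    intro c hc
    set X : R := ∑ i, (c i).re • b i with hX
    set Y : R := ∑ i, (c i).im • b i with hY
    have h1 : (X : E) + I • (Y : E) = 0 := by
      rw [← hc, hX, hY, Submodule.coe_sum, Submodule.coe_sum, Finset.smul_sum,
        ← Finset.sum_add_distrib]
      refine Finset.sum_congr rfl fun i _ => ?_
      conv_rhs => rw [← re_add_im (c i), add_smul, mul_smul, smul_comm]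
      rfl
    have h2 : g ((X : E) + I • (Y : E)) X = g X X := by
      rw [map_add, add_apply, hg.I_left, hR Y Y.2 X X.2]
      ring
    have hX0 : (X : E) = 0 := by
      apply hg.self_eq_zero
      rw [← h2, h1]
      simp
    have hY0 : (Y : E) = 0 := by
      rw [hX0, zero_add] at h1
      have h3 := congrArg (fun x => (-I) • x) h1
      simpa [smul_smul] using h3
    have hX1 : X = 0 := Subtype.ext hX0
    have hY1 : Y = 0 := Subtype.ext hY0
    have e1 := (Fintype.linearIndependent_iff.1 b.linearIndependent) (fun i => (c i).re) hX1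
    have e2 := (Fintype.linearIndependent_iff.1 b.linearIndependent) (fun i => (c i).im) hY1
    exact fun i => Complex.ext (e1 i) (e2 i)
  have h1 := finrank_span_eq_card hli
  rw [Fintype.card_fin] at h1
  rw [← h1]
  apply Submodule.finrank_mono
  apply Submodule.span_mono
  rintro _ ⟨i, rfl⟩
  exact (b i).2

theorem mem_span_iff (R : Submodule ℝ E) {x : E} (hx : x ∈ Submodule.span ℂ (R : Set E)) :
    ∃ a ∈ R, ∃ b ∈ R, x = a + I • b := by
  induction hx using Submodule.span_induction with
  | mem x hx => exact ⟨x, hx, 0, R.zero_mem, by simp⟩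
  | zero => exact ⟨0, R.zero_mem, 0, R.zero_mem, by simp⟩
  | add x y _ _ h1 h2 =>
    obtain ⟨a, ha, b, hb, rfl⟩ := h1
    obtain ⟨c, hc, d, hd, rfl⟩ := h2
    exact ⟨a + c, R.add_mem ha hc, b + d, R.add_mem hb hd, by rw [smul_add]; abel⟩
  | smul c x _ h1 =>
    obtain ⟨a, ha, b, hb, rfl⟩ := h1
    refine ⟨c.re • a - c.im • b, R.sub_mem (R.smul_mem _ ha) (R.smul_mem _ hb),
      c.im • a + c.re • b, R.add_mem (R.smul_mem _ ha) (R.smul_mem _ hb), ?_⟩
    have e1 : ∀ x : E, c • x = c.re • x + c.im • (I • x) := by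
      intro x
      conv_lhs => rw [← re_add_im c, add_smul, mul_smul]
      rfl
    rw [e1, smul_add, smul_add, smul_add, smul_smul I I b, I_mul_I, neg_one_smul, smul_neg,
      smul_add, smul_comm I c.im a, smul_comm I c.re b]
    abel

/-- the linear part of a field of the family -/
def linPart (L : E → V →L[ℝ] E) (z : E) (κ : V) : Module.End ℂ E :=
  (fderiv ℂ (fun z => L z κ) z).toLinearMap

theorem linPart_apply (h : LocalKahler G U) (hL : CommFam G L U) (hz : z ∈ U) (κ : V) (a : E) :
    linPart L z κ a = fderiv ℝ (fun z => L z κ) z a := by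
  have h1 : HasFDerivAt (fun z => L z κ) (fderiv ℂ (fun z => L z κ) z) z :=
    ((hL.holo κ z hz).differentiableAt (h.isOpen.mem_nhds hz)).hasFDerivAt
  rw [(h1.restrictScalars ℝ).fderiv]
  rfl

namespace CommFam

variable (h : LocalKahler G U) (hL : CommFam G L U) (hz : z ∈ U)

include h hL hz

theorem linPart_add (κ κ' : V) (a : E) :
    linPart L z (κ + κ') a = linPart L z κ a + linPart L z κ' a := by
  rw [linPart_apply h hL hz, linPart_apply h hL hz, linPart_apply h hL hz, hL.fderiv_apply h hz,
    hL.fderiv_apply h hz, hL.fderiv_apply h hz, map_add]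

theorem linPart_smul (s : ℝ) (κ : V) (a : E) :
    linPart L z (s • κ) a = s • linPart L z κ a := by
  rw [linPart_apply h hL hz, linPart_apply h hL hz, hL.fderiv_apply h hz,
    hL.fderiv_apply h hz, map_smul]

theorem linPart_symm {κ : V} (hκ : L z κ = 0) (a b : E) :
    G z (linPart L z κ a) b = G z a (linPart L z κ b) := by
  rw [linPart_apply h hL hz, linPart_apply h hL hz, ← hL.Nop_vanish h hz hκ,
    ← hL.Nop_vanish h hz hκ, Nop_symm h (hL.holo κ) (hL.kill κ) hz, h.symm z hz]

theorem linPart_comm {κ κ' : V} (hκ : L z κ = 0) (hκ' : L z κ' = 0) :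
    Commute (linPart L z κ) (linPart L z κ') := by
  rw [commute_iff_eq]
  ext a
  change linPart L z κ (linPart L z κ' a) = linPart L z κ' (linPart L z κ a)
  simp only [linPart_apply h hL hz]
  exact hL.comm_vanish h hz hκ hκ' a

/-- joint eigenbasis at a common zero of the fields -/
theorem exists_weights (hzero : ∀ κ, L z κ = 0) :
    ∃ (b : Basis (Fin (finrank ℂ E)) ℂ E) (r : Fin (finrank ℂ E) → V → ℝ),
      ∀ j κ, fderiv ℝ (fun z => L z κ) z (b j) = r j κ • b j := by
  obtain ⟨b, r, hr⟩ := exists_joint_basis (hermForm_of_local h hz) (fun κ => linPart L z κ)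
    (fun κ a b => hL.linPart_symm h hz (hzero κ) a b)
    (fun κ κ' => hL.linPart_comm h hz (hzero κ) (hzero κ'))
  exact ⟨b, r, fun j κ => by rw [← linPart_apply h hL hz, hr]⟩

/-- if the family has maximal dimension, the gradient of the length of a field is a field of the
family -/
theorem exists_grad [FiniteDimensional ℝ V] (hdim : finrank ℝ V = finrank ℂ E)
    (hiso : ∀ ξ η, G z (L z ξ) (I • L z η) = 0)
    (hrig : ∀ κ, L z κ = 0 → (∀ a, fderiv ℝ (fun z => L z κ) z a = 0) → κ = 0) (ξ : V) :
    ∃ ζ, Nop G (fun z => L z ξ) z (L z ξ) = L z ζ := by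
  have hfd : FiniteDimensional ℝ E := FiniteDimensional.complexToReal E
  have hg := hermForm_of_local h hz
  set K : Submodule ℝ V := LinearMap.ker (L z : V →ₗ[ℝ] E) with hK
  set R : Submodule ℝ E := LinearMap.range (L z : V →ₗ[ℝ] E) with hR
  have hKm : ∀ κ : K, L z (κ : V) = 0 := fun κ => κ.2
  set W : Submodule ℂ E := ⨅ κ : K, LinearMap.ker (linPart L z κ) with hW
  have hWm : ∀ x, x ∈ W ↔ ∀ κ : K, linPart L z κ x = 0 := by
    intro x; rw [hW, Submodule.mem_iInf]; rfl
  have h1 := finrank_ker_le hg (K := K) (fun κ => linPart L z κ)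
    (fun κ κ' x => hL.linPart_add h hz κ κ' x) (fun s κ x => hL.linPart_smul h hz s κ x)
    (fun κ x y => hL.linPart_symm h hz (hKm κ) x y)
    (fun κ κ' => hL.linPart_comm h hz (hKm κ) (hKm κ'))
    (fun κ hκ => Subtype.ext (hrig κ (hKm κ) (fun a => by
      rw [← linPart_apply h hL hz]; exact hκ a))) W (fun x hx => (hWm x).1 hx)
  have h2 : finrank ℝ R ≤ finrank ℂ (Submodule.span ℂ (R : Set E)) := by
    apply finrank_le_span hg
    rintro _ ⟨a, rfl⟩ _ ⟨b, rfl⟩
    exact hiso a b
  have h3 : finrank ℝ R + finrank ℝ K = finrank ℝ V :=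
    LinearMap.finrank_range_add_finrank_ker (L z : V →ₗ[ℝ] E)
  have h4 : Submodule.span ℂ (R : Set E) ≤ W := by
    rw [Submodule.span_le]
    rintro _ ⟨b, rfl⟩
    change _ ∈ W
    rw [hWm]
    intro κ
    have h5 := hL.Nop_vanish_field h hz (hKm κ) b
    rw [hL.Nop_vanish h hz (hKm κ)] at h5
    rw [linPart_apply h hL hz]
    exact h5
  have h5 : Submodule.span ℂ (R : Set E) = W := by
    apply Submodule.eq_of_le_of_finrank_le h4
    omega
  have h6 : Nop G (fun z => L z ξ) z (L z ξ) ∈ Submodule.span ℂ (R : Set E) := by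
    rw [h5, hWm]
    intro κ
    rw [linPart_apply h hL hz, ← hL.Nop_vanish h hz (hKm κ)]
    exact hL.Nop_vanish_grad h hz (hKm κ) ξ
  obtain ⟨_, ⟨a, rfl⟩, _, ⟨b, rfl⟩, hab⟩ := mem_span_iff R h6
  refine ⟨a, ?_⟩
  have h7 := hL.grad_orth h hz ξ b
  rw [hab] at h7
  change G z (L z a + I • L z b) (I • L z b) = 0 at h7
  rw [map_add, add_apply, hiso, zero_add, h.herm z hz] at h7
  have h8 : L z b = 0 := hg.self_eq_zero h7
  rw [hab]
  change L z a + I • L z b = L z a
  rw [h8, smul_zero, add_zero]

end CommFam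

end Vale.Agent.P253.H577
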