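import Vale.Agent.P253.H577.Defs
import Vale.Agent.P253.H577.Grad

/-!
P253: an action of a vector group by holomorphic isometries in charts.
-/

open scoped Manifold ContDiff Topology Bundle
open Set Metric Complex Filter Bundle IsManifold Manifold Vale.Agent.P253.Mfd

set_option maxSynthPendingDepth 3
set_option linter.unusedSectionVars false

noncomputable section

namespace Vale.Agent.P253.H577

variable {E : Type*} [NormedAddCommGroup E] [NormedSpace ℂ E] [FiniteDimensional ℂ E]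
  {M : Type*} [MetricSpace M] [ChartedSpace E M]
  {V : Type*} [NormedAddCommGroup V] [NormedSpace ℝ V]

/-- one-parameter subgroups of the action -/
def ln (ρ : V → M → M) (ξ : V) : ℝ → M → M := fun t x => ρ (t • ξ) x

/-- the action in a chart -/
def actF (ρ : V → M → M) (e : OpenPartialHomeomorph M E) (q : V × E) : E :=
  e (ρ q.1 (e.symm q.2))

/-- domain of the action in a chart -/
def actΩ (ρ : V → M → M) (e : OpenPartialHomeomorph M E) : Set (V × E) :=
  {q | q.2 ∈ e.target ∧ ρ q.1 (e.symm q.2) ∈ e.source}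

/-- the generators in a chart -/
def xL (ρ : V → M → M) (e : OpenPartialHomeomorph M E) (z : E) : V →L[ℝ] E :=
  (fderiv ℝ (actF ρ e) (0, z)).comp (ContinuousLinearMap.inl ℝ V E)

/-- multiplication by `-I` -/
def negI : E →L[ℝ] E := ((-I : ℂ) • ContinuousLinearMap.id ℂ E).restrictScalars ℝ

theorem negI_apply (x : E) : negI x = -(I • x) := by
  simp [negI]

/-- the holomorphic fields `- J X` in a chart -/
def vL (ρ : V → M → M) (e : OpenPartialHomeomorph M E) (z : E) : V →L[ℝ] E :=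
  negI.comp (xL ρ e z)

variable [IsManifold 𝓘(ℂ, E) 1 M] [IsManifold 𝓘(ℝ, E) ∞ M]
  [RiemannianBundle (fun x : M => TangentSpace 𝓘(ℝ, E) x)]
  [IsContMDiffRiemannianBundle 𝓘(ℝ, E) ∞ E (fun x : M => TangentSpace 𝓘(ℝ, E) x)]
  {ρ : V → M → M} {e e' : OpenPartialHomeomorph M E}

theorem IsHolIsomAction.line (hρ : IsHolIsomAction E ρ) (ξ : V) : IsHolIsomFlow E (ln ρ ξ) where
  zero x := by simp only [ln, zero_smul, hρ.zero]
  add s t x := by simp only [ln, add_smul, hρ.add]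
  smooth := by
    have h1 : ContMDiff (𝓘(ℝ, ℝ).prod 𝓘(ℝ, E)) (𝓘(ℝ, V).prod 𝓘(ℝ, E)) ∞
        (fun q : ℝ × M => (q.1 • ξ, q.2)) := by
      refine ContMDiff.prodMk ?_ contMDiff_snd
      have h2 : ContDiff ℝ ∞ (fun t : ℝ => t • ξ) := contDiff_id.smul contDiff_const
      exact h2.contMDiff.comp contMDiff_fst
    exact hρ.smooth.comp h1
  holo t := hρ.holo (t • ξ)
  isom t := hρ.isom (t • ξ)

theorem IsHolIsomAction.comm (hρ : IsHolIsomAction E ρ) (s t : V) (x : M) :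
    ρ s (ρ t x) = ρ t (ρ s x) := by
  rw [← hρ.add, ← hρ.add, add_comm]

theorem isOpen_actΩ (hρ : IsHolIsomAction E ρ) : IsOpen (actΩ ρ e) := by
  have hc : ContinuousOn (fun q : V × E => ρ q.1 (e.symm q.2)) {q | q.2 ∈ e.target} := by
    have h1 : ContinuousOn (fun q : V × E => (q.1, e.symm q.2)) {q | q.2 ∈ e.target} :=
      continuousOn_fst.prodMk (e.continuousOn_symm.comp continuousOn_snd (fun q hq => hq))
    exact hρ.smooth.continuous.comp_continuousOn h1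
  have ho : IsOpen {q : V × E | q.2 ∈ e.target} := e.open_target.preimage continuous_snd
  exact hc.isOpen_inter_preimage ho e.open_source

theorem contDiffOn_actF (hρ : IsHolIsomAction E ρ) (he : e ∈ maximalAtlas 𝓘(ℂ, E) 1 M) :
    ContDiffOn ℝ ∞ (actF ρ e) (actΩ ρ e) := by
  have her := mem_maximalAtlas_real he
  have h1 : ContMDiffOn (𝓘(ℝ, V).prod 𝓘(ℝ, E)) (𝓘(ℝ, V).prod 𝓘(ℝ, E)) ∞
      (fun q : V × E => (q.1, e.symm q.2)) (actΩ ρ e) := by
    refine ContMDiffOn.prodMk contMDiffOn_fst ?_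
    exact (contMDiffOn_symm_of_mem_maximalAtlas her).comp contMDiffOn_snd (fun q hq => hq.1)
  have h2 := hρ.smooth.comp_contMDiffOn h1
  have h3 := (contMDiffOn_of_mem_maximalAtlas her).comp h2 (fun q hq => hq.2)
  have h4 : ContMDiffOn 𝓘(ℝ, V × E) 𝓘(ℝ, E) ∞ (actF ρ e) (actΩ ρ e) := by
    rw [← modelWithCornersSelf_prod, chartedSpaceSelf_prod] at h3
    exact h3
  exact contMDiffOn_iff_contDiffOn.1 h4

theorem mem_actΩ_zero (hρ : IsHolIsomAction E ρ) {z : E} (hz : z ∈ e.target) :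
    ((0 : V), z) ∈ actΩ ρ e := by
  refine ⟨hz, ?_⟩
  simp only [hρ.zero]
  exact e.map_target hz

theorem xL_apply (hρ : IsHolIsomAction E ρ) (he : e ∈ maximalAtlas 𝓘(ℂ, E) 1 M) {z : E}
    (hz : z ∈ e.target) (ξ : V) : xL ρ e z ξ = xF (ln ρ ξ) e z := by
  have h1 : HasFDerivAt (actF ρ e) (fderiv ℝ (actF ρ e) ((0:V), z)) ((0:ℝ) • ξ, z) := by
    rw [zero_smul]
    exact (((contDiffOn_actF hρ he).contDiffAt
      ((isOpen_actΩ hρ).mem_nhds (mem_actΩ_zero hρ hz))).differentiableAt (by simp)).hasFDerivAt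
  have h2 : HasDerivAt (fun t : ℝ => (t • ξ, z)) (ξ, 0) 0 := by
    have h3 : HasDerivAt (fun t : ℝ => t • ξ) ξ 0 := by
      simpa using (hasDerivAt_id (0:ℝ)).smul_const ξ
    exact h3.prodMk (hasDerivAt_const 0 z)
  have h3 := HasFDerivAt.comp_hasDerivAt (f := fun t : ℝ => (t • ξ, z)) (0:ℝ) h1 h2
  exact h3.deriv.symm

theorem vL_apply (hρ : IsHolIsomAction E ρ) (he : e ∈ maximalAtlas 𝓘(ℂ, E) 1 M) {z : E}
    (hz : z ∈ e.target) (ξ : V) : vL ρ e z ξ = vF (ln ρ ξ) e z := by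
  have h1 : vL ρ e z ξ = negI (xL ρ e z ξ) := rfl
  rw [h1, negI_apply, xL_apply hρ he hz, vF]

theorem contDiffOn_vL (hρ : IsHolIsomAction E ρ) (he : e ∈ maximalAtlas 𝓘(ℂ, E) 1 M) :
    ContDiffOn ℝ ∞ (vL ρ e) e.target := by
  have h1 : ContDiffOn ℝ ∞ (fun z : E => fderiv ℝ (actF ρ e) ((0:V), z)) e.target :=
    ((contDiffOn_actF hρ he).fderiv_of_isOpen (isOpen_actΩ hρ) (m := ∞) (by simp)).comp
      (contDiff_prodMk_right 0).contDiffOn (fun z hz => mem_actΩ_zero hρ hz)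
  exact contDiffOn_const.clm_comp (h1.clm_comp contDiffOn_const)

/-- a flow commuting with another one preserves its generator -/
theorem xF_push {σ τ : ℝ → M → M} (hσ : IsHolIsomFlow E σ) (hτ : IsHolIsomFlow E τ)
    (hcomm : ∀ s t x, σ s (τ t x) = τ t (σ s x)) (he : e ∈ maximalAtlas 𝓘(ℂ, E) 1 M)
    (he' : e' ∈ maximalAtlas 𝓘(ℂ, E) 1 M) {s : ℝ} {z : E} (hz : (s, z) ∈ HΩ σ e e') :
    fderiv ℝ (fun w => HF σ e e' (s, w)) z (xF τ e z) = xF τ e' (HF σ e e' (s, z)) := by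
  have h1 := hasDerivAt_HF_left hτ he he (mem_HΩ_zero hτ hz.1)
  rw [← xF_eq hτ he hz.1] at h1
  have h0 : HF τ e e (0, z) = z := by simp [HF, hτ.zero, e.right_inv hz.1]
  have h2 := hasFDerivAt_HF_right hσ he he' hz
  rw [h2.fderiv]
  have h3 : HasFDerivAt (fun w => HF σ e e' (s, w))
      ((fderiv ℝ (HF σ e e') (s, z)).comp (ContinuousLinearMap.inr ℝ ℝ E)) (HF τ e e (0, z)) := by
    rw [h0]; exact h2
  have h4 := h3.comp_hasDerivAt (0:ℝ) h1
  have hz' : HF σ e e' (s, z) ∈ e'.target := e'.map_source hz.2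
  have h5 : (fun t : ℝ => e' (τ t (e'.symm (HF σ e e' (s, z))))) =ᶠ[𝓝 0]
      ((fun w => HF σ e e' (s, w)) ∘ fun t => HF τ e e (t, z)) := by
    have hopen : {t : ℝ | (t, z) ∈ HΩ τ e e} ∈ 𝓝 (0:ℝ) :=
      ((isOpen_HΩ hτ).preimage (Continuous.prodMk continuous_id continuous_const :
        Continuous (fun t : ℝ => (t, z)))).mem_nhds (mem_HΩ_zero hτ hz.1)
    filter_upwards [hopen] with t ht
    simp only [HF, Function.comp_apply]
    rw [e'.left_inv hz.2, e.left_inv ht.2, hcomm]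
  have h6 := (h4.congr_of_eventuallyEq h5).deriv
  exact h6.symm

theorem xF_comm {σ τ : ℝ → M → M} (hσ : IsHolIsomFlow E σ) (hτ : IsHolIsomFlow E τ)
    (hcomm : ∀ s t x, σ s (τ t x) = τ t (σ s x)) (he : e ∈ maximalAtlas 𝓘(ℂ, E) 1 M)
    {z : E} (hz : z ∈ e.target) :
    fderiv ℝ (xF σ e) z (xF τ e z) = fderiv ℝ (xF τ e) z (xF σ e z) := by
  have h0 : HF σ e e (0, z) = z := by simp [HF, hσ.zero, e.right_inv hz]
  have h1 := hasDerivAt_fderiv_HF hσ he hz (xF τ e z)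
  have h2 := hasDerivAt_HF_left hσ he he (mem_HΩ_zero hσ hz)
  rw [← xF_eq hσ he hz] at h2
  have h3 : HasFDerivAt (xF τ e) (fderiv ℝ (xF τ e) z) (HF σ e e (0, z)) := by
    rw [h0]
    exact (((contDiffOn_xF hτ he).contDiffAt (e.open_target.mem_nhds hz)).differentiableAt
      (by simp)).hasFDerivAt
  have h4 : HasDerivAt (fun s => xF τ e (HF σ e e (s, z))) (fderiv ℝ (xF τ e) z (xF σ e z)) 0 :=
    HasFDerivAt.comp_hasDerivAt (f := fun s => HF σ e e (s, z)) (0:ℝ) h3 h2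
  refine h1.unique (h4.congr_of_eventuallyEq ?_)
  have hopen : {t : ℝ | (t, z) ∈ HΩ σ e e} ∈ 𝓝 (0:ℝ) :=
    ((isOpen_HΩ hσ).preimage (Continuous.prodMk continuous_id continuous_const :
      Continuous (fun t : ℝ => (t, z)))).mem_nhds (mem_HΩ_zero hσ hz)
  filter_upwards [hopen] with t ht
  have h5 := xF_push hσ hτ hcomm he he ht
  rw [(hasFDerivAt_HF_right hσ he he ht).fderiv] at h5
  exact h5

theorem fderiv_vF {σ : ℝ → M → M} (hσ : IsHolIsomFlow E σ) (he : e ∈ maximalAtlas 𝓘(ℂ, E) 1 M)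
    {z : E} (hz : z ∈ e.target) (u : E) : fderiv ℝ (vF σ e) z u = -(I • fderiv ℝ (xF σ e) z u) := by
  have h10 : HasFDerivAt (xF σ e) (fderiv ℝ (xF σ e) z) z :=
    (((contDiffOn_xF hσ he).contDiffAt (e.open_target.mem_nhds hz)).differentiableAt
      (by simp)).hasFDerivAt
  have h9 : HasFDerivAt (vF σ e) (-(I • fderiv ℝ (xF σ e) z)) z := (h10.const_smul I).neg
  rw [h9.fderiv]
  rfl

theorem vF_comm {σ τ : ℝ → M → M} (hσ : IsHolIsomFlow E σ) (hτ : IsHolIsomFlow E τ)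
    (hcomm : ∀ s t x, σ s (τ t x) = τ t (σ s x)) (he : e ∈ maximalAtlas 𝓘(ℂ, E) 1 M)
    {z : E} (hz : z ∈ e.target) :
    fderiv ℝ (vF σ e) z (vF τ e z) = fderiv ℝ (vF τ e) z (vF σ e z) := by
  rw [fderiv_vF hσ he hz, fderiv_vF hτ he hz, vF, vF, map_neg, map_neg,
    fderiv_real_smul_I e.open_target (differentiableOn_xF hσ he) hz,
    fderiv_real_smul_I e.open_target (differentiableOn_xF hτ he) hz, xF_comm hσ hτ hcomm he hz]

/-- the action gives a commuting family in each holomorphic chart -/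
theorem commFam_vL (hρ : IsHolIsomAction E ρ) (he : e ∈ maximalAtlas 𝓘(ℂ, E) 1 M) :
    CommFam (chartG e) (vL ρ e) e.target where
  smooth := contDiffOn_vL hρ he
  holo ξ := (differentiableOn_vF (hρ.line ξ) he).congr fun z hz => vL_apply hρ he hz ξ
  kill ξ z hz a := by
    have h1 : (fun z => vL ρ e z ξ) =ᶠ[𝓝 z] vF (ln ρ ξ) e := by
      filter_upwards [e.open_target.mem_nhds hz] with w hw using vL_apply hρ he hw ξ
    rw [h1.fderiv_eq]
    beta_reduce
    rw [vL_apply hρ he hz]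
    exact killing_vF (hρ.line ξ) he z hz a
  comm z hz ξ η := by
    have h1 : ∀ ξ, (fun z => vL ρ e z ξ) =ᶠ[𝓝 z] vF (ln ρ ξ) e := by
      intro ξ
      filter_upwards [e.open_target.mem_nhds hz] with w hw using vL_apply hρ he hw ξ
    rw [(h1 ξ).fderiv_eq, (h1 η).fderiv_eq, vL_apply hρ he hz, vL_apply hρ he hz]
    exact vF_comm (hρ.line ξ) (hρ.line η) (fun s t x => hρ.comm _ _ x) he hz

end Vale.Agent.P253.H577
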