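import Vale.Agent.P253.MathlibUsed

/-!
P253: a positive strictly concave function along a curve which is complete in both directions.
-/

open scoped Topology
open Set Metric Filter

noncomputable section

namespace Vale.Agent.P253.H577

theorem forward_false {M : Type*} [MetricSpace M] [CompleteSpace M] {γ : ℝ → M}
    {F D : ℝ → ℝ} {Θ : M → ℝ} (hΘc : Continuous Θ) (hΘ : ∀ x, 0 < Θ x) (hF : ∀ t, 0 < F t)
    (hFd : ∀ t, HasDerivAt F (Θ (γ t) * D t) t)
    (hdist : ∀ a b, a ≤ b → ∀ g g' : ℝ → ℝ, (∀ t ∈ Icc a b, HasDerivAt g (g' t) t) →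
      (∀ t ∈ Icc a b, Θ (γ t) / √(F t) ≤ g' t) → dist (γ a) (γ b) ≤ g b - g a)
    {δ t₀ : ℝ} (hδ : 0 < δ) (hD : ∀ t, t₀ ≤ t → D t ≤ -δ) : False := by
  have hsq : ∀ t, 0 < √(F t) := fun t => Real.sqrt_pos.2 (hF t)
  have hg : ∀ t, HasDerivAt (fun t => -(2 / δ) * √(F t))
      (-(2 / δ) * (Θ (γ t) * D t / (2 * √(F t)))) t := fun t =>
    ((hFd t).sqrt (hF t).ne').const_mul _
  have hd : ∀ a b, t₀ ≤ a → a ≤ b → dist (γ a) (γ b) ≤ (2 / δ) * (√(F a) - √(F b)) := by
    intro a b ha hab
    have h1 := hdist a b hab _ _ (fun t _ => hg t) (fun t ht => by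
      have h2 := hD t (ha.trans ht.1)
      have h3 : -(2 / δ) * (Θ (γ t) * D t / (2 * √(F t))) = Θ (γ t) / √(F t) * (-D t / δ) := by
        have := (hsq t).ne'
        field_simp
      rw [h3]
      have h4 : 1 ≤ -D t / δ := by
        rw [le_div_iff₀ hδ]; linarith only [h2]
      have h5 : 0 < Θ (γ t) / √(F t) := div_pos (hΘ _) (hsq t)
      nlinarith only [h4, h5])
    linarith only [h1]
  -- the lengths converge
  have hanti : Antitone (fun t => √(F (max t t₀))) := by
    intro a b hab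
    have h1 := hd (max a t₀) (max b t₀) (le_max_right _ _) (max_le_max_right _ hab)
    have h2 : 0 ≤ (2 / δ) * (√(F (max a t₀)) - √(F (max b t₀))) := dist_nonneg.trans h1
    have h3 : 0 < 2 / δ := by positivity
    have h4 := nonneg_of_mul_nonneg_right h2 h3
    simpa using h4
  have hbdd : BddBelow (range fun t => √(F (max t t₀))) :=
    ⟨0, by rintro _ ⟨t, rfl⟩; exact Real.sqrt_nonneg _⟩
  have hlim := tendsto_atTop_ciInf hanti hbdd
  have hcau : CauchySeq γ := by
    have h1 := hlim.cauchySeq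
    rw [Metric.cauchySeq_iff'] at h1 ⊢
    intro ε hε
    obtain ⟨N, hN⟩ := h1 (ε * (δ / 2)) (by positivity)
    refine ⟨max N t₀, fun n hn => ?_⟩
    have h2 := hN n ((le_max_left _ _).trans hn)
    have h3 := hN (max N t₀) (le_max_left _ _)
    have hn0 : t₀ ≤ n := (le_max_right _ _).trans hn
    have h4 := hd (max N t₀) n (le_max_right _ _) hn
    rw [Real.dist_eq, max_eq_left hn0] at h2
    rw [dist_comm]
    refine h4.trans_lt ?_
    have h5 : √(F (max N t₀)) - √(F n) ≤ |√(F n) - √(F (max N t₀))| := by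
      rw [abs_sub_comm]; exact le_abs_self _
    have h6 : (2 / δ) * (√(F (max N t₀)) - √(F n)) < (2 / δ) * (ε * (δ / 2)) := by
      have : 0 < 2 / δ := by positivity
      exact mul_lt_mul_of_pos_left (h5.trans_lt h2) this
    refine h6.trans_le (le_of_eq ?_)
    field_simp
  obtain ⟨y, hy⟩ := cauchySeq_tendsto_of_complete hcau
  have hΘlim : Tendsto (fun t => Θ (γ t)) atTop (𝓝 (Θ y)) := (hΘc.tendsto y).comp hy
  have hev : ∀ᶠ t in atTop, Θ y / 2 < Θ (γ t) :=
    hΘlim.eventually (lt_mem_nhds (half_lt_self (hΘ y)))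
  obtain ⟨t₁, ht₁⟩ := eventually_atTop.1 (hev.and (eventually_ge_atTop t₀))
  set c₀ := Θ y / 2 * δ with hc₀
  have hc₀pos : 0 < c₀ := mul_pos (half_pos (hΘ y)) hδ
  have hdec : ∀ t, t₁ ≤ t → F t ≤ F t₁ - c₀ * (t - t₁) := by
    intro t ht
    have hder : ∀ s, HasDerivAt (fun s => F s + c₀ * s) (Θ (γ s) * D s + c₀ * 1) s := fun s =>
      (hFd s).add ((hasDerivAt_id s).const_mul c₀)
    have hA : AntitoneOn (fun s => F s + c₀ * s) (Icc t₁ t) := by
      apply antitoneOn_of_deriv_nonpos (convex_Icc t₁ t)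
      · exact fun s _ => (hder s).continuousAt.continuousWithinAt
      · exact fun s _ => (hder s).differentiableAt.differentiableWithinAt
      · intro s hs
        rw [interior_Icc] at hs
        rw [(hder s).deriv]
        have h1 := (ht₁ s hs.1.le).1
        have h2 := hD s (ht₁ s hs.1.le).2
        rw [hc₀]
        nlinarith only [h1, h2, hδ, hΘ (γ s)]
    have h1 := hA (left_mem_Icc.2 ht) (right_mem_Icc.2 ht) ht
    simp only at h1
    linarith only [h1]
  have h1 := hdec (t₁ + (F t₁ / c₀ + 1)) (by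
    have := div_pos (hF t₁) hc₀pos
    linarith only [this])
  have h2 : c₀ * (t₁ + (F t₁ / c₀ + 1) - t₁) = F t₁ + c₀ := by
    field_simp
    ring
  rw [h2] at h1
  have h3 := hF (t₁ + (F t₁ / c₀ + 1))
  linarith only [h1, h3, hc₀pos]

theorem no_curve {M : Type*} [MetricSpace M] [CompleteSpace M] {γ : ℝ → M}
    {F D : ℝ → ℝ} {Θ : M → ℝ} (hΘc : Continuous Θ) (hΘ : ∀ x, 0 < Θ x) (hF : ∀ t, 0 < F t)
    (hFd : ∀ t, HasDerivAt F (Θ (γ t) * D t) t) (hD : StrictAnti D)
    (hdist : ∀ a b, a ≤ b → ∀ g g' : ℝ → ℝ, (∀ t ∈ Icc a b, HasDerivAt g (g' t) t) →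
      (∀ t ∈ Icc a b, Θ (γ t) / √(F t) ≤ g' t) → dist (γ a) (γ b) ≤ g b - g a) : False := by
  by_cases h1 : D 1 < 0
  · refine forward_false hΘc hΘ hF hFd hdist (δ := -D 1) (t₀ := 1) (by linarith only [h1])
      fun t ht => ?_
    rw [neg_neg]
    exact hD.antitone ht
  · push Not at h1
    have h0 : 0 < D 0 := h1.trans_lt (hD one_pos)
    refine forward_false (γ := fun t => γ (-t)) (F := fun t => F (-t)) (D := fun t => -D (-t))
      hΘc hΘ (fun t => hF (-t)) (fun t => ?_) ?_ (δ := D 0) (t₀ := 0) h0 fun t ht => ?_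
    · have h2 := (hFd (-t)).scomp t (hasDerivAt_neg t)
      refine h2.congr_deriv ?_
      simp
    · intro a b hab g g' hg hg'
      have h2 := hdist (-b) (-a) (by linarith only [hab]) (fun t => -g (-t)) (fun t => g' (-t))
        (fun t ht => by
          have h3 := hg (-t) ⟨by linarith only [ht.2], by linarith only [ht.1]⟩
          have h4 := (h3.scomp t (hasDerivAt_neg t)).neg
          refine h4.congr_deriv ?_
          simp)
        (fun t ht => by
          have h3 := hg' (-t) ⟨by linarith only [ht.2], by linarith only [ht.1]⟩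
          simpa using h3)
      rw [dist_comm]
      refine h2.trans (le_of_eq ?_)
      simp
      ring
    · have h2 : D 0 ≤ D (-t) := hD.antitone (by linarith only [ht])
      linarith only [h2]

end Vale.Agent.P253.H577
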