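import Vale.Agent.P253.H577.Inv
import Vale.Agent.P253.H577.Ana

/-!
P253: there is no complete integral curve of the field inside the zero set of the weight.
-/

open scoped Manifold ContDiff Topology Bundle
open Set Metric Complex Filter Bundle IsManifold Manifold Vale.Agent.P253.Mfd

set_option maxSynthPendingDepth 3
set_option linter.unusedSectionVars false

noncomputable section

namespace Vale.Agent.P253.H577

variable {E : Type*} [NormedAddCommGroup E] [NormedSpace ℂ E] [FiniteDimensional ℂ E]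
  {M : Type*} [MetricSpace M] [ChartedSpace E M]
  {V : Type*} [NormedAddCommGroup V] [InnerProductSpace ℝ V] [FiniteDimensional ℝ V]
  [IsManifold 𝓘(ℂ, E) 1 M] [IsManifold 𝓘(ℝ, E) ∞ M]
  [RiemannianBundle (fun x : M => TangentSpace 𝓘(ℝ, E) x)]
  [IsContMDiffRiemannianBundle 𝓘(ℝ, E) ∞ E (fun x : M => TangentSpace 𝓘(ℝ, E) x)]
  {ρ : V → M → M} {e : OpenPartialHomeomorph M E} {c : M → ℝ} {ℓ : V →L[ℝ] ℝ}

theorem continuous_tM (hρ : IsHolIsomAction E ρ) (hc : Weight (E := E) ρ c) :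
    Continuous (tM E ρ c ℓ) := by
  rw [continuous_iff_continuousAt]
  intro x
  have he : chartAt E x ∈ maximalAtlas 𝓘(ℂ, E) 1 M := chart_mem_maximalAtlas x
  set e := chartAt E x with hedef
  have hx : x ∈ e.source := mem_chart_source E x
  have h1 : ContinuousAt (fun y => tC ρ c ℓ e (e y)) x :=
    ContinuousAt.comp (f := e) (((contDiffOn_tC hρ he hc).contDiffAt
      (e.open_target.mem_nhds (e.map_source hx))).continuousAt) (e.continuousAt hx)
  refine h1.congr ?_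
  filter_upwards [e.open_source.mem_nhds hx] with y hy using tC_eq hρ he hy

theorem tM_pos (hρ : IsHolIsomAction E ρ) (x : M) : 0 < tM E ρ c ℓ x :=
  tC_pos hρ (chart_mem_maximalAtlas x) (mem_chart_target E x)

section core

variable (hρ : IsHolIsomAction E ρ) (hc : Weight (E := E) ρ c)

include hρ hc

theorem gram_wM {x : M} (hx : c x = 0) (η : V) : gram E ρ x (wM E ρ c ℓ x) η = ℓ η := by
  have he : chartAt E x ∈ maximalAtlas 𝓘(ℂ, E) 1 M := chart_mem_maximalAtlas x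
  have h1 := mgC_eq (c := c) hρ he (mem_chart_source E x)
  rw [hx, zero_smul, add_zero] at h1
  rw [wM, wC, h1]
  exact congrArg (fun T : V →L[ℝ] ℝ => T η) (inverse_spec (fun v hv => hc.pos x hx v hv) ℓ)

theorem chartG_wM (he : e ∈ maximalAtlas 𝓘(ℂ, E) 1 M) {x : M} (hxe : x ∈ e.source) (hx : c x = 0)
    (η : V) : chartG e (e x) (vL ρ e (e x) (wM E ρ c ℓ x)) (vL ρ e (e x) η) = ℓ η := by
  rw [← gramC_apply, gramC_eq hρ he hxe, gram_wM hρ hc hx]

theorem wM_ne (hℓ : ℓ ≠ 0) {x : M} (hx : c x = 0) : wM E ρ c ℓ x ≠ 0 := by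
  intro h0
  apply hℓ
  ext η
  rw [← gram_wM hρ hc hx η, h0]
  simp

theorem ell_pos (hℓ : ℓ ≠ 0) {x : M} (hx : c x = 0) : 0 < ℓ (wM E ρ c ℓ x) := by
  rw [← gram_wM hρ hc hx]
  exact hc.pos x hx _ (wM_ne hρ hc hℓ hx)

theorem vL_inj (he : e ∈ maximalAtlas 𝓘(ℂ, E) 1 M) {x : M} (hxe : x ∈ e.source) (hx : c x = 0)
    (η : V) (h0 : vL ρ e (e x) η = 0) : η = 0 := by
  by_contra hne
  have h1 := hc.pos x hx η hne
  rw [← gramC_eq hρ he hxe, gramC_apply, h0] at h1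
  simp at h1

/-- derivative of the direction field along an integral curve -/
theorem hasDerivAt_wM (he : e ∈ maximalAtlas 𝓘(ℂ, E) 1 M) {γ : ℝ → M}
    (hγ : IsMIntegralCurve (I := 𝓘(ℝ, E)) γ (sec (zM E ρ c ℓ))) {t : ℝ}
    (hsrc : γ t ∈ e.source) : ∃ w', HasDerivAt (fun s => wM E ρ c ℓ (γ s)) w' t := by
  have hZ := chartField_zM (ℓ := ℓ) hρ hc
  have h1 := hZ.hasDerivAt he (hγ.isMIntegralCurveOn univ) univ_mem hsrc
  have h2 : HasFDerivAt (wC ρ c ℓ e) (fderiv ℝ (wC ρ c ℓ e) ((e ∘ γ) t)) ((e ∘ γ) t) :=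
    (((contDiffOn_wC hρ he hc).contDiffAt (e.open_target.mem_nhds
      (e.map_source hsrc))).differentiableAt (by simp)).hasFDerivAt
  have h3 := HasFDerivAt.comp_hasDerivAt (f := e ∘ γ) t h2 h1
  refine ⟨_, h3.congr_of_eventuallyEq ?_⟩
  filter_upwards [hγ.continuous.continuousAt.eventually (e.open_source.mem_nhds hsrc)] with s hs
  exact (wC_eq hρ he hs).symm

end core

variable [IsRiemannianManifold 𝓘(ℝ, E) M]

theorem no_integral_curve [CompleteSpace M] (hK : IsKahler E M)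
    (hR : ∀ e ∈ maximalAtlas 𝓘(ℂ, E) 1 M, ∀ x ∈ e.source, ∀ a, a ≠ 0 →
      0 < Rc (chartG (M := M) e) (e x) a a)
    (hρ : IsHolIsomAction E ρ) (hc : Weight (E := E) ρ c) (hℓ : ℓ ≠ 0)
    (hgrad : ∀ e ∈ maximalAtlas 𝓘(ℂ, E) 1 M, ∀ x ∈ e.source, c x = 0 → ∀ ξ, ∃ ζ,
      Nop (chartG e) (fun z => vL ρ e z ξ) (e x) (vL ρ e (e x) ξ) = vL ρ e (e x) ζ)
    {γ : ℝ → M} (hγ : IsMIntegralCurve (I := 𝓘(ℝ, E)) γ (sec (zM E ρ c ℓ)))
    (hγc : ∀ t, c (γ t) = 0) : False := by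
  have hZ := chartField_zM (ℓ := ℓ) hρ hc
  have hγc' : Continuous γ := hγ.continuous
  set w : ℝ → V := fun s => wM E ρ c ℓ (γ s) with hw
  set F : ℝ → ℝ := fun s => (ℓ (w s))⁻¹ with hF
  have hℓpos : ∀ t, 0 < ℓ (w t) := fun t => ell_pos hρ hc hℓ (hγc t)
  -- the derivative in a chart
  have key1 : ∀ e ∈ maximalAtlas 𝓘(ℂ, E) 1 M, ∀ t, γ t ∈ e.source →
      HasDerivAt (e ∘ γ) (tM E ρ c ℓ (γ t) • vL ρ e ((e ∘ γ) t) (w t)) t := by
    intro e he t hsrc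
    have h1 := hZ.hasDerivAt he (hγ.isMIntegralCurveOn univ) univ_mem hsrc
    rw [zC, tC_eq hρ he hsrc, wC_eq hρ he hsrc] at h1
    exact h1
  have key2 : ∀ e ∈ maximalAtlas 𝓘(ℂ, E) 1 M, ∀ t, γ t ∈ e.source →
      ∀ᶠ s in 𝓝 t, ∀ η, chartG e ((e ∘ γ) s) (vL ρ e ((e ∘ γ) s) (w s)) (vL ρ e ((e ∘ γ) s) η)
        = ℓ η := by
    intro e he t hsrc
    filter_upwards [hγc'.continuousAt.eventually (e.open_source.mem_nhds hsrc)] with s hs η
    exact chartG_wM hρ hc he hs (hγc s) η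
  have key3 : ∀ e ∈ maximalAtlas 𝓘(ℂ, E) 1 M, ∀ t, γ t ∈ e.source →
      HasDerivAt F (tM E ρ c ℓ (γ t) *
        (2 * T3 (chartG e) (vL ρ e) ((e ∘ γ) t) (w t) (w t) (w t) / (ℓ (w t)) ^ 2)) t := by
    intro e he t hsrc
    have hL := commFam_vL hρ he
    have hLK := localKahler_chartG hK he
    obtain ⟨w', hw'⟩ := hasDerivAt_wM (ℓ := ℓ) hρ hc he hγ hsrc
    obtain ⟨ζ, hζ⟩ := hgrad e he (γ t) hsrc (hγc t) (w t)
    exact hL.hasDerivAt_inv hLK (y := e ∘ γ) (w := w) (e.map_source hsrc) (key1 e he t hsrc) hw'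
      (key2 e he t hsrc) hζ (vL_inj hρ hc he hsrc (hγc t)) (hℓpos t)
  have key4 : ∀ e ∈ maximalAtlas 𝓘(ℂ, E) 1 M, ∀ t, γ t ∈ e.source →
      ∃ D' < 0, HasDerivAt (fun s => 2 * T3 (chartG e) (vL ρ e) ((e ∘ γ) s) (w s) (w s) (w s)
        / (ℓ (w s)) ^ 2) D' t := by
    intro e he t hsrc
    have hL := commFam_vL hρ he
    have hLK := localKahler_chartG hK he
    obtain ⟨w', hw'⟩ := hasDerivAt_wM (ℓ := ℓ) hρ hc he hγ hsrc
    obtain ⟨ζ, hζ⟩ := hgrad e he (γ t) hsrc (hγc t) (w t)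
    refine hL.hasDerivAt_slope hLK (y := e ∘ γ) (w := w) (e.map_source hsrc) (key1 e he t hsrc) hw'
      (key2 e he t hsrc) hζ (vL_inj hρ hc he hsrc (hγc t)) (hℓpos t) (tM_pos hρ _) ?_
    refine hR e he (γ t) hsrc _ fun h0 => ?_
    exact wM_ne hρ hc hℓ (hγc t) (vL_inj hρ hc he hsrc (hγc t) _ h0)
  set D : ℝ → ℝ := fun t => 2 * T3 (chartG (chartAt E (γ t))) (vL ρ (chartAt E (γ t)))
    ((chartAt E (γ t) ∘ γ) t) (w t) (w t) (w t) / (ℓ (w t)) ^ 2 with hD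
  have hFd : ∀ t, HasDerivAt F (tM E ρ c ℓ (γ t) * D t) t := fun t =>
    key3 _ (chart_mem_maximalAtlas (γ t)) t (mem_chart_source E (γ t))
  have hDd : ∀ t, ∃ D' < 0, HasDerivAt D D' t := by
    intro t
    have he : chartAt E (γ t) ∈ maximalAtlas 𝓘(ℂ, E) 1 M := chart_mem_maximalAtlas (γ t)
    have hsrc : γ t ∈ (chartAt E (γ t)).source := mem_chart_source E (γ t)
    obtain ⟨D', hD', h1⟩ := key4 _ he t hsrc
    refine ⟨D', hD', h1.congr_of_eventuallyEq ?_⟩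
    filter_upwards [hγc'.continuousAt.eventually ((chartAt E (γ t)).open_source.mem_nhds hsrc)]
      with s hs
    have h2 := (hFd s).unique (key3 _ he s hs)
    exact mul_left_cancel₀ (tM_pos hρ (γ s)).ne' h2
  have hDanti : StrictAnti D := by
    refine strictAnti_of_deriv_neg fun t => ?_
    obtain ⟨D', hD', h1⟩ := hDd t
    rw [h1.deriv]
    exact hD'
  refine no_curve (γ := γ) (F := F) (D := D) (Θ := tM E ρ c ℓ) (continuous_tM hρ hc)
    (tM_pos hρ) (fun t => inv_pos.2 (hℓpos t)) hFd hDanti fun a b hab g g' hg hg' => ?_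
  refine hZ.dist_le (a := a - 1) (b := b + 1) (hγ.isMIntegralCurveOn _) hab
    ⟨by linarith only [], by linarith only [hab]⟩ ⟨by linarith only [hab], by linarith only []⟩
    hg fun t ht => ?_
  refine le_trans (le_of_eq ?_) (hg' t ht)
  rw [len_zM hρ, gram_wM hρ hc (hγc t), Real.sqrt_mul (sq_nonneg _), Real.sqrt_sq (tM_pos hρ _).le]
  have h3 : √(F t) = (√(ℓ (w t)))⁻¹ := Real.sqrt_inv _
  rw [h3, div_inv_eq_mul]

end Vale.Agent.P253.H577
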