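import Vale.Agent.P253.H577.Rig

/-!
P253: integral curves of smooth vector fields of bounded length on a complete manifold.
-/

open scoped Manifold ContDiff Topology Bundle
open Set Metric Complex Filter Bundle IsManifold Manifold Vale.Agent.P253.Mfd

set_option maxSynthPendingDepth 3
set_option linter.unusedSectionVars false

noncomputable section

namespace Vale.Agent.P253.H577

variable {E : Type*} [NormedAddCommGroup E] [NormedSpace ℂ E] [FiniteDimensional ℂ E]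
  {M : Type*} [MetricSpace M] [ChartedSpace E M]

/-- a vector field with values in the model space as a section of the tangent bundle -/
def sec (Z : M → E) (x : M) : TangentSpace 𝓘(ℝ, E) x := Z x

/-- the vector field `Z` has the smooth expression `Zc e` in the chart `e` -/
structure ChartField (Z : M → E) (Zc : OpenPartialHomeomorph M E → E → E) : Prop where
  smooth : ∀ e ∈ maximalAtlas 𝓘(ℂ, E) 1 M, ContDiffOn ℝ ∞ (Zc e) e.target
  rel : ∀ e ∈ maximalAtlas 𝓘(ℂ, E) 1 M, ∀ x ∈ e.source, dsymm e (e x) (Zc e (e x)) = Z x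

variable [IsManifold 𝓘(ℂ, E) 1 M] [IsManifold 𝓘(ℝ, E) ∞ M]
  [RiemannianBundle (fun x : M => TangentSpace 𝓘(ℝ, E) x)]
  [IsContMDiffRiemannianBundle 𝓘(ℝ, E) ∞ E (fun x : M => TangentSpace 𝓘(ℝ, E) x)]
  {e e' : OpenPartialHomeomorph M E} {Z : M → E} {Zc : OpenPartialHomeomorph M E → E → E}

namespace ChartField

theorem neg (hZ : ChartField Z Zc) : ChartField (fun x => -Z x) (fun e z => -Zc e z) where
  smooth e he := (hZ.smooth e he).neg
  rel e he x hx := by rw [map_neg, hZ.rel e he x hx]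

theorem rel' (hZ : ChartField Z Zc) (he : e ∈ maximalAtlas 𝓘(ℂ, E) 1 M) {x : M}
    (hx : x ∈ e.source) : dchart e x (Z x) = Zc e (e x) := by
  have her := mem_maximalAtlas_real he
  have hz : e x ∈ e.target := e.map_source hx
  have h1 := (mdifferentiable_chart her).comp_symm_deriv hz
  rw [← hZ.rel e he x hx]
  rw [e.left_inv hx] at h1
  exact congrArg (fun T : E →L[ℝ] E => T (Zc e (e x))) h1

theorem len (hZ : ChartField Z Zc) (he : e ∈ maximalAtlas 𝓘(ℂ, E) 1 M) {x : M}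
    (hx : x ∈ e.source) : chartG e (e x) (Zc e (e x)) (Zc e (e x)) = innerAt (E := E) x (Z x) (Z x) := by
  rw [chartG_eq_innerAt, hZ.rel e he x hx, e.left_inv hx]

theorem hasDerivWithinAt (hZ : ChartField Z Zc)
    (he : e ∈ maximalAtlas 𝓘(ℂ, E) 1 M) {γ : ℝ → M} {s : Set ℝ}
    (hγ : IsMIntegralCurveOn (I := 𝓘(ℝ, E)) γ (sec Z) s) {t : ℝ} (ht : t ∈ s)
    (hsrc : γ t ∈ e.source) : HasDerivWithinAt (e ∘ γ) (Zc e (e (γ t))) s t := by
  have her := mem_maximalAtlas_real he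
  have h1 := hγ t ht
  have h2 : HasMFDerivAt 𝓘(ℝ, E) 𝓘(ℝ, E) e (γ t) (mfderiv 𝓘(ℝ, E) 𝓘(ℝ, E) e (γ t)) :=
    (((contMDiffOn_of_mem_maximalAtlas her).contMDiffAt
      (e.open_source.mem_nhds hsrc)).mdifferentiableAt (by simp)).hasMFDerivAt
  have h3 := h2.comp_hasMFDerivWithinAt t h1
  have h4 : HasFDerivWithinAt (e ∘ γ)
      ((dchart e (γ t)).comp ((1 : ℝ →L[ℝ] ℝ).smulRight (Z (γ t)))) s t := by
    have h5 := h3.2
    have h6 : HasFDerivWithinAt (e ∘ γ)
      ((dchart e (γ t)).comp ((1 : ℝ →L[ℝ] ℝ).smulRight (Z (γ t))))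
      ((extChartAt 𝓘(ℝ, ℝ) t).symm ⁻¹' s ∩ range 𝓘(ℝ, ℝ)) t := h5
    rw [modelWithCornersSelf_coe, range_id, inter_univ] at h6
    exact h6
  have h5 := h4.hasDerivWithinAt
  rw [← hZ.rel' he hsrc]
  refine HasDerivWithinAt.congr_deriv h5 ?_
  simp

theorem hasDerivAt (hZ : ChartField Z Zc)
    (he : e ∈ maximalAtlas 𝓘(ℂ, E) 1 M) {γ : ℝ → M} {s : Set ℝ}
    (hγ : IsMIntegralCurveOn (I := 𝓘(ℝ, E)) γ (sec Z) s) {t : ℝ} (ht : s ∈ 𝓝 t)
    (hsrc : γ t ∈ e.source) : HasDerivAt (e ∘ γ) (Zc e (e (γ t))) t :=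
  (hZ.hasDerivWithinAt he hγ (mem_of_mem_nhds ht) hsrc).hasDerivAt ht

theorem of_chart (hZ : ChartField Z Zc)
    (he : e ∈ maximalAtlas 𝓘(ℂ, E) 1 M) {y : ℝ → E} {t : ℝ}
    (hy : HasDerivAt y (Zc e (y t)) t) (hyt : y t ∈ e.target) :
    HasMFDerivAt 𝓘(ℝ, ℝ) 𝓘(ℝ, E) (e.symm ∘ y) t
      ((1 : ℝ →L[ℝ] ℝ).smulRight (sec Z (e.symm (y t)))) := by
  have her := mem_maximalAtlas_real he
  have h1 : HasMFDerivAt 𝓘(ℝ, E) 𝓘(ℝ, E) e.symm (y t) (mfderiv 𝓘(ℝ, E) 𝓘(ℝ, E) e.symm (y t)) :=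
    (((contMDiffOn_symm_of_mem_maximalAtlas her).contMDiffAt
      (e.open_target.mem_nhds hyt)).mdifferentiableAt (by simp)).hasMFDerivAt
  have h2 := h1.comp t hy.hasFDerivAt.hasMFDerivAt
  have h3 := hZ.rel e he _ (e.map_target hyt)
  rw [e.right_inv hyt] at h3
  have h4 : ((1 : ℝ →L[ℝ] ℝ).smulRight (Z (e.symm (y t)))) =
      (dsymm e (y t)).comp (ContinuousLinearMap.toSpanSingleton ℝ (Zc e (y t))) := by
    ext
    simp [h3]
  have key : ∀ (L L' : ℝ →L[ℝ] E), L = L' →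
      HasMFDerivAt 𝓘(ℝ, ℝ) 𝓘(ℝ, E) (e.symm ∘ y) t L →
      HasMFDerivAt 𝓘(ℝ, ℝ) 𝓘(ℝ, E) (e.symm ∘ y) t L' := by
    rintro L _ rfl h; exact h
  exact key _ _ h4.symm h2

/-- `Zc e` as a section of the tangent bundle of the model space -/
def secT (Zc : OpenPartialHomeomorph M E → E → E) (e : OpenPartialHomeomorph M E) (z : E) :
    TangentSpace 𝓘(ℝ, E) z := Zc e z

set_option backward.isDefEq.respectTransparency false in
/-- the vector field is smooth -/
theorem contMDiff (hZ : ChartField Z Zc) :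
    ContMDiff 𝓘(ℝ, E) 𝓘(ℝ, E).tangent 1
      (fun x : M => (⟨x, sec Z x⟩ : TangentBundle 𝓘(ℝ, E) M)) := by
  intro x₀
  set e := chartAt E x₀ with hedef
  have he : e ∈ maximalAtlas 𝓘(ℂ, E) 1 M := chart_mem_maximalAtlas x₀
  have her := mem_maximalAtlas_real he
  have hx₀ : x₀ ∈ e.source := mem_chart_source E x₀
  have h1 : ContMDiffOn 𝓘(ℝ, E) 𝓘(ℝ, E) ∞ e.symm e.target :=
    contMDiffOn_symm_of_mem_maximalAtlas her
  have h2 : ContMDiffOn 𝓘(ℝ, E).tangent 𝓘(ℝ, E).tangent 1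
      (tangentMapWithin 𝓘(ℝ, E) 𝓘(ℝ, E) e.symm e.target) (Bundle.TotalSpace.proj ⁻¹' e.target) :=
    h1.contMDiffOn_tangentMapWithin (by
      simpa using! (WithTop.coe_le_coe.2 le_top : ((2 : ℕ∞) : WithTop ℕ∞) ≤ ((⊤ : ℕ∞) : WithTop ℕ∞)))
      e.open_target.uniqueMDiffOn
  have hvr : ContDiffOn ℝ 1 (Zc e) e.target := (hZ.smooth e he).of_le (by simp)
  have h3 : ContMDiffOn 𝓘(ℝ, E) 𝓘(ℝ, E).tangent 1
      (fun z : E => (⟨z, secT Zc e z⟩ : TangentBundle 𝓘(ℝ, E) E)) e.target :=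
    (contMDiffOn_vectorSpace_iff_contDiffOn (V := fun z : E => secT Zc e z)).2 hvr
  have h4 := h2.comp h3 (fun z hz => hz)
  have h5 : ContMDiffOn 𝓘(ℝ, E) 𝓘(ℝ, E) 1 e e.source :=
    (contMDiffOn_of_mem_maximalAtlas her).of_le (by simp)
  have h6 := h4.comp h5 (fun x hx => e.map_source hx)
  refine (h6.congr (fun x hx => ?_)).contMDiffAt (e.open_source.mem_nhds hx₀)
  simp only [Function.comp, tangentMapWithin]
  rw [mfderivWithin_of_isOpen e.open_target (e.map_source hx)]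
  have h7 := hZ.rel e he x hx
  apply Bundle.TotalSpace.ext
  · exact (e.left_inv hx).symm
  · apply heq_of_eq
    exact h7.symm

/-- local existence with locally uniform time -/
theorem exists_local_curve (hZ : ChartField Z Zc) (x₀ : M) :
    ∃ ε > 0, ∃ V ∈ 𝓝 x₀, ∀ x ∈ V, ∃ γ : ℝ → M, γ 0 = x ∧
      IsMIntegralCurveOn (I := 𝓘(ℝ, E)) γ (sec Z) (Ioo (-ε) ε) := by
  have hCE : CompleteSpace E := FiniteDimensional.complete ℂ E
  have he : chartAt E x₀ ∈ maximalAtlas 𝓘(ℂ, E) 1 M := chart_mem_maximalAtlas x₀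
  set e := chartAt E x₀ with hedef
  have hx₀ : x₀ ∈ e.source := mem_chart_source E x₀
  have hC1 : ContDiffAt ℝ 1 (Zc e) (e x₀) :=
    ((hZ.smooth e he).contDiffAt (e.open_target.mem_nhds (e.map_source hx₀))).of_le (by simp)
  obtain ⟨ε, hε, a, r, L, K, hr, hpl⟩ := IsPicardLindelof.of_contDiffAt_one hC1
  obtain ⟨α, hα1, hα2⟩ := (hpl 0).exists_forall_mem_closedBall_eq_hasDerivWithinAt_continuousOn
  -- stay in the target
  have hopen : ∀ᶠ q in 𝓝[closedBall (e x₀) r ×ˢ Icc (0 - ε) (0 + ε)] (e x₀, (0:ℝ)),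
      α q ∈ e.target := by
    have h1 := hα2 (e x₀, (0:ℝ)) ⟨mem_closedBall_self r.2, ⟨by linarith only [hε],
      by linarith only [hε]⟩⟩
    apply h1
    have h2 : α (e x₀, (0:ℝ)) = e x₀ := (hα1 (e x₀) (mem_closedBall_self r.2)).1
    rw [h2]
    exact e.open_target.mem_nhds (e.map_source hx₀)
  have hr' : (0:ℝ) < r := hr
  have hnh : closedBall (e x₀) (r:ℝ) ×ˢ Icc (0 - ε) (0 + ε) ∈ 𝓝 (e x₀, (0:ℝ)) :=
    prod_mem_nhds (closedBall_mem_nhds _ hr') (Icc_mem_nhds (by linarith only [hε])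
      (by linarith only [hε]))
  rw [nhdsWithin_eq_nhds.2 hnh] at hopen
  obtain ⟨δ, hδ, hball⟩ := Metric.eventually_nhds_iff.1 hopen
  refine ⟨min ε δ, lt_min hε hδ, e.source ∩ e ⁻¹' (ball (e x₀) (min r δ)),
    inter_mem (e.open_source.mem_nhds hx₀) ((e.continuousAt hx₀).preimage_mem_nhds
      (ball_mem_nhds _ (lt_min hr' hδ))), fun x hx => ?_⟩
  have hxr : e x ∈ closedBall (e x₀) r :=
    (ball_subset_closedBall.trans (closedBall_subset_closedBall (min_le_left _ _))) hx.2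
  obtain ⟨h0, h1⟩ := hα1 (e x) hxr
  refine ⟨fun t => e.symm (α (e x, t)), by simp only [h0, e.left_inv hx.1], fun t ht => ?_⟩
  have htε : t ∈ Ioo (-ε) ε := ⟨by linarith [ht.1, min_le_left ε δ], ht.2.trans_le (min_le_left _ _)⟩
  have h2 : α (e x, t) ∈ e.target := by
    apply hball
    rw [Prod.dist_eq, max_lt_iff]
    refine ⟨(mem_ball.1 hx.2).trans_le (min_le_right _ _), ?_⟩
    rw [dist_zero_right, Real.norm_eq_abs, abs_lt]
    exact ⟨by linarith [ht.1, min_le_right ε δ], ht.2.trans_le (min_le_right _ _)⟩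
  have h3 : HasDerivAt (fun s => α (e x, s)) (Zc e (α (e x, t))) t := by
    have h4 := h1 t ⟨by linarith [htε.1], by linarith [htε.2]⟩
    exact h4.hasDerivAt (Icc_mem_nhds (by linarith [htε.1]) (by linarith [htε.2]))
  exact (hZ.of_chart he h3 h2).hasMFDerivWithinAt

theorem exists_uniform_time (hZ : ChartField Z Zc) {K : Set M} (hK : IsCompact K) :
    ∃ ε > 0, ∀ x ∈ K, ∃ γ : ℝ → M, γ 0 = x ∧
      IsMIntegralCurveOn (I := 𝓘(ℝ, E)) γ (sec Z) (Ioo (-ε) ε) := by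
  choose ε hε V hV hcurve using fun x₀ : M => hZ.exists_local_curve x₀
  obtain ⟨T, hTK, hT⟩ := hK.elim_nhds_subcover V (fun x _ => hV x)
  rcases T.eq_empty_or_nonempty with rfl | hne
  · refine ⟨1, one_pos, fun x hx => ?_⟩
    have := hT hx
    simp at this
  refine ⟨T.inf' hne ε, (Finset.lt_inf'_iff hne).2 fun x _ => hε x, fun x hx => ?_⟩
  obtain ⟨x₀, hx₀, hxx₀⟩ := mem_iUnion₂.1 (hT hx)
  obtain ⟨γ, h0, h1⟩ := hcurve x₀ x hxx₀
  have h2 : T.inf' hne ε ≤ ε x₀ := Finset.inf'_le _ hx₀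
  exact ⟨γ, h0, h1.mono (Ioo_subset_Ioo (by linarith only [hne, h2]) h2)⟩

variable [IsRiemannianManifold 𝓘(ℝ, E) M]

/-- the distance of two points of an integral curve is at most the increment of any function whose
derivative bounds the speed -/
theorem dist_le (hZ : ChartField Z Zc) {γ : ℝ → M} {a b : ℝ}
    (hγ : IsMIntegralCurveOn (I := 𝓘(ℝ, E)) γ (sec Z) (Ioo a b)) {t₀ t₁ : ℝ} (h01 : t₀ ≤ t₁)
    (ht₀ : t₀ ∈ Ioo a b) (ht₁ : t₁ ∈ Ioo a b) {g g' : ℝ → ℝ}
    (hg : ∀ t ∈ Icc t₀ t₁, HasDerivAt g (g' t) t)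
    (hsp : ∀ t ∈ Icc t₀ t₁, √(innerAt (E := E) (γ t) (Z (γ t)) (Z (γ t))) ≤ g' t) :
    dist (γ t₀) (γ t₁) ≤ g t₁ - g t₀ := by
  have hsub : Icc t₀ t₁ ⊆ Ioo a b := fun s hs => ⟨ht₀.1.trans_le hs.1, hs.2.trans_lt ht₁.2⟩
  refine interval_propagate (P := fun t => dist (γ t₀) (γ t) ≤ g t - g t₀) h01
    (fun t ht => ?_) (by simp)
  obtain ⟨ε, hε, hloc⟩ := curve_local hγ (hsub ht)
  refine ⟨ε, hε, fun s hs s' hs' hst hs't hss' hPs => ?_⟩
  have he : chartAt E (γ t) ∈ maximalAtlas 𝓘(ℂ, E) 1 M := chart_mem_maximalAtlas (γ t)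
  set e := chartAt E (γ t) with hedef
  have her := mem_maximalAtlas_real he
  have hint : ∀ r ∈ Icc s s', |r - t| < ε := by
    intro r hr
    rw [abs_lt] at hst hs't ⊢
    exact ⟨by linarith only [hst, hr, hr.1], by linarith only [hs't, hr, hr.2]⟩
  have hder : ∀ r ∈ Icc s s', HasDerivWithinAt (e ∘ γ) (Zc e (e (γ r))) (Icc s s') r :=
    fun r hr => ((hZ.hasDerivAt he hγ
      (Ioo_mem_nhds (hloc r (hint r hr)).1.1 (hloc r (hint r hr)).1.2)
      (hloc r (hint r hr)).2).hasDerivWithinAt)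
  have htgt : ∀ r ∈ Icc s s', e (γ r) ∈ e.target := fun r hr =>
    e.map_source (hloc r (hint r hr)).2
  have hcc : ContinuousOn (e ∘ γ) (Icc s s') := fun r hr => (hder r hr).continuousWithinAt
  have hcv : ContinuousOn (fun r => Zc e (e (γ r))) (Icc s s') :=
    ((hZ.smooth e he).continuousOn).comp hcc htgt
  have h1 := dist_le_chart her hss' hder hcv htgt
  have hcont : ContinuousOn (fun r => √(chartG e ((e ∘ γ) r) (Zc e (e (γ r))) (Zc e (e (γ r)))))
      (Icc s s') := by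
    have hG : ContinuousOn (fun r => chartG e ((e ∘ γ) r)) (Icc s s') :=
      (contDiffOn_chartG her).continuousOn.comp hcc htgt
    exact ((hG.clm_apply hcv).clm_apply hcv).sqrt
  have hgr : ∀ r ∈ Icc s s', r ∈ Icc t₀ t₁ := fun r hr => ⟨hs.1.trans hr.1, hr.2.trans hs'.2⟩
  have h2 : ∫ r in s..s', √(chartG e ((e ∘ γ) r) (Zc e (e (γ r))) (Zc e (e (γ r))))
      ≤ g s' - g s := by
    refine intervalIntegral.integral_le_sub_of_hasDeriv_right_of_le (g' := g') hss'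
      (fun r hr => (hg r (hgr r hr)).continuousAt.continuousWithinAt)
      (fun r hr => (hg r (hgr r (Ioo_subset_Icc_self hr))).hasDerivWithinAt)
      hcont.integrableOn_Icc (fun r hr => ?_)
    have hr' := Ioo_subset_Icc_self hr
    have h3 : chartG e ((e ∘ γ) r) (Zc e (e (γ r))) (Zc e (e (γ r)))
        = innerAt (E := E) (γ r) (Z (γ r)) (Z (γ r)) := hZ.len he (hloc r (hint r hr')).2
    rw [h3]
    exact hsp r (hgr r hr')
  have e1 : e.symm ((e ∘ γ) s) = γ s := e.left_inv (hloc s hst).2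
  have e2 : e.symm ((e ∘ γ) s') = γ s' := e.left_inv (hloc s' hs't).2
  rw [e1, e2] at h1
  have h3 := dist_triangle (γ t₀) (γ s) (γ s')
  linarith only [hPs, h1, h2, h3]

theorem forward_curve (hZ : ChartField Z Zc) [CompleteSpace M]
    (hsp : ∀ x : M, innerAt (E := E) x (Z x) (Z x) ≤ 1) (x : M) (a : ℝ) :
    ∃ ε > 0, ∃ γ : ℝ → M, γ 0 = x ∧
      IsMIntegralCurveOn (I := 𝓘(ℝ, E)) γ (sec Z) (Ioo (-ε) a) := by
  have hprop : ProperSpace M := properSpace_riemannian E M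
  have hT2 : T2Space M := inferInstance
  set A := max a 1 with hA
  have hA0 : 0 < A := lt_of_lt_of_le one_pos (le_max_right _ _)
  obtain ⟨ε, hε, hunif⟩ := hZ.exists_uniform_time (isCompact_closedBall x A)
  -- a priori bound
  have hapriori : ∀ (γ : ℝ → M) (T : ℝ), γ 0 = x → T ≤ A →
      IsMIntegralCurveOn (I := 𝓘(ℝ, E)) γ (sec Z) (Ioo (-ε) T) → ∀ t, 0 ≤ t → t < T →
      γ t ∈ closedBall x A := by
    intro γ T hγ0 hTA hγ t ht0 htT
    have h0 : (0:ℝ) ∈ Ioo (-ε) T := ⟨by linarith only [hε], by linarith only [ht0, htT]⟩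
    have ht : t ∈ Ioo (-ε) T := ⟨by linarith, htT⟩
    have h1 := hZ.dist_le hγ ht0 h0 ht (g := fun t => t) (g' := fun _ => 1)
      (fun s _ => hasDerivAt_id s) (fun s _ =>
        Real.sqrt_le_iff.2 ⟨zero_le_one, by rw [one_pow]; exact hsp _⟩)
    rw [mem_closedBall']
    rw [hγ0] at h1
    refine h1.trans ?_
    linarith only [hTA, htT]
  have hmain : ∀ k : ℕ, ∃ γ : ℝ → M, γ 0 = x ∧
      IsMIntegralCurveOn (I := 𝓘(ℝ, E)) γ (sec Z) (Ioo (-ε) (min ((k + 1) * (ε / 2)) A)) := by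
    intro k
    induction k with
    | zero =>
      obtain ⟨γ, h0, h1⟩ := hunif x (mem_closedBall_self (by positivity))
      refine ⟨γ, h0, h1.mono (Ioo_subset_Ioo le_rfl ((min_le_left _ _).trans ?_))⟩
      push_cast
      linarith only [hε]
    | succ k ih =>
      obtain ⟨γ, h0, h1⟩ := ih
      by_cases hAT : A ≤ (k + 1) * (ε / 2)
      · refine ⟨γ, h0, h1.mono (Ioo_subset_Ioo le_rfl ?_)⟩
        rw [min_eq_right hAT]
        exact min_le_right _ _
      · push Not at hAT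
        rw [min_eq_left hAT.le] at h1
        set T := ((k:ℝ) + 1) * (ε / 2) with hT
        have hTε : ε / 2 ≤ T := by
          rw [hT]
          have : (0:ℝ) ≤ k := Nat.cast_nonneg k
          nlinarith only [hε]
        set t₁ := T - ε / 4 with ht₁
        have ht₁0 : 0 < t₁ := by linarith only [hε, hTε, ht₁]
        have h2 := hapriori γ T h0 hAT.le h1 t₁ ht₁0.le (by linarith only [hε, ht₁])
        obtain ⟨γ₁, h3, h4⟩ := hunif _ h2
        have h5 : IsMIntegralCurveOn (I := 𝓘(ℝ, E)) (γ₁ ∘ (· + (-t₁))) (sec Z)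
            (Ioo (t₁ - ε) (t₁ + ε)) := by
          refine (h4.comp_add (-t₁)).mono ?_
          intro s hs
          simp only [mem_ofPred_eq, mem_Ioo]
          exact ⟨by linarith only [hs, hs.1], by linarith only [hs, hs.2]⟩
        have ht₁m : t₁ ∈ Ioo (-ε) T ∩ Ioo (t₁ - ε) (t₁ + ε) :=
          ⟨⟨by linarith only [hε, ht₁0], by linarith only [hε, ht₁]⟩, ⟨by linarith only [hε], by linarith only [hε]⟩⟩
        have h6 := isMIntegralCurveOn_piecewise hZ.contMDiff h1 h5 ht₁m (by simp [h3])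
        refine ⟨_, ?_, h6.mono ?_⟩
        · rw [Set.piecewise_eq_of_mem _ _ _ (show (0:ℝ) ∈ Ioo (-ε) T from
            ⟨by linarith only [hε], by linarith only [hε, hTε]⟩)]
          exact h0
        · intro s hs
          have hs2 : s < (((k + 1 : ℕ) : ℝ) + 1) * (ε / 2) := hs.2.trans_le (min_le_left _ _)
          push_cast at hs2
          by_cases hsT : s < T
          · exact Or.inl ⟨hs.1, hsT⟩
          · push Not at hsT
            right
            constructor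
            · linarith only [hε, ht₁, hsT]
            · rw [ht₁, hT]
              linarith only [hε, hs2]
  obtain ⟨N, hN⟩ := exists_nat_gt (A / (ε / 2))
  obtain ⟨γ, h0, h1⟩ := hmain N
  refine ⟨ε, hε, γ, h0, h1.mono (Ioo_subset_Ioo le_rfl (le_min ?_ (le_max_left _ _)))⟩
  rw [div_lt_iff₀ (by positivity)] at hN
  have : a ≤ A := le_max_left _ _
  nlinarith only [hε, hN, this]

theorem backward_curve (hZ : ChartField Z Zc) [CompleteSpace M]
    (hsp : ∀ x : M, innerAt (E := E) x (Z x) (Z x) ≤ 1) (x : M) (a : ℝ) :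
    ∃ ε > 0, ∃ γ : ℝ → M, γ 0 = x ∧
      IsMIntegralCurveOn (I := 𝓘(ℝ, E)) γ (sec Z) (Ioo (-a) ε) := by
  obtain ⟨ε, hε, γ, h0, h1⟩ := hZ.neg.forward_curve (fun x => by
    have h2 : innerAt (E := E) x (-Z x) (-Z x) = innerAt (E := E) x (Z x) (Z x) := by
      have h3 := hZ.neg.len (chart_mem_maximalAtlas x) (mem_chart_source E x)
      have h4 := hZ.len (chart_mem_maximalAtlas x) (mem_chart_source E x)
      rw [← h3, ← h4]
      simp
    rw [h2]
    exact hsp x) x a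
  refine ⟨ε, hε, γ ∘ (· * (-1)), by simp [h0], ?_⟩
  have h2 := h1.comp_mul (-1)
  have h3 : ((-1 : ℝ) • sec (fun x => -Z x) : (x : M) → TangentSpace 𝓘(ℝ, E) x) = sec Z := by
    funext y
    change (-1 : ℝ) • (-Z y) = Z y
    simp
  rw [h3] at h2
  refine h2.mono ?_
  intro s hs
  simp only [mem_ofPred_eq, mem_Ioo]
  exact ⟨by linarith only [hs, hs.2], by linarith only [hs, hs.1]⟩

theorem exists_global_curve (hZ : ChartField Z Zc) [CompleteSpace M]
    (hsp : ∀ x : M, innerAt (E := E) x (Z x) (Z x) ≤ 1) (x : M) :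
    ∃ γ : ℝ → M, γ 0 = x ∧ IsMIntegralCurve (I := 𝓘(ℝ, E)) γ (sec Z) := by
  rw [exists_isMIntegralCurve_iff_exists_isMIntegralCurveOn_Ioo hZ.contMDiff]
  intro a
  obtain ⟨ε, hε, γ, h0, h1⟩ := hZ.forward_curve hsp x (max a 1)
  obtain ⟨ε', hε', γ', h0', h1'⟩ := hZ.backward_curve hsp x (max a 1)
  have hm1 : (1:ℝ) ≤ max a 1 := le_max_right _ _
  have hma : a ≤ max a 1 := le_max_left _ _
  have hmem : (0:ℝ) ∈ Ioo (-ε) (max a 1) ∩ Ioo (-(max a 1)) ε' :=
    ⟨⟨by linarith only [hε], by linarith only [hm1]⟩, ⟨by linarith, by linarith⟩⟩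
  have h2 := isMIntegralCurveOn_piecewise hZ.contMDiff h1 h1' hmem (by rw [h0, h0'])
  refine ⟨_, ?_, h2.mono ?_⟩
  · rw [Set.piecewise_eq_of_mem _ _ _ hmem.1]
    exact h0
  · intro s hs
    by_cases hs0 : -ε < s
    · exact Or.inl ⟨hs0, by linarith only [hma, hs, hs.2]⟩
    · push Not at hs0
      exact Or.inr ⟨by linarith only [hma, hs, hs.1], by linarith⟩

end ChartField

end Vale.Agent.P253.H577
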