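import Vale.Agent.P253.Mfd.Defs

/-!
P253: actions of a real vector group by holomorphic isometries.
-/

open scoped Manifold ContDiff Topology Bundle
open Bundle Complex

noncomputable section

namespace Vale.Agent.P253.H577

variable {E : Type*} [NormedAddCommGroup E] [NormedSpace ℂ E]
  {M : Type*} [MetricSpace M] [ChartedSpace E M]
  {V : Type*} [NormedAddCommGroup V] [NormedSpace ℝ V]

variable (E) in
/-- `ρ` is a smooth action of the additive group of the real vector space `V` on `M` by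
holomorphic isometries. -/
structure IsHolIsomAction [RiemannianBundle (fun x : M => TangentSpace 𝓘(ℝ, E) x)]
    (ρ : V → M → M) : Prop where
  zero : ∀ x, ρ 0 x = x
  add : ∀ s t x, ρ (s + t) x = ρ s (ρ t x)
  smooth : ContMDiff (𝓘(ℝ, V).prod 𝓘(ℝ, E)) 𝓘(ℝ, E) ∞ (fun q : V × M => ρ q.1 q.2)
  holo : ∀ t, MDifferentiable 𝓘(ℂ, E) 𝓘(ℂ, E) (ρ t)
  isom : ∀ t x (v w : TangentSpace 𝓘(ℝ, E) x),
    inner ℝ (mfderiv 𝓘(ℝ, E) 𝓘(ℝ, E) (ρ t) x v) (mfderiv 𝓘(ℝ, E) 𝓘(ℝ, E) (ρ t) x w)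
      = inner ℝ v w

variable (E) in
/-- the velocity at `t = 0` of the curve `t ↦ ρ (t • ξ) x` (the tangent space at `x` is `E` as a
vector space, through the preferred chart at `x`) -/
def velocity (ρ : V → M → M) (ξ : V) (x : M) : E :=
  (mfderiv 𝓘(ℝ, ℝ) 𝓘(ℝ, E) (fun t : ℝ => ρ (t • ξ) x) 0 : ℝ → E) 1

variable (E) in
/-- the orbit of `x` is isotropic: the Kähler form `g (J u, v)` vanishes on its tangent space -/
def IsIsotropicOrbit [RiemannianBundle (fun x : M => TangentSpace 𝓘(ℝ, E) x)]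
    (ρ : V → M → M) (x : M) : Prop :=
  ∀ ξ η : V, inner ℝ (show TangentSpace 𝓘(ℝ, E) x from I • velocity E ρ ξ x)
    (show TangentSpace 𝓘(ℝ, E) x from velocity E ρ η x) = 0

/-- no one-parameter subgroup acts trivially -/
def IsLocallyEffective (ρ : V → M → M) : Prop :=
  ∀ ξ : V, (∀ (t : ℝ) (x : M), ρ (t • ξ) x = x) → ξ = 0

variable (E) in
/-- positive holomorphic sectional curvature at the point `x` -/
def PosHolSectAt [RiemannianBundle (fun x : M => TangentSpace 𝓘(ℝ, E) x)] (x : M) : Prop :=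
  ∀ e ∈ IsManifold.maximalAtlas 𝓘(ℂ, E) 1 M, x ∈ e.source →
    ∃ Γ, Mfd.IsChristoffel e (e x) Γ ∧ ∀ u, u ≠ 0 → 0 < Mfd.sectNum e (e x) Γ u (I • u)

/-- `p` is a fixed point of `ρ`, and `d(ρ ξ)_p = diag (exp (i w_1(ξ)), ..., exp (i w_n(ξ)))` in the
complex basis `b` of `T_p M`, with linearly independent real linear forms `w_j` on `V` -/
structure IsToricFixedPoint (ρ : V → M → M) (p : M)
    (b : Module.Basis (Fin (Module.finrank ℂ E)) ℂ E)
    (w : Fin (Module.finrank ℂ E) → V →L[ℝ] ℝ) : Prop where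
  fixed : ∀ ξ, ρ ξ p = p
  indep : LinearIndependent ℝ w
  deriv : ∀ ξ j, (mfderiv 𝓘(ℂ, E) 𝓘(ℂ, E) (ρ ξ) p : E → E) (b j) = exp (w j ξ * I) • b j

end Vale.Agent.P253.H577
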