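import Vale.Agent.P253.H577.Curve

/-!
P253: the vector field along which a component of the moment map grows at unit rate and the others
are constant.
-/

open scoped Manifold ContDiff Topology Bundle
open Set Metric Complex Filter Bundle IsManifold Manifold Vale.Agent.P253.Mfd

set_option maxSynthPendingDepth 3
set_option linter.unusedSectionVars false

noncomputable section

namespace Vale.Agent.P253.H577

variable {E : Type*} [NormedAddCommGroup E] [NormedSpace ℂ E] [FiniteDimensional ℂ E]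
  {M : Type*} [MetricSpace M] [ChartedSpace E M]
  {V : Type*} [NormedAddCommGroup V] [InnerProductSpace ℝ V] [FiniteDimensional ℝ V]

section linear

variable (V) in
/-- the inner product of the parameter space as a bilinear form -/
def ipL : V →L[ℝ] V →L[ℝ] ℝ := innerSL ℝ

theorem ipL_apply (ξ η : V) : ipL V ξ η = inner ℝ ξ η := rfl

/-- a positive definite form on a finite dimensional space is invertible -/
theorem isInvertible_of_pos' {B : V →L[ℝ] V →L[ℝ] ℝ} (hpos : ∀ v, v ≠ 0 → 0 < B v v) :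
    B.IsInvertible := by
  have hinj : Function.Injective (B : V →ₗ[ℝ] (V →L[ℝ] ℝ)) := by
    rw [injective_iff_map_eq_zero]
    intro v hv
    by_contra hne
    have := hpos v hne
    have h0 : B v v = 0 := by
      have : (B : V →ₗ[ℝ] (V →L[ℝ] ℝ)) v = B v := rfl
      rw [← this, hv]; rfl
    linarith only [this, h0]
  have hfin : Module.finrank ℝ V = Module.finrank ℝ (V →L[ℝ] ℝ) := by
    rw [← (LinearMap.toContinuousLinearMap (𝕜 := ℝ) (E := V) (F' := ℝ)).finrank_eq]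
    simp
  have : FiniteDimensional ℝ (V →L[ℝ] ℝ) := inferInstance
  refine ⟨(LinearEquiv.ofInjectiveOfFinrankEq _ hinj hfin).toContinuousLinearEquiv, ?_⟩
  ext v w
  rfl

theorem inverse_spec {B : V →L[ℝ] V →L[ℝ] ℝ} (hpos : ∀ v, v ≠ 0 → 0 < B v v) (ℓ : V →L[ℝ] ℝ) :
    B (ContinuousLinearMap.inverse B ℓ) = ℓ := by
  obtain ⟨T, hT⟩ := isInvertible_of_pos' hpos
  rw [← hT, ContinuousLinearMap.inverse_equiv]
  exact T.apply_symm_apply ℓ

end linear

variable [IsManifold 𝓘(ℂ, E) 1 M] [IsManifold 𝓘(ℝ, E) ∞ M]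
  [RiemannianBundle (fun x : M => TangentSpace 𝓘(ℝ, E) x)]
  [IsContMDiffRiemannianBundle 𝓘(ℝ, E) ∞ E (fun x : M => TangentSpace 𝓘(ℝ, E) x)]

/-- Gram form of the fields in a chart -/
def gramC (ρ : V → M → M) (e : OpenPartialHomeomorph M E) (z : E) : V →L[ℝ] V →L[ℝ] ℝ :=
  (chartG e z).bilinearComp (vL ρ e z) (vL ρ e z)

theorem gramC_apply (ρ : V → M → M) (e : OpenPartialHomeomorph M E) (z : E) (ξ η : V) :
    gramC ρ e z ξ η = chartG e z (vL ρ e z ξ) (vL ρ e z η) := rfl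

variable {ρ : V → M → M} {e e' : OpenPartialHomeomorph M E}

variable (E) in
/-- Gram form of the fields -/
def gram (ρ : V → M → M) (x : M) : V →L[ℝ] V →L[ℝ] ℝ :=
  gramC ρ (chartAt E x) (chartAt E x x)

theorem gramC_innerAt (hρ : IsHolIsomAction E ρ) (he : e ∈ maximalAtlas 𝓘(ℂ, E) 1 M) {x : M}
    (hx : x ∈ e.source) (ξ η : V) : gramC ρ e (e x) ξ η =
      innerAt (E := E) x (WE (ln ρ ξ) x) (WE (ln ρ η) x) := by
  rw [gramC_apply, chartG_eq_innerAt, vL_apply hρ he (e.map_source hx),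
    vL_apply hρ he (e.map_source hx), dsymm_vF (hρ.line ξ) he hx, dsymm_vF (hρ.line η) he hx,
    e.left_inv hx]

theorem gramC_eq (hρ : IsHolIsomAction E ρ) (he : e ∈ maximalAtlas 𝓘(ℂ, E) 1 M) {x : M}
    (hx : x ∈ e.source) : gramC ρ e (e x) = gram E ρ x := by
  ext ξ η
  rw [gramC_innerAt hρ he hx, gram, gramC_innerAt hρ (chart_mem_maximalAtlas x)
    (mem_chart_source E x)]

theorem contDiffOn_gramC (hρ : IsHolIsomAction E ρ) (he : e ∈ maximalAtlas 𝓘(ℂ, E) 1 M) :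
    ContDiffOn ℝ ∞ (gramC ρ e) e.target := by
  have h1 := contDiffOn_chartG (mem_maximalAtlas_real he)
  have h2 := contDiffOn_vL hρ he
  rw [contDiffOn_clm_apply]
  intro ξ
  rw [contDiffOn_clm_apply]
  intro η
  exact (h1.clm_apply (h2.clm_apply contDiffOn_const)).clm_apply (h2.clm_apply contDiffOn_const)

theorem gramC_symm (ρ : V → M → M) (e : OpenPartialHomeomorph M E) (z : E) (ξ η : V) :
    gramC ρ e z ξ η = gramC ρ e z η ξ := by
  rw [gramC_apply, gramC_apply, chartG_symm]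

theorem gramC_nonneg (he : e ∈ maximalAtlas 𝓘(ℂ, E) 1 M) {z : E} (hz : z ∈ e.target) (ξ : V) :
    0 ≤ gramC ρ e z ξ ξ := by
  rw [gramC_apply]
  by_cases h0 : vL ρ e z ξ = 0
  · simp [h0]
  · exact (chartG_pos (mem_maximalAtlas_real he) hz _ h0).le

theorem gram_nonneg (x : M) (ξ : V) : 0 ≤ gram E ρ x ξ ξ :=
  gramC_nonneg (chart_mem_maximalAtlas x) (mem_chart_target E x) ξ

/-- admissible weight functions: nonnegative, smooth, and positive where the Gram form is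
degenerate -/
structure Weight (ρ : V → M → M) (c : M → ℝ) : Prop where
  smooth : ∀ e ∈ maximalAtlas 𝓘(ℂ, E) 1 M, ContDiffOn ℝ ∞ (fun z => c (e.symm z)) e.target
  nonneg : ∀ x, 0 ≤ c x
  pos : ∀ x, c x = 0 → ∀ ξ, ξ ≠ 0 → 0 < gram E ρ x ξ ξ

/-- the modified Gram form in a chart -/
def mgC (ρ : V → M → M) (c : M → ℝ) (e : OpenPartialHomeomorph M E) (z : E) :
    V →L[ℝ] V →L[ℝ] ℝ :=
  gramC ρ e z + c (e.symm z) • ipL V

/-- the direction field in a chart -/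
def wC (ρ : V → M → M) (c : M → ℝ) (ℓ : V →L[ℝ] ℝ) (e : OpenPartialHomeomorph M E) (z : E) : V :=
  ContinuousLinearMap.inverse (mgC ρ c e z) ℓ

/-- the normalising factor in a chart -/
def tC (ρ : V → M → M) (c : M → ℝ) (ℓ : V →L[ℝ] ℝ) (e : OpenPartialHomeomorph M E) (z : E) : ℝ :=
  (√(1 + gramC ρ e z (wC ρ c ℓ e z) (wC ρ c ℓ e z)))⁻¹

/-- the vector field in a chart -/
def zC (ρ : V → M → M) (c : M → ℝ) (ℓ : V →L[ℝ] ℝ) (e : OpenPartialHomeomorph M E) (z : E) : E :=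
  tC ρ c ℓ e z • vL ρ e z (wC ρ c ℓ e z)

variable (E) in
/-- the direction field -/
def wM (ρ : V → M → M) (c : M → ℝ) (ℓ : V →L[ℝ] ℝ) (x : M) : V :=
  wC ρ c ℓ (chartAt E x) (chartAt E x x)

variable (E) in
/-- the normalising factor -/
def tM (ρ : V → M → M) (c : M → ℝ) (ℓ : V →L[ℝ] ℝ) (x : M) : ℝ :=
  tC ρ c ℓ (chartAt E x) (chartAt E x x)

variable (E) in
/-- the vector field -/
def zM (ρ : V → M → M) (c : M → ℝ) (ℓ : V →L[ℝ] ℝ) (x : M) : E :=
  zC ρ c ℓ (chartAt E x) (chartAt E x x)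

section field

variable {c : M → ℝ} {ℓ : V →L[ℝ] ℝ} (hρ : IsHolIsomAction E ρ)
  (he : e ∈ maximalAtlas 𝓘(ℂ, E) 1 M)

include hρ he

theorem mgC_eq {x : M} (hx : x ∈ e.source) :
    mgC ρ c e (e x) = gram E ρ x + c x • ipL V := by
  rw [mgC, gramC_eq hρ he hx, e.left_inv hx]

theorem wC_eq {x : M} (hx : x ∈ e.source) : wC ρ c ℓ e (e x) = wM E ρ c ℓ x := by
  rw [wM, wC, wC, mgC_eq hρ he hx, mgC_eq hρ (chart_mem_maximalAtlas x) (mem_chart_source E x)]

theorem tC_eq {x : M} (hx : x ∈ e.source) : tC ρ c ℓ e (e x) = tM E ρ c ℓ x := by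
  rw [tM, tC, tC, wC_eq hρ he hx, wC_eq hρ (chart_mem_maximalAtlas x) (mem_chart_source E x),
    gramC_eq hρ he hx, gramC_eq hρ (chart_mem_maximalAtlas x) (mem_chart_source E x)]

theorem mgC_pos (hc : Weight (E := E) ρ c) {z : E} (hz : z ∈ e.target) (ξ : V) (hξ : ξ ≠ 0) :
    0 < mgC ρ c e z ξ ξ := by
  have h1 := mgC_eq (c := c) hρ he (e.map_target hz)
  rw [e.right_inv hz] at h1
  rw [h1]
  simp only [add_apply, smul_apply, smul_eq_mul, ipL_apply]
  have h2 := gram_nonneg (E := E) (ρ := ρ) (e.symm z) ξ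
  have h3 : 0 < inner ℝ ξ ξ := real_inner_self_pos.2 hξ
  rcases (hc.nonneg (e.symm z)).eq_or_lt with h4 | h4
  · have h5 := hc.pos _ h4.symm ξ hξ
    rw [← h4]
    linarith only [h5]
  · have h5 := mul_pos h4 h3
    linarith only [h2, h5]

theorem contDiffOn_wC (hc : Weight (E := E) ρ c) : ContDiffOn ℝ ∞ (wC ρ c ℓ e) e.target := by
  have h1 : ContDiffOn ℝ ∞ (mgC ρ c e) e.target :=
    (contDiffOn_gramC hρ he).add ((hc.smooth e he).smul contDiffOn_const)
  have h2 : ContDiffOn ℝ ∞ (fun z => ContinuousLinearMap.inverse (mgC ρ c e z)) e.target := by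
    intro z hz
    obtain ⟨T, hT⟩ := isInvertible_of_pos' (mgC_pos hρ he hc hz)
    have h3 : ContDiffAt ℝ ∞ ContinuousLinearMap.inverse (mgC ρ c e z) := by
      rw [← hT]; exact contDiffAt_map_inverse T
    exact (h3.comp z (h1.contDiffAt (e.open_target.mem_nhds hz))).contDiffWithinAt
  exact h2.clm_apply contDiffOn_const

theorem one_add_gram_pos {z : E} (hz : z ∈ e.target) (ξ : V) : 0 < 1 + gramC ρ e z ξ ξ := by
  have := gramC_nonneg (ρ := ρ) he hz ξ
  linarith only [this]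

theorem contDiffOn_tC (hc : Weight (E := E) ρ c) : ContDiffOn ℝ ∞ (tC ρ c ℓ e) e.target := by
  have h1 := contDiffOn_wC (ℓ := ℓ) hρ he hc
  have h2 : ContDiffOn ℝ ∞ (fun z => 1 + gramC ρ e z (wC ρ c ℓ e z) (wC ρ c ℓ e z)) e.target :=
    contDiffOn_const.add (((contDiffOn_gramC hρ he).clm_apply h1).clm_apply h1)
  have h3 : ContDiffOn ℝ ∞ (fun z => √(1 + gramC ρ e z (wC ρ c ℓ e z) (wC ρ c ℓ e z))) e.target :=
    h2.sqrt (fun z hz => (one_add_gram_pos hρ he hz _).ne')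
  exact h3.inv (fun z hz => (Real.sqrt_pos.2 (one_add_gram_pos hρ he hz _)).ne')

theorem tC_pos {z : E} (hz : z ∈ e.target) : 0 < tC ρ c ℓ e z :=
  inv_pos.2 (Real.sqrt_pos.2 (one_add_gram_pos hρ he hz _))

theorem contDiffOn_zC (hc : Weight (E := E) ρ c) : ContDiffOn ℝ ∞ (zC ρ c ℓ e) e.target :=
  (contDiffOn_tC hρ he hc).smul ((contDiffOn_vL hρ he).clm_apply (contDiffOn_wC hρ he hc))

theorem zC_eq {x : M} (hx : x ∈ e.source) : dsymm e (e x) (zC ρ c ℓ e (e x)) =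
    tM E ρ c ℓ x • WE (ln ρ (wM E ρ c ℓ x)) x := by
  rw [zC, map_smul, tC_eq hρ he hx, wC_eq hρ he hx, vL_apply hρ he (e.map_source hx),
    dsymm_vF (hρ.line _) he hx]

end field

theorem zM_eq {c : M → ℝ} {ℓ : V →L[ℝ] ℝ} (hρ : IsHolIsomAction E ρ) (x : M) :
    zM E ρ c ℓ x = tM E ρ c ℓ x • WE (ln ρ (wM E ρ c ℓ x)) x := by
  have he : chartAt E x ∈ maximalAtlas 𝓘(ℂ, E) 1 M := chart_mem_maximalAtlas x
  rw [zM, zC, tC_eq hρ he (mem_chart_source E x), wC_eq hρ he (mem_chart_source E x),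
    vL_apply hρ he (mem_chart_target E x)]
  rfl

theorem chartField_zM {c : M → ℝ} {ℓ : V →L[ℝ] ℝ} (hρ : IsHolIsomAction E ρ)
    (hc : Weight (E := E) ρ c) : ChartField (zM E ρ c ℓ) (zC ρ c ℓ) where
  smooth e he := contDiffOn_zC hρ he hc
  rel e he x hx := by rw [zC_eq hρ he hx, zM_eq hρ]

theorem len_zM {c : M → ℝ} {ℓ : V →L[ℝ] ℝ} (hρ : IsHolIsomAction E ρ) (x : M) :
    innerAt (E := E) x (zM E ρ c ℓ x) (zM E ρ c ℓ x) =
      tM E ρ c ℓ x ^ 2 * gram E ρ x (wM E ρ c ℓ x) (wM E ρ c ℓ x) := by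
  have he : chartAt E x ∈ maximalAtlas 𝓘(ℂ, E) 1 M := chart_mem_maximalAtlas x
  rw [zM_eq hρ, gram, gramC_innerAt hρ he (mem_chart_source E x)]
  have h1 : ∀ (s : ℝ) (v : E), innerAt (E := E) x (s • v) (s • v) = s ^ 2 * innerAt (E := E) x v v := by
    intro s v
    have h2 := real_inner_smul_left (F := TangentSpace 𝓘(ℝ, E) x) v (s • v) s
    have h3 := real_inner_smul_right (F := TangentSpace 𝓘(ℝ, E) x) v v s
    have h4 : innerAt (E := E) x (s • v) (s • v) = s * (s * innerAt (E := E) x v v) :=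
      h2.trans (congrArg (fun r => s * r) h3)
    rw [h4]; ring
  rw [h1]

theorem len_zM_le {c : M → ℝ} {ℓ : V →L[ℝ] ℝ} (hρ : IsHolIsomAction E ρ) (x : M) :
    innerAt (E := E) x (zM E ρ c ℓ x) (zM E ρ c ℓ x) ≤ 1 := by
  have he : chartAt E x ∈ maximalAtlas 𝓘(ℂ, E) 1 M := chart_mem_maximalAtlas x
  rw [len_zM hρ]
  have h1 : tM E ρ c ℓ x = (√(1 + gram E ρ x (wM E ρ c ℓ x) (wM E ρ c ℓ x)))⁻¹ := rfl
  have h2 := gram_nonneg (E := E) (ρ := ρ) x (wM E ρ c ℓ x)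
  rw [h1, inv_pow, Real.sq_sqrt (by linarith only [h2]), inv_mul_le_iff₀ (by linarith only [h2])]
  linarith only [h2]

end Vale.Agent.P253.H577
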