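import Vale.Agent.P253.H577.Fix
import Vale.Agent.P253.U165.Final

/-!
P253: the toric theorem.
-/

open scoped Manifold ContDiff Topology Bundle
open Set Metric Complex Filter Bundle IsManifold Manifold Module Vale.Agent.P253.Mfd

set_option maxSynthPendingDepth 3
set_option linter.unusedSectionVars false

noncomputable section

namespace Vale.Agent.P253.H577

variable {E : Type*} [NormedAddCommGroup E] [NormedSpace ℂ E] [FiniteDimensional ℂ E]
  {M : Type*} [MetricSpace M] [ChartedSpace E M]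
  [IsManifold 𝓘(ℂ, E) 1 M] [IsManifold 𝓘(ℝ, E) ∞ M]
  [RiemannianBundle (fun x : M => TangentSpace 𝓘(ℝ, E) x)]
  [IsContMDiffRiemannianBundle 𝓘(ℝ, E) ∞ E (fun x : M => TangentSpace 𝓘(ℝ, E) x)]

section curv

/-- the numerator of the sectional curvature of a degenerate plane -/
theorem sectNum_self (e : OpenPartialHomeomorph M E) (z : E) (Γ : E → E → E) (a : E) :
    sectNum e z Γ a a = 0 := by
  rw [sectNum]
  ring

theorem _root_.Vale.Agent.P253.Mfd.PosBisectionalAt.posHolSect {x : M} (h : PosBisectionalAt E x) : PosHolSectAt E x := by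
  intro e he hx
  obtain ⟨Γ, hΓ, h1⟩ := h e he hx
  refine ⟨Γ, hΓ, fun u hu => ?_⟩
  have h2 := h1 u u hu hu
  rw [sectNum_self, zero_add] at h2
  exact h2

theorem _root_.Vale.Agent.P253.Mfd.PosBisectionalAt.nonneg {x : M} (h : PosBisectionalAt E x) : NonnegBisectionalAt E x := by
  intro e he hx
  obtain ⟨Γ, hΓ, h1⟩ := h e he hx
  have he' := mem_maximalAtlas_real he
  have hz : e x ∈ e.target := e.map_source hx
  refine ⟨Γ, hΓ, fun u v => ?_⟩
  by_cases hu : u = 0
  · subst hu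
    rw [sectNum_eq he' hz hΓ, sectNum_eq he' hz hΓ]
    simp [LocalKahler.secG]
  by_cases hv : v = 0
  · subst hv
    rw [sectNum_eq he' hz hΓ, sectNum_eq he' hz hΓ]
    simp [LocalKahler.secG]
  exact (h1 u v hu hv).le

theorem Rc_pos_of_holSect (hK : IsKahler E M) {e : OpenPartialHomeomorph M E}
    (he : e ∈ maximalAtlas 𝓘(ℂ, E) 1 M) {x : M} (hx : x ∈ e.source)
    (h : PosHolSectAt E x) (a : E) (ha : a ≠ 0) : 0 < Rc (chartG e) (e x) a a := by
  have he' := mem_maximalAtlas_real he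
  have hz : e x ∈ e.target := e.map_source hx
  obtain ⟨Γ, hΓ, hb⟩ := h e he hx
  have h1 := hb a ha
  have h0 := sectNum_self e (e x) Γ a
  rw [sectNum_eq he' hz hΓ] at h1 h0
  have h2 := (localKahler_chartG hK he).secG_add hz a a
  linarith only [h0, h1, h2]

end curv

variable {V : Type*} [NormedAddCommGroup V] [NormedSpace ℝ V] {ρ : V → M → M}
  [IsRiemannianManifold 𝓘(ℝ, E) M]

theorem ln_one (ρ : V → M → M) (ξ : V) : ln ρ ξ 1 = ρ ξ := by
  funext x
  simp [ln]

/-- the weights at a fixed point -/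
theorem exists_toric [ConnectedSpace M] [FiniteDimensional ℝ V] (hK : IsKahler E M)
    (hdim : finrank ℝ V = finrank ℂ E) (hρ : IsHolIsomAction E ρ) (heff : IsLocallyEffective ρ)
    {p : M} (hp : kerAt E ρ p = ⊤) : ∃ b w, IsToricFixedPoint (E := E) ρ p b w := by
  have he : chartAt E p ∈ maximalAtlas 𝓘(ℂ, E) 1 M := chart_mem_maximalAtlas p
  have hx : p ∈ (chartAt E p).source := mem_chart_source E p
  have hz : chartAt E p p ∈ (chartAt E p).target := mem_chart_target E p
  have hLK := localKahler_chartG hK he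
  have hL := commFam_vL hρ he
  have hmem : ∀ κ, κ ∈ kerAt E ρ p := fun κ => by rw [hp]; exact Submodule.mem_top
  have hzero : ∀ κ, vL ρ (chartAt E p) (chartAt E p p) κ = 0 := fun κ =>
    (mem_kerAt hρ he hx).1 (hmem κ)
  obtain ⟨b, r, hr⟩ := hL.exists_weights hLK hz hzero
  have hbne : ∀ j, b j ≠ 0 := fun j => b.ne_zero j
  have hadd : ∀ j κ κ', r j (κ + κ') = r j κ + r j κ' := by
    intro j κ κ'
    have h1 : (r j (κ + κ')) • b j = (r j κ + r j κ') • b j := by
      rw [add_smul, ← hr, ← hr, ← hr, hL.fderiv_apply hLK hz, hL.fderiv_apply hLK hz,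
        hL.fderiv_apply hLK hz, map_add]
    exact smul_left_injective ℝ (hbne j) h1
  have hsmul : ∀ j (s : ℝ) κ, r j (s • κ) = s • r j κ := by
    intro j s κ
    have h1 : (r j (s • κ)) • b j = (s • r j κ) • b j := by
      rw [smul_eq_mul, mul_smul, ← hr, ← hr, hL.fderiv_apply hLK hz, hL.fderiv_apply hLK hz,
        map_smul]
    exact smul_left_injective ℝ (hbne j) h1
  let w : Fin (finrank ℂ E) → V →L[ℝ] ℝ := fun j =>
    LinearMap.toContinuousLinearMap { toFun := r j, map_add' := hadd j, map_smul' := hsmul j }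
  have hw : ∀ j κ, w j κ = r j κ := fun _ _ => rfl
  have hfix : ∀ ξ t, ln ρ ξ t p = p := fun ξ t => fixed_of_mem_kerAt hρ (hmem ξ) t
  refine ⟨b, w, fun ξ => ?_, ?_, fun ξ j => ?_⟩
  · have h1 := hfix ξ 1
    rwa [ln_one] at h1
  · let Φ : V →ₗ[ℝ] (Fin (finrank ℂ E) → ℝ) := LinearMap.pi fun j => (w j : V →ₗ[ℝ] ℝ)
    have hΦ : ∀ ξ j, Φ ξ j = w j ξ := fun _ _ => rfl
    have hinj : Function.Injective Φ := by
      rw [injective_iff_map_eq_zero]
      intro ξ hξ
      refine eq_zero_of_second_order hρ heff he hx (hzero ξ) fun a => ?_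
      have h1 : linPart (vL ρ (chartAt E p)) (chartAt E p p) ξ = 0 := by
        apply b.ext
        intro j
        rw [linPart_apply hLK hL hz, hr, ← hw, ← hΦ, hξ]
        simp
      rw [← linPart_apply hLK hL hz, h1]
      rfl
    have hsurj : Function.Surjective Φ :=
      (LinearMap.injective_iff_surjective_of_finrank_eq_finrank (by simp [hdim])).1 hinj
    rw [Fintype.linearIndependent_iff]
    intro g hg
    obtain ⟨ξ, hξ⟩ := hsurj g
    have h1 : ∑ j, g j * g j = 0 := by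
      have h2 := congrArg (fun T : V →L[ℝ] ℝ => T ξ) hg
      simp only [sum_apply, smul_apply, smul_eq_mul, zero_apply] at h2
      rw [← h2]
      refine Finset.sum_congr rfl fun j _ => ?_
      rw [← hΦ ξ j, hξ]
    intro j
    have h3 := (Finset.sum_eq_zero_iff_of_nonneg fun j _ => mul_self_nonneg (g j)).1 h1 j
      (Finset.mem_univ j)
    exact mul_self_eq_zero.1 h3
  · have h1 := mfderiv_eq_TF (hρ.line ξ) (hfix ξ) 1 (b j)
    have h2 : fderiv ℝ (vF (ln ρ ξ) (chartAt E p)) (chartAt E p p) (b j) = r j ξ • b j := by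
      rw [← hr]
      have h3 : (fun z => vL ρ (chartAt E p) z ξ) =ᶠ[𝓝 (chartAt E p p)]
          vF (ln ρ ξ) (chartAt E p) := by
        filter_upwards [(chartAt E p).open_target.mem_nhds hz] with z hz using vL_apply hρ he hz ξ
      rw [h3.fderiv_eq]
    rw [TF_eigen (hρ.line ξ) he hx (hfix ξ) h2 1, ln_one, ofReal_one, one_mul] at h1
    rw [hw]
    exact h1

/-- a direction whose weights are all equal to one -/
theorem IsToricFixedPoint.exists_scalar [FiniteDimensional ℝ V]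
    (hdim : finrank ℝ V = finrank ℂ E) {p : M}
    {b : Basis (Fin (finrank ℂ E)) ℂ E} {w : Fin (finrank ℂ E) → V →L[ℝ] ℝ}
    (hp : IsToricFixedPoint ρ p b w) : ∃ ξ, IsScalarFixedPoint E (ln ρ ξ) p 1 := by
  let Φ : V →ₗ[ℝ] (Fin (finrank ℂ E) → ℝ) := LinearMap.pi fun j => (w j : V →ₗ[ℝ] ℝ)
  have hΦ : ∀ ξ j, Φ ξ j = w j ξ := fun _ _ => rfl
  have hinj : Function.Injective Φ := by
    rw [injective_iff_map_eq_zero]
    intro ξ hξ
    by_contra hne
    obtain ⟨f, hf⟩ := SeparatingDual.exists_ne_zero (R := ℝ) hne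
    have hfin : finrank ℝ (V →L[ℝ] ℝ) = finrank ℝ V := by
      rw [← (LinearMap.toContinuousLinearMap (𝕜 := ℝ) (E := V) (F' := ℝ)).finrank_eq]
      simp
    have hspan := hp.indep.span_eq_top_of_card_eq_finrank' (by rw [hfin, hdim, Fintype.card_fin])
    have hall : ∀ g : V →L[ℝ] ℝ, g ξ = 0 := by
      intro g
      have hg : g ∈ Submodule.span ℝ (range w) := hspan ▸ Submodule.mem_top
      induction hg using Submodule.span_induction with
      | mem x hx =>
        obtain ⟨j, rfl⟩ := hx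
        rw [← hΦ, hξ]
        rfl
      | zero => rfl
      | add x y _ _ hx hy => rw [add_apply, hx, hy, add_zero]
      | smul a x _ hx => rw [smul_apply, hx, smul_zero]
    exact hf (hall f)
  have hsurj : Function.Surjective Φ :=
    (LinearMap.injective_iff_surjective_of_finrank_eq_finrank (by simp [hdim])).1 hinj
  obtain ⟨ξ, hξ⟩ := hsurj fun _ => 1
  have hw1 : ∀ j, w j ξ = 1 := fun j => by rw [← hΦ, hξ]
  refine ⟨ξ, fun t => hp.fixed _, one_pos, fun t v => ?_⟩
  let T : E →L[ℂ] E := mfderiv 𝓘(ℂ, E) 𝓘(ℂ, E) (ln ρ ξ t) p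
  have h1 : (T : E →ₗ[ℂ] E) = (exp (t * (1:ℝ) * I) : ℂ) • LinearMap.id := by
    apply b.ext
    intro j
    have h2 : T (b j) = exp (w j (t • ξ) * I) • b j := hp.deriv (t • ξ) j
    rw [map_smul, hw1] at h2
    simpa using h2
  have h2 := congrArg (fun S : E →ₗ[ℂ] E => S v) h1
  exact h2

/-- existence of a fixed point, for positive holomorphic sectional curvature -/
theorem main_fixed [CompleteSpace M] [ConnectedSpace M] [FiniteDimensional ℝ V]
    (hK : IsKahler E M) (hH : ∀ x : M, PosHolSectAt E x) (hdim : finrank ℝ V = finrank ℂ E)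
    (hρ : IsHolIsomAction E ρ) (heff : IsLocallyEffective ρ)
    (hiso : ∃ x : M, IsIsotropicOrbit E ρ x) :
    ∃ p b w, IsToricFixedPoint (E := E) ρ p b w := by
  obtain ⟨x₀, hx₀⟩ := hiso
  have hiso' : ∀ (x : M) (ξ η : V), isoM E ρ ξ η x = 0 := fun x ξ η => by
    rw [isoM_const hK hρ ξ η x x₀]
    exact (isotropic_iff hρ x₀).1 hx₀ ξ η
  obtain ⟨p, hp⟩ := exists_fixed hK (fun e he x hx a ha => Rc_pos_of_holSect hK he hx (hH x) a ha)
    hdim hρ heff hiso'
  obtain ⟨b, w, h⟩ := exists_toric hK hdim hρ heff hp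
  exact ⟨p, b, w, h⟩

/-- the toric uniformization theorem -/
theorem main_toric [CompleteSpace M] [NoncompactSpace M] [ConnectedSpace M]
    [FiniteDimensional ℝ V] (hK : IsKahler E M) (hpos : ∀ x : M, PosBisectionalAt E x)
    (hdim : finrank ℝ V = finrank ℂ E) (hρ : IsHolIsomAction E ρ) (heff : IsLocallyEffective ρ)
    (hiso : ∃ x : M, IsIsotropicOrbit E ρ x) :
    ∃ p b w, IsToricFixedPoint (E := E) ρ p b w ∧ (∀ x, (∀ ξ, ρ ξ x = x) → x = p) ∧
      ∃ F : M ≃ₘ^1⟮𝓘(ℂ, E), 𝓘(ℂ, E)⟯ E, F p = 0 ∧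
        (∀ v : E, (mfderiv 𝓘(ℂ, E) 𝓘(ℂ, E) F p : E → E) v = v) ∧
        (∀ ξ x, F (ρ ξ x) = (mfderiv 𝓘(ℂ, E) 𝓘(ℂ, E) (ρ ξ) p : E → E) (F x)) ∧
        (∀ (x : M) (v : E), sqLen (E := E) x v ≤
          sqLen (E := E) p ((mfderiv 𝓘(ℂ, E) 𝓘(ℂ, E) F x : E → E) v)) ∧
        (∀ x y : M, dist x y ≤ √(sqLen (E := E) p (F x - F y))) ∧
        ∃ C > 0, ∀ x : M, ‖F x‖ ≤ C * Real.exp (C * dist p x) := by
  obtain ⟨p, b, w, hp⟩ := main_fixed hK (fun x => (hpos x).posHolSect) hdim hρ heff hiso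
  obtain ⟨ξ₁, hs⟩ := hp.exists_scalar hdim
  obtain ⟨F, hF, -, hgr, hlen, hdist, hcomm⟩ := Vale.Agent.P253.U165.main_scalar hK
    (fun x => (hpos x).nonneg) (hρ.line ξ₁) (hpos p) hs
  refine ⟨p, b, w, hp, fun x hx => ?_, F, hF.base, hF.deriv, fun ξ x => ?_, hlen, hdist, hgr⟩
  · have h1 := hF.equivariant Real.pi x
    have h2 : ln ρ ξ₁ Real.pi x = x := hx _
    rw [h2, hs.2.2, ofReal_one, mul_one, exp_pi_mul_I, neg_one_smul] at h1
    have h3 : F x = 0 := by
      have h4 : (2 : ℂ) • F x = 0 := by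
        rw [two_smul]
        nth_rewrite 1 [h1]
        exact neg_add_cancel _
      exact (smul_eq_zero.1 h4).resolve_left two_ne_zero
    exact F.injective (h3.trans hF.base.symm)
  · exact (hcomm (ρ ξ) (hρ.holo ξ) (fun t x => hρ.comm _ _ x)).2 x

end Vale.Agent.P253.H577
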