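import Vale.Agent.P253.H577.Iso2

/-!
P253: existence of a fixed point.
-/

open scoped Manifold ContDiff Topology Bundle
open Set Metric Complex Filter Bundle IsManifold Manifold Module Vale.Agent.P253.Mfd

set_option maxSynthPendingDepth 3
set_option linter.unusedSectionVars false

noncomputable section

namespace Vale.Agent.P253.H577

variable {E : Type*} [NormedAddCommGroup E] [NormedSpace ℂ E] [FiniteDimensional ℂ E]
  {M : Type*} [MetricSpace M] [ChartedSpace E M]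
  [IsManifold 𝓘(ℂ, E) 1 M] [IsManifold 𝓘(ℝ, E) ∞ M]
  [RiemannianBundle (fun x : M => TangentSpace 𝓘(ℝ, E) x)]
  [IsContMDiffRiemannianBundle 𝓘(ℝ, E) ∞ E (fun x : M => TangentSpace 𝓘(ℝ, E) x)]
  [IsRiemannianManifold 𝓘(ℝ, E) M]
  {V : Type*} [NormedAddCommGroup V] [NormedSpace ℝ V] {ρ : V → M → M}

theorem Nop_congr {G : E → E →L[ℝ] E →L[ℝ] ℝ} {v v' : E → E} {z : E} (h : v =ᶠ[𝓝 z] v') (a : E) :
    Nop G v z a = Nop G v' z a := by
  rw [Nop, Nop, h.fderiv_eq, h.eq_of_nhds]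

/-- local effectivity and rigidity -/
theorem eq_zero_of_second_order [ConnectedSpace M] (hρ : IsHolIsomAction E ρ)
    (heff : IsLocallyEffective ρ) {e : OpenPartialHomeomorph M E}
    (he : e ∈ maximalAtlas 𝓘(ℂ, E) 1 M) {x : M} (hx : x ∈ e.source) {κ : V}
    (h0 : vL ρ e (e x) κ = 0) (h1 : ∀ a, fderiv ℝ (fun z => vL ρ e z κ) (e x) a = 0) : κ = 0 := by
  apply heff
  intro t y
  have hz : e x ∈ e.target := e.map_source hx
  refine rigid' (hρ.line κ) he hx ?_ (fun a => ?_) t y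
  · rw [← vL_apply hρ he hz]; exact h0
  · have h2 : (fun z => vL ρ e z κ) =ᶠ[𝓝 (e x)] vF (ln ρ κ) e := by
      filter_upwards [e.open_target.mem_nhds hz] with z hz using vL_apply hρ he hz κ
    rw [← h2.fderiv_eq]
    exact h1 a

theorem exists_fixed [CompleteSpace M] [ConnectedSpace M] [FiniteDimensional ℝ V]
    (hK : IsKahler E M)
    (hR : ∀ e ∈ maximalAtlas 𝓘(ℂ, E) 1 M, ∀ x ∈ e.source, ∀ a, a ≠ 0 →
      0 < Rc (chartG (M := M) e) (e x) a a)
    (hdim : finrank ℝ V = finrank ℂ E) (hρ : IsHolIsomAction E ρ) (heff : IsLocallyEffective ρ)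
    (hiso : ∀ (x : M) (ξ η : V), isoM E ρ ξ η x = 0) : ∃ p : M, kerAt E ρ p = ⊤ := by
  classical
  by_contra hcon
  push Not at hcon
  obtain ⟨x₀, hx₀⟩ : ∃ x₀ : M, ∀ x, finrank ℝ (kerAt E ρ x) ≤ finrank ℝ (kerAt E ρ x₀) := by
    have hwf : ∃ n : ℕ, ∃ x : M, finrank ℝ V - finrank ℝ (kerAt E ρ x) = n :=
      ⟨_, Classical.arbitrary M, rfl⟩
    obtain ⟨x₀, hx₀⟩ := Nat.find_spec hwf
    refine ⟨x₀, fun x => ?_⟩
    have h1 := Nat.find_min' hwf ⟨x, rfl⟩
    have h2 := Submodule.finrank_le (kerAt E ρ x)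
    have h3 := Submodule.finrank_le (kerAt E ρ x₀)
    omega
  have hgradV : ∀ e ∈ maximalAtlas 𝓘(ℂ, E) 1 M, ∀ x ∈ e.source, ∀ ξ, ∃ ζ,
      Nop (chartG (M := M) e) (fun z => vL ρ e z ξ) (e x) (vL ρ e (e x) ξ) = vL ρ e (e x) ζ := by
    intro e he x hx ξ
    exact (commFam_vL hρ he).exists_grad (localKahler_chartG hK he) (e.map_source hx) hdim
      (fun ξ η => by rw [isoM_eq hρ he hx]; exact hiso x ξ η)
      (fun κ h0 h1 => eq_zero_of_second_order hρ heff he hx h0 h1) ξ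
  set K := kerAt E ρ x₀ with hKdef
  obtain ⟨C, hC⟩ := Submodule.exists_isCompl K
  have hCne : C ≠ ⊥ := by
    rintro rfl
    apply hcon x₀
    have := hC.sup_eq_top
    rwa [sup_bot_eq] at this
  have hr : 0 < finrank ℝ C := by
    rw [Module.finrank_pos_iff]
    exact (Submodule.nontrivial_iff_ne_bot).2 hCne
  set r := finrank ℝ C with hrdef
  have hfr : finrank ℝ (EuclideanSpace ℝ (Fin r)) = finrank ℝ C := by simp [hrdef]
  let T : EuclideanSpace ℝ (Fin r) ≃ₗ[ℝ] C := LinearEquiv.ofFinrankEq _ _ hfr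
  let A : EuclideanSpace ℝ (Fin r) →L[ℝ] V :=
    LinearMap.toContinuousLinearMap (C.subtype ∘ₗ T.toLinearMap)
  have hAT : ∀ ξ, A ξ = (T ξ : V) := fun ξ => rfl
  have hA0 : ∀ ξ, A ξ ∈ K → ξ = 0 := by
    intro ξ hξ
    have h1 : A ξ ∈ K ⊓ C := ⟨hξ, (T ξ).2⟩
    rw [hC.inf_eq_bot, Submodule.mem_bot, hAT] at h1
    have h2 : T ξ = 0 := Subtype.ext h1
    exact T.map_eq_zero_iff.1 h2
  have hAs : ∀ y ∈ C, ∃ ξ, A ξ = y := by
    intro y hy
    refine ⟨T.symm ⟨y, hy⟩, ?_⟩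
    rw [hAT, LinearEquiv.apply_symm_apply]
  let b := Module.finBasis ℝ K
  let κ : Fin (finrank ℝ K) → V := fun k => (b k : V)
  have hc0 : ∀ x, cS (E := E) ρ κ x = 0 → kerAt E ρ x = K := by
    intro x hx
    have h1 : K ≤ kerAt E ρ x := by
      intro y hy
      have h2 := b.sum_repr ⟨y, hy⟩
      have h3 : y = ∑ k, (b.repr ⟨y, hy⟩ k) • κ k := by
        have h4 := congrArg (fun u : K => (u : V)) h2
        simp only [Submodule.coe_sum, Submodule.coe_smul] at h4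
        exact h4.symm
      rw [h3]
      exact Submodule.sum_mem _ fun k _ => Submodule.smul_mem _ _ ((cS_eq_zero hρ x).1 hx k)
    exact (Submodule.eq_of_le_of_finrank_le h1 (hx₀ x)).symm
  have hcx₀ : cS (E := E) ρ κ x₀ = 0 := (cS_eq_zero hρ x₀).2 fun k => (b k).2
  have hρ' := hρ.pull A
  have hw : Weight (E := E) (fun ξ => ρ (A ξ)) (cS (E := E) ρ κ) := by
    refine ⟨fun e he => cS_smooth hρ he, cS_nonneg hρ, fun x hx ξ hξ => ?_⟩
    have he : chartAt E x ∈ maximalAtlas 𝓘(ℂ, E) 1 M := chart_mem_maximalAtlas x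
    rw [gram, gramC_apply, vL_pull hρ A he (mem_chart_target E x)]
    refine chartG_pos (mem_maximalAtlas_real he) (mem_chart_target E x) _ fun h0 => hξ ?_
    apply hA0
    rw [← hc0 x hx, mem_kerAt hρ he (mem_chart_source E x)]
    exact h0
  have hne : Nonempty (Fin r) := ⟨⟨0, hr⟩⟩
  obtain ⟨v, hv⟩ := exists_ne (0 : EuclideanSpace ℝ (Fin r))
  have hℓ : innerSL ℝ v ≠ 0 := by
    intro h0
    apply hv
    have h1 : innerSL ℝ v v = 0 := by rw [h0]; rfl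
    rw [innerSL_apply_apply] at h1
    exact inner_self_eq_zero.1 h1
  obtain ⟨γ, hγ0, hγ⟩ := (chartField_zM (ℓ := innerSL ℝ v) hρ' hw).exists_global_curve
    (len_zM_le hρ') x₀
  have hstay : ∀ t, cS (E := E) ρ κ (γ t) = 0 := by
    intro t
    refine (cS_eq_zero hρ _).2 fun k => mem_kerAt_of_fixed hρ fun s => ?_
    refine stay_fixed hρ' hw (hρ.line (κ k)) (fun s ξ x => hρ.comm _ _ x) (cS_inv hρ (κ k)) hγ
      (t₀ := 0) (fun s => ?_) s t
    rw [hγ0]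
    exact fixed_of_mem_kerAt hρ (b k).2 s
  refine no_integral_curve hK hR hρ' hw hℓ (fun e he x hx hcx ξ => ?_) hγ hstay
  obtain ⟨ζ, hζ⟩ := hgradV e he x hx (A ξ)
  obtain ⟨k, hk, y, hy, rfl⟩ := Submodule.mem_sup.1 (hC.sup_eq_top ▸ Submodule.mem_top : ζ ∈ K ⊔ C)
  obtain ⟨ξ', rfl⟩ := hAs y hy
  have hz : e x ∈ e.target := e.map_source hx
  refine ⟨ξ', ?_⟩
  rw [vL_pull hρ A he hz, vL_pull hρ A he hz]
  have h1 : (fun z => vL (fun ξ => ρ (A ξ)) e z ξ) =ᶠ[𝓝 (e x)] fun z => vL ρ e z (A ξ) := by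
    filter_upwards [e.open_target.mem_nhds hz] with z hz using vL_pull hρ A he hz ξ
  rw [Nop_congr h1, hζ, map_add]
  have h2 : vL ρ e (e x) k = 0 := (mem_kerAt hρ he hx).1 (by rw [hc0 x hcx]; exact hk)
  rw [h2, zero_add]

end Vale.Agent.P253.H577
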