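import Vale.Agent.P253.H577.Field

/-!
P253: invariance of the vector field under commuting holomorphic isometries.
-/

open scoped Manifold ContDiff Topology Bundle
open Set Metric Complex Filter Bundle IsManifold Manifold Vale.Agent.P253.Mfd

set_option maxSynthPendingDepth 3
set_option linter.unusedSectionVars false

noncomputable section

namespace Vale.Agent.P253.H577

variable {E : Type*} [NormedAddCommGroup E] [NormedSpace ℂ E] [FiniteDimensional ℂ E]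
  {M : Type*} [MetricSpace M] [ChartedSpace E M]
  {V : Type*} [NormedAddCommGroup V] [InnerProductSpace ℝ V] [FiniteDimensional ℝ V]
  [IsManifold 𝓘(ℂ, E) 1 M] [IsManifold 𝓘(ℝ, E) ∞ M]
  [RiemannianBundle (fun x : M => TangentSpace 𝓘(ℝ, E) x)]
  [IsContMDiffRiemannianBundle 𝓘(ℝ, E) ∞ E (fun x : M => TangentSpace 𝓘(ℝ, E) x)]
  {ρ : V → M → M} {e e' : OpenPartialHomeomorph M E} {σ : ℝ → M → M}

theorem vF_push {τ : ℝ → M → M} (hσ : IsHolIsomFlow E σ) (hτ : IsHolIsomFlow E τ)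
    (hcomm : ∀ s t x, σ s (τ t x) = τ t (σ s x)) (he : e ∈ maximalAtlas 𝓘(ℂ, E) 1 M)
    (he' : e' ∈ maximalAtlas 𝓘(ℂ, E) 1 M) {s : ℝ} {z : E} (hz : (s, z) ∈ HΩ σ e e') :
    fderiv ℝ (fun w => HF σ e e' (s, w)) z (vF τ e z) = vF τ e' (HF σ e e' (s, z)) := by
  rw [vF, vF, map_neg, ← xF_push hσ hτ hcomm he he' hz]
  congr 1
  have h1 := (HΩ_slice_holo hσ he he' hz).hasFDerivAt.restrictScalars ℝ
  rw [h1.fderiv]
  exact map_smul (fderiv ℂ (fun w => HF σ e e' (s, w)) z) I (xF τ e z)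

section push

variable (hρ : IsHolIsomAction E ρ) (hσ : IsHolIsomFlow E σ)
  (hcomm : ∀ s ξ x, σ s (ρ ξ x) = ρ ξ (σ s x)) (he : e ∈ maximalAtlas 𝓘(ℂ, E) 1 M)
  (he' : e' ∈ maximalAtlas 𝓘(ℂ, E) 1 M) {s : ℝ} {z : E} (hz : (s, z) ∈ HΩ σ e e')

include hρ hσ hcomm he he' hz

theorem vL_push (ξ : V) :
    fderiv ℝ (fun w => HF σ e e' (s, w)) z (vL ρ e z ξ) = vL ρ e' (HF σ e e' (s, z)) ξ := by
  have hz1 : z ∈ e.target := hz.1
  have hz2 : HF σ e e' (s, z) ∈ e'.target := e'.map_source hz.2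
  rw [vL_apply hρ he hz1, vL_apply hρ he' hz2]
  exact vF_push hσ (hρ.line ξ) (fun s t x => hcomm s _ x) he he' hz

theorem gramC_push : gramC ρ e' (HF σ e e' (s, z)) = gramC ρ e z := by
  ext ξ η
  rw [gramC_apply, gramC_apply, ← vL_push hρ hσ hcomm he he' hz,
    ← vL_push hρ hσ hcomm he he' hz, chartG_HF hσ he he' hz]

variable {c : M → ℝ} {ℓ : V →L[ℝ] ℝ} (hc : ∀ s x, c (σ s x) = c x)

include hc

theorem mgC_push : mgC ρ c e' (HF σ e e' (s, z)) = mgC ρ c e z := by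
  rw [mgC, mgC, gramC_push hρ hσ hcomm he he' hz]
  have h1 : e'.symm (HF σ e e' (s, z)) = σ s (e.symm z) := by
    simp only [HF]; rw [e'.left_inv hz.2]
  rw [h1, hc]

theorem zC_push :
    fderiv ℝ (fun w => HF σ e e' (s, w)) z (zC ρ c ℓ e z) = zC ρ c ℓ e' (HF σ e e' (s, z)) := by
  rw [zC, zC, map_smul, vL_push hρ hσ hcomm he he' hz, tC, tC, wC, wC,
    mgC_push hρ hσ hcomm he he' hz hc, gramC_push hρ hσ hcomm he he' hz]

end push

variable [IsRiemannianManifold 𝓘(ℝ, E) M]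

/-- an invariant field: the isometries map integral curves to integral curves -/
theorem ChartField.comp_flow {Z : M → E} {Zc : OpenPartialHomeomorph M E → E → E}
    (hZ : ChartField Z Zc) (hσ : IsHolIsomFlow E σ) (θ : ℝ)
    (hinv : ∀ e ∈ maximalAtlas 𝓘(ℂ, E) 1 M, ∀ e' ∈ maximalAtlas 𝓘(ℂ, E) 1 M, ∀ z,
      (θ, z) ∈ HΩ σ e e' →
        fderiv ℝ (fun w => HF σ e e' (θ, w)) z (Zc e z) = Zc e' (HF σ e e' (θ, z)))
    {γ : ℝ → M} (hγ : IsMIntegralCurve (I := 𝓘(ℝ, E)) γ (sec Z)) :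
    IsMIntegralCurve (I := 𝓘(ℝ, E)) (fun t => σ θ (γ t)) (sec Z) := by
  intro t
  have he : chartAt E (γ t) ∈ maximalAtlas 𝓘(ℂ, E) 1 M := chart_mem_maximalAtlas (γ t)
  have he' : chartAt E (σ θ (γ t)) ∈ maximalAtlas 𝓘(ℂ, E) 1 M := chart_mem_maximalAtlas _
  set e := chartAt E (γ t) with hedef
  set e' := chartAt E (σ θ (γ t)) with he'def
  have hx : γ t ∈ e.source := mem_chart_source E (γ t)
  have hx' : σ θ (γ t) ∈ e'.source := mem_chart_source E _
  have hq : (θ, e (γ t)) ∈ HΩ σ e e' := ⟨e.map_source hx, by simpa only [e.left_inv hx] using hx'⟩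
  have h1 := hZ.hasDerivAt he (hγ.isMIntegralCurveOn univ) univ_mem hx
  have h2 := hasFDerivAt_HF_right hσ he he' hq
  have h3 : HasDerivAt (fun s => HF σ e e' (θ, (e ∘ γ) s)) (Zc e' (HF σ e e' (θ, e (γ t)))) t := by
    have h4 := HasFDerivAt.comp_hasDerivAt (f := e ∘ γ) t h2 h1
    rw [← h2.fderiv, hinv e he e' he' _ hq] at h4
    exact h4
  have h5 := hZ.of_chart he' h3 (e'.map_source hq.2)
  have hev : (fun s => σ θ (γ s)) =ᶠ[𝓝 t] e'.symm ∘ (fun s => HF σ e e' (θ, (e ∘ γ) s)) := by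
    have hcγ : Continuous γ := hγ.continuous
    have hρc : Continuous (σ θ) := (hσ.contMDiff θ).continuous
    have m1 : ∀ᶠ s in 𝓝 t, γ s ∈ e.source :=
      hcγ.continuousAt.eventually (e.open_source.mem_nhds hx)
    have m2 : ∀ᶠ s in 𝓝 t, σ θ (γ s) ∈ e'.source :=
      (hρc.comp hcγ).continuousAt.eventually (e'.open_source.mem_nhds hx')
    filter_upwards [m1, m2] with s hs1 hs2
    simp only [Function.comp_apply, HF]
    rw [e.left_inv hs1, e'.left_inv hs2]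
  have h6 := h5.congr_of_eventuallyEq hev
  have h7 : e'.symm (HF σ e e' (θ, (e ∘ γ) t)) = σ θ (γ t) := by
    simp only [HF, Function.comp_apply]
    rw [e.left_inv hx, e'.left_inv hx']
  rw [h7] at h6
  exact h6

/-- integral curves of the field stay in the fixed point set of a commuting flow -/
theorem stay_fixed {c : M → ℝ} {ℓ : V →L[ℝ] ℝ} (hρ : IsHolIsomAction E ρ)
    (hcw : Weight (E := E) ρ c) (hσ : IsHolIsomFlow E σ)
    (hcomm : ∀ s ξ x, σ s (ρ ξ x) = ρ ξ (σ s x)) (hc : ∀ s x, c (σ s x) = c x)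
    {γ : ℝ → M} (hγ : IsMIntegralCurve (I := 𝓘(ℝ, E)) γ (sec (zM E ρ c ℓ))) {t₀ : ℝ}
    (h0 : ∀ s, σ s (γ t₀) = γ t₀) (s t : ℝ) : σ s (γ t) = γ t := by
  have hZ := chartField_zM (ℓ := ℓ) hρ hcw
  have hT2 : T2Space M := inferInstance
  have h1 := hZ.comp_flow hσ s (fun e he e' he' z hz => zC_push hρ hσ hcomm he he' hz hc) hγ
  have h2 := isMIntegralCurve_Ioo_eq_of_contMDiff_boundaryless (t₀ := t₀) hZ.contMDiff h1 hγ (h0 s)
  exact congrFun h2 t

end Vale.Agent.P253.H577
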