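import Vale.Agent.P253.H577.Loc

/-!
P253: commuting holomorphic Killing fields at a point where some of them vanish.
-/

open scoped ContDiff Topology
open Set Metric Complex Filter Vale.Agent.P253.Mfd

set_option maxSynthPendingDepth 3
set_option linter.unusedSectionVars false

noncomputable section

namespace Vale.Agent.P253.H577

variable {E : Type*} [NormedAddCommGroup E] [NormedSpace ℂ E] [FiniteDimensional ℂ E]
  {V : Type*} [NormedAddCommGroup V] [NormedSpace ℝ V]
  {G : E → E →L[ℝ] E →L[ℝ] ℝ} {U : Set E} {z : E} {L : E → V →L[ℝ] E}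

theorem herm_left (h : LocalKahler G U) (hz : z ∈ U) (a b : E) : G z (I • a) b = -G z a (I • b) := by
  have h1 := h.herm z hz a (-(I • b))
  rw [smul_neg, smul_smul, I_mul_I, neg_one_smul, neg_neg, map_neg] at h1
  exact h1

theorem Nop_I {v : E → E} (h : LocalKahler G U) (hv : DifferentiableOn ℂ v U) (hz : z ∈ U) (a : E) :
    Nop G v z (I • a) = I • Nop G v z a := by
  rw [Nop, Nop, fderiv_real_smul_I h.isOpen hv hz, h.par z hz, smul_add]

theorem Nop_self_I {v : E → E} (h : LocalKahler G U) (hv : DifferentiableOn ℂ v U)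
    (hk : Killing G v U) (hz : z ∈ U) (a : E) : G z (Nop G v z a) (I • a) = 0 := by
  have h1 := Nop_symm h hv hk hz a (I • a)
  rw [Nop_I h hv hz, herm_left h hz, h.symm z hz (Nop G v z a) (I • a), herm_left h hz,
    h.symm z hz a (I • Nop G v z a), herm_left h hz] at h1
  linarith only [h1]

namespace CommFam

variable (h : LocalKahler G U) (hL : CommFam G L U) (hz : z ∈ U)

include h hL hz

/-- the fields are invariant: the gradient of the length of a field is orthogonal to the Killing
fields -/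
theorem grad_orth (ξ κ : V) :
    G z (Nop G (fun z => L z ξ) z (L z ξ)) (I • L z κ) = 0 := by
  rw [Nop_symm h (hL.holo ξ) (hL.kill ξ) hz, Nop_I h (hL.holo ξ) hz, hL.Nop_comm h hz,
    herm_left h hz, Nop_self_I h (hL.holo κ) (hL.kill κ) hz, neg_zero]

theorem fderiv_len (ξ : V) (u : E) :
    fderiv ℝ (fun z => G z (L z ξ) (L z ξ)) z u =
      2 * G z (Nop G (fun z => L z ξ) z (L z ξ)) u := by
  rw [hL.fderiv_gram h hz, Nop_symm h (hL.holo ξ) (hL.kill ξ) hz u]
  ring

omit hz in
theorem contDiffOn_len (ξ : V) : ContDiffOn ℝ ∞ (fun z => G z (L z ξ) (L z ξ)) U := by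
  have c1 : ContDiffOn ℝ ∞ (fun z => L z ξ) U := hL.smooth.clm_apply contDiffOn_const
  exact (h.smooth.clm_apply c1).clm_apply c1

section vanish

variable {κ : V} (hκ : L z κ = 0)

include hκ

theorem Nop_vanish (a : E) : Nop G (fun z => L z κ) z a = fderiv ℝ (fun z => L z κ) z a := by
  rw [Nop, hκ]
  simp

theorem Nop_vanish_field (b : V) : Nop G (fun z => L z κ) z (L z b) = 0 := by
  rw [hL.Nop_comm h hz, hκ]
  simp [Nop]

/-- the linear parts of vanishing fields commute -/
theorem comm_vanish {κ' : V} (hκ' : L z κ' = 0) (a : E) :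
    fderiv ℝ (fun z => L z κ) z (fderiv ℝ (fun z => L z κ') z a) =
      fderiv ℝ (fun z => L z κ') z (fderiv ℝ (fun z => L z κ) z a) := by
  have key : ∀ {α β : V}, L z β = 0 → HasFDerivAt (fun x => fderiv ℝ (fun z => L z α) x (L x β))
      ((fderiv ℝ (fun z => L z α) z).comp (fderiv ℝ (fun z => L z β) z)) z := by
    intro α β hβ
    have c1 : ContDiffOn ℝ ∞ (fun z => L z α) U := hL.smooth.clm_apply contDiffOn_const
    have d1 : DifferentiableAt ℝ (fderiv ℝ (fun z => L z α)) z :=
      ((c1.fderiv_of_isOpen h.isOpen (m := ∞) (by simp)).contDiffAt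
        (h.isOpen.mem_nhds hz)).differentiableAt (by simp)
    have d2 : HasFDerivAt (fun z => L z β) (fderiv ℝ (fun z => L z β) z) z :=
      (hL.hasFDerivAt_apply h hz β).differentiableAt.hasFDerivAt
    refine (d1.hasFDerivAt.clm_apply d2).congr_fderiv ?_
    ext u
    simp [hβ]
  have h1 := key (α := κ) hκ'
  have h2 := key (α := κ') hκ
  have h3 : (fun x => fderiv ℝ (fun z => L z κ) x (L x κ')) =ᶠ[𝓝 z]
      (fun x => fderiv ℝ (fun z => L z κ') x (L x κ)) := by
    filter_upwards [h.isOpen.mem_nhds hz] with x hx using hL.comm x hx κ κ'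
  have h4 := (h1.congr_of_eventuallyEq h3.symm).unique h2
  exact congrArg (fun T => T a) h4

/-- the gradient of the length of a field is fixed by the isotropy group -/
theorem Nop_vanish_grad (ξ : V) :
    Nop G (fun z => L z κ) z (Nop G (fun z => L z ξ) z (L z ξ)) = 0 := by
  have hlen := hL.contDiffOn_len h ξ
  have d1 : DifferentiableAt ℝ (fderiv ℝ (fun z => G z (L z ξ) (L z ξ))) z :=
    ((hlen.fderiv_of_isOpen h.isOpen (m := ∞) (by simp)).contDiffAt
      (h.isOpen.mem_nhds hz)).differentiableAt (by simp)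
  have d2 : HasFDerivAt (fun z => I • L z κ) (I • fderiv ℝ (fun z => L z κ) z) z :=
    (hL.hasFDerivAt_apply h hz κ).differentiableAt.hasFDerivAt.const_smul I
  have h1 := d1.hasFDerivAt.clm_apply d2
  have h2 : (fun x => fderiv ℝ (fun z => G z (L z ξ) (L z ξ)) x (I • L x κ)) =ᶠ[𝓝 z]
      fun _ => (0:ℝ) := by
    filter_upwards [h.isOpen.mem_nhds hz] with x hx
    rw [hL.fderiv_len h hx, hL.grad_orth h hx, mul_zero]
  have h3 := (h1.congr_of_eventuallyEq h2.symm).unique (hasFDerivAt_const (0:ℝ) z)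
  have h4 : ∀ a : E, G z (Nop G (fun z => L z ξ) z (L z ξ))
      (I • Nop G (fun z => L z κ) z a) = 0 := by
    intro a
    have h5 := congrArg (fun T : E →L[ℝ] ℝ => T a) h3
    simp only [ContinuousLinearMap.comp_apply, smul_apply, zero_apply, hκ, smul_zero, map_zero,
      add_zero] at h5
    rw [hL.fderiv_len h hz] at h5
    rw [hL.Nop_vanish h hz hκ]
    linarith only [h5]
  set X := Nop G (fun z => L z ξ) z (L z ξ) with hX
  by_contra hne
  have h5 := h.pos z hz _ hne
  have h6 := h4 (-(I • Nop G (fun z => L z κ) z X))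
  rw [← Nop_I h (hL.holo κ) hz, smul_neg, smul_smul, I_mul_I, neg_one_smul, neg_neg,
    h.symm z hz, Nop_symm h (hL.holo κ) (hL.kill κ) hz] at h6
  linarith only [h5, h6]

end vanish

end CommFam

end Vale.Agent.P253.H577
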