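import Vale.Agent.P253.H577.Wt

/-!
P253: isotropic orbits; if one orbit is isotropic, all are.
-/

open scoped Manifold ContDiff Topology Bundle
open Set Metric Complex Filter Bundle IsManifold Manifold Vale.Agent.P253.Mfd

set_option maxSynthPendingDepth 3
set_option linter.unusedSectionVars false

noncomputable section

namespace Vale.Agent.P253.H577

section loc

variable {E : Type*} [NormedAddCommGroup E] [NormedSpace ℂ E] [FiniteDimensional ℂ E]
  {V : Type*} [NormedAddCommGroup V] [NormedSpace ℝ V]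
  {G : E → E →L[ℝ] E →L[ℝ] ℝ} {U : Set E} {z : E} {L : E → V →L[ℝ] E}

/-- the Kähler form of two of the fields is locally constant -/
theorem CommFam.hasFDerivAt_iso (h : LocalKahler G U) (hL : CommFam G L U) (hz : z ∈ U) (ξ η : V) :
    HasFDerivAt (fun z => G z (L z ξ) (I • L z η)) (0 : E →L[ℝ] ℝ) z := by
  have hG := (h.differentiableAt hz).hasFDerivAt
  have hξ := hL.hasFDerivAt_apply h hz ξ
  have hη : HasFDerivAt (fun z => I • L z η) (I • (fderiv ℝ L z).flip η) z :=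
    (hL.hasFDerivAt_apply h hz η).const_smul I
  have h1 := (hG.clm_apply hξ).clm_apply hη
  convert! h1 using 1
  ext u
  have e1 : Nop G (fun z => L z ξ) z u = fderiv ℝ L z u ξ + chris G z (L z ξ) u := hL.Nop_eq h hz ξ u
  have e2 : Nop G (fun z => L z η) z u = fderiv ℝ L z u η + chris G z (L z η) u := hL.Nop_eq h hz η u
  have e3 : G z (Nop G (fun z => L z ξ) z u) (I • L z η) + G z (L z ξ)
      (I • Nop G (fun z => L z η) z u) = 0 := by
    have f1 : G z (Nop G (fun z => L z ξ) z u) (I • L z η) =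
        G z (I • Nop G (fun z => L z ξ) z (L z η)) u := by
      rw [Nop_symm h (hL.holo ξ) (hL.kill ξ) hz, Nop_I h (hL.holo ξ) hz]
    have f2 : G z (L z ξ) (I • Nop G (fun z => L z η) z u) =
        -G z (I • Nop G (fun z => L z η) z (L z ξ)) u := by
      rw [h.symm z hz (L z ξ), herm_left h hz, Nop_symm h (hL.holo η) (hL.kill η) hz,
        Nop_I h (hL.holo η) hz]
    rw [f1, f2, hL.Nop_comm h hz]
    ring
  have e4 := h.fderiv_eq hz u (L z ξ) (I • L z η)
  rw [h.par z hz, h.chris_symm hz u (L z ξ), h.chris_symm hz u (L z η)] at e4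
  simp only [add_apply, ContinuousLinearMap.comp_apply, ContinuousLinearMap.flip_apply,
    smul_apply, zero_apply]
  rw [e1, e2, smul_add, map_add, map_add, add_apply] at e3
  rw [e4]
  linarith only [e3]

end loc

variable {E : Type*} [NormedAddCommGroup E] [NormedSpace ℂ E] [FiniteDimensional ℂ E]
  {M : Type*} [MetricSpace M] [ChartedSpace E M]
  [IsManifold 𝓘(ℂ, E) 1 M] [IsManifold 𝓘(ℝ, E) ∞ M]
  [RiemannianBundle (fun x : M => TangentSpace 𝓘(ℝ, E) x)]
  [IsContMDiffRiemannianBundle 𝓘(ℝ, E) ∞ E (fun x : M => TangentSpace 𝓘(ℝ, E) x)]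
  {e e' : OpenPartialHomeomorph M E}
  {V : Type*} [NormedAddCommGroup V] [NormedSpace ℝ V] {ρ : V → M → M}

theorem dsymm_I (he : e ∈ maximalAtlas 𝓘(ℂ, E) 1 M) {z : E} (hz : z ∈ e.target) (v : E) :
    dsymm e z (I • v) = I • dsymm e z v := by
  have h1 : MDifferentiableAt 𝓘(ℂ, E) 𝓘(ℂ, E) e.symm z :=
    ((contMDiffOn_symm_of_mem_maximalAtlas he).contMDiffAt
      (e.open_target.mem_nhds hz)).mdifferentiableAt (by simp)
  have he' : chartAt E (e.symm z) ∈ maximalAtlas 𝓘(ℂ, E) 1 M := chart_mem_maximalAtlas _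
  have h2 : MDifferentiableAt 𝓘(ℂ, E) 𝓘(ℂ, E) (chartAt E (e.symm z)) (e.symm z) :=
    ((contMDiffOn_of_mem_maximalAtlas he').contMDiffAt
      ((chartAt E (e.symm z)).open_source.mem_nhds (mem_chart_source E _))).mdifferentiableAt
      (by simp)
  have h3 : DifferentiableAt ℂ (chartAt E (e.symm z) ∘ e.symm) z :=
    (h2.comp z h1).differentiableAt
  have h4 := h3.hasFDerivAt.restrictScalars ℝ
  have h5 := (hasFDerivAt_dsymm (mem_maximalAtlas_real he) hz).unique h4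
  rw [h5]
  exact map_smul (fderiv ℂ (chartAt E (e.symm z) ∘ e.symm) z) I v

variable (E) in
/-- the Kähler form of two of the fields -/
def isoM (ρ : V → M → M) (ξ η : V) (x : M) : ℝ :=
  innerAt (E := E) x (WE (ln ρ ξ) x) (I • WE (ln ρ η) x)

theorem isoM_eq (hρ : IsHolIsomAction E ρ) (he : e ∈ maximalAtlas 𝓘(ℂ, E) 1 M) {x : M}
    (hx : x ∈ e.source) (ξ η : V) :
    chartG e (e x) (vL ρ e (e x) ξ) (I • vL ρ e (e x) η) = isoM E ρ ξ η x := by
  rw [chartG_eq_innerAt, dsymm_I he (e.map_source hx), vL_apply hρ he (e.map_source hx),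
    vL_apply hρ he (e.map_source hx), dsymm_vF (hρ.line ξ) he hx, dsymm_vF (hρ.line η) he hx,
    e.left_inv hx]
  rfl

theorem isLocallyConstant_isoM (hK : IsKahler E M) (hρ : IsHolIsomAction E ρ) (ξ η : V) :
    IsLocallyConstant (isoM (M := M) E ρ ξ η) := by
  rw [IsLocallyConstant.iff_eventually_eq]
  intro x
  have he : chartAt E x ∈ maximalAtlas 𝓘(ℂ, E) 1 M := chart_mem_maximalAtlas x
  set e := chartAt E x with hedef
  have hx : x ∈ e.source := mem_chart_source E x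
  have hLK := localKahler_chartG hK he
  have hL := commFam_vL hρ he
  obtain ⟨δ, hδ, hball⟩ := Metric.isOpen_iff.1 e.open_target (e x) (e.map_source hx)
  have hev : ∀ᶠ y in 𝓝 x, e y ∈ ball (e x) δ :=
    (e.continuousAt hx).eventually (ball_mem_nhds _ hδ)
  filter_upwards [hev, e.open_source.mem_nhds hx] with y hy hys
  rw [← isoM_eq hρ he hx, ← isoM_eq hρ he hys]
  have hder : ∀ z ∈ ball (e x) δ, HasFDerivAt (fun z => chartG e z (vL ρ e z ξ) (I • vL ρ e z η))
      (0 : E →L[ℝ] ℝ) z := fun z hz => hL.hasFDerivAt_iso hLK (hball hz) ξ η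
  exact (convex_ball (e x) δ).is_const_of_fderivWithin_eq_zero (𝕜 := ℝ)
    (f := fun z => chartG e z (vL ρ e z ξ) (I • vL ρ e z η))
    (fun z hz => (hder z hz).differentiableAt.differentiableWithinAt)
    (fun z hz => by
      rw [fderivWithin_of_isOpen isOpen_ball hz]
      exact (hder z hz).fderiv) hy (mem_ball_self hδ)

theorem isoM_const [PreconnectedSpace M] (hK : IsKahler E M) (hρ : IsHolIsomAction E ρ) (ξ η : V)
    (x y : M) : isoM E ρ ξ η x = isoM E ρ ξ η y :=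
  (isLocallyConstant_isoM hK hρ ξ η).apply_eq_of_preconnectedSpace x y

theorem velocity_eq (hρ : IsHolIsomAction E ρ) (ξ : V) (x : M) :
    velocity E ρ ξ x = I • WE (ln ρ ξ) x := by
  have hτ := hρ.line ξ
  have h1 : ContMDiff 𝓘(ℝ, ℝ) 𝓘(ℝ, E) ∞ (fun t : ℝ => ln ρ ξ t x) := by
    have h2 : ContMDiff 𝓘(ℝ, ℝ) (𝓘(ℝ, ℝ).prod 𝓘(ℝ, E)) ∞ (fun t : ℝ => (t, x)) :=
      contMDiff_id.prodMk contMDiff_const
    exact hτ.smooth.comp h2
  have hmd : MDifferentiableAt 𝓘(ℝ, ℝ) 𝓘(ℝ, E) (fun t : ℝ => ln ρ ξ t x) 0 :=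
    (h1 0).mdifferentiableAt (by simp)
  have h0 : ln ρ ξ 0 x = x := hτ.zero x
  let T : ℝ →L[ℝ] E := mfderiv 𝓘(ℝ, ℝ) 𝓘(ℝ, E) (fun t : ℝ => ln ρ ξ t x) 0
  have h2 : HasFDerivAt (chartAt E (ln ρ ξ 0 x) ∘ (fun t : ℝ => ln ρ ξ t x)) T 0 := by
    have h3 := hmd.hasMFDerivAt.2
    have h4 : HasFDerivWithinAt (chartAt E (ln ρ ξ 0 x) ∘ (fun t : ℝ => ln ρ ξ t x)) T
        (range 𝓘(ℝ, ℝ)) 0 := h3
    rw [modelWithCornersSelf_coe, range_id, hasFDerivWithinAt_univ] at h4
    exact h4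
  rw [h0] at h2
  have h3 : T 1 = xF (ln ρ ξ) (chartAt E x) (chartAt E x x) := by
    have h4 := h2.hasDerivAt.deriv
    rw [← h4, xF, (chartAt E x).left_inv (mem_chart_source E x)]
    rfl
  rw [WE, I_smul_vF, ← h3]
  rfl

theorem isotropic_iff (hρ : IsHolIsomAction E ρ) (x : M) :
    IsIsotropicOrbit E ρ x ↔ ∀ ξ η, isoM E ρ ξ η x = 0 := by
  have key : ∀ ξ η : V, inner ℝ (show TangentSpace 𝓘(ℝ, E) x from I • velocity E ρ ξ x)
      (show TangentSpace 𝓘(ℝ, E) x from velocity E ρ η x) = -isoM E ρ ξ η x := by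
    intro ξ η
    rw [velocity_eq hρ, velocity_eq hρ, smul_smul, I_mul_I, neg_one_smul]
    let u : TangentSpace 𝓘(ℝ, E) x := WE (E := E) (ln ρ ξ) x
    let v : TangentSpace 𝓘(ℝ, E) x := show E from I • WE (E := E) (ln ρ η) x
    exact inner_neg_left (𝕜 := ℝ) (E := TangentSpace 𝓘(ℝ, E) x) u v
  refine forall_congr' fun ξ => forall_congr' fun η => ?_
  rw [key, neg_eq_zero]

end Vale.Agent.P253.H577
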