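import Vale.Agent.P253.Bdl.B2

/-!
P253: the local computation for commuting holomorphic Killing fields.
-/

open scoped ContDiff Topology
open Set Metric Complex Filter Vale.Agent.P253.Mfd

set_option maxSynthPendingDepth 3
set_option linter.unusedSectionVars false

noncomputable section

namespace Vale.Agent.P253.H577

variable {E : Type*} [NormedAddCommGroup E] [NormedSpace ℂ E] [FiniteDimensional ℂ E]
  {V : Type*} [NormedAddCommGroup V] [NormedSpace ℝ V]
  {G : E → E →L[ℝ] E →L[ℝ] ℝ} {U : Set E} {z : E} {L : E → V →L[ℝ] E}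

/-- a linear family of commuting holomorphic fields whose multiples by `I` are Killing fields -/
structure CommFam (G : E → E →L[ℝ] E →L[ℝ] ℝ) (L : E → V →L[ℝ] E) (U : Set E) : Prop where
  smooth : ContDiffOn ℝ ∞ L U
  holo : ∀ ξ, DifferentiableOn ℂ (fun z => L z ξ) U
  kill : ∀ ξ, Killing G (fun z => L z ξ) U
  comm : ∀ z ∈ U, ∀ ξ η, fderiv ℝ (fun z => L z ξ) z (L z η) = fderiv ℝ (fun z => L z η) z (L z ξ)

/-- the cubic form `G (∇_b L a, c)` -/
def T3 (G : E → E →L[ℝ] E →L[ℝ] ℝ) (L : E → V →L[ℝ] E) (z : E) (a b c : V) : ℝ :=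
  G z (Nop G (fun z => L z a) z (L z b)) (L z c)

namespace CommFam

variable (h : LocalKahler G U) (hL : CommFam G L U) (hz : z ∈ U)

include h hL hz

theorem differentiableAt : DifferentiableAt ℝ L z :=
  (hL.smooth.contDiffAt (h.isOpen.mem_nhds hz)).differentiableAt (by simp)

theorem hasFDerivAt_apply (a : V) :
    HasFDerivAt (fun z => L z a) ((fderiv ℝ L z).flip a) z := by
  have := (hL.differentiableAt h hz).hasFDerivAt.clm_apply (hasFDerivAt_const a z)
  convert! this using 1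
  ext u
  simp

theorem fderiv_apply (a : V) (u : E) :
    fderiv ℝ (fun z => L z a) z u = fderiv ℝ L z u a := by
  rw [(hL.hasFDerivAt_apply h hz a).fderiv]; rfl

theorem Nop_eq (a : V) (u : E) :
    Nop G (fun z => L z a) z u = fderiv ℝ L z u a + chris G z (L z a) u := by
  rw [Nop, hL.fderiv_apply h hz]

theorem Nop_comm (a b : V) :
    Nop G (fun z => L z a) z (L z b) = Nop G (fun z => L z b) z (L z a) := by
  rw [Nop, Nop, hL.comm z hz, h.chris_symm hz]

theorem T3_comm12 (a b c : V) : T3 G L z a b c = T3 G L z b a c := by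
  rw [T3, T3, hL.Nop_comm h hz]

theorem T3_comm23 (a b c : V) : T3 G L z a b c = T3 G L z a c b := by
  rw [T3, T3, Nop_symm h (hL.holo a) (hL.kill a) hz]

theorem T3_comm13 (a b c : V) : T3 G L z a b c = T3 G L z c b a := by
  rw [hL.T3_comm12 h hz, hL.T3_comm23 h hz, hL.T3_comm12 h hz]

theorem T3_add (a b c d : V) : T3 G L z a b (c + d) = T3 G L z a b c + T3 G L z a b d := by
  simp [T3]

theorem T3_smul (a b c : V) (s : ℝ) : T3 G L z a b (s • c) = s * T3 G L z a b c := by
  simp [T3]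

/-- derivative of the Gram form -/
theorem hasFDerivAt_gram (a b : V) :
    HasFDerivAt (fun z => G z (L z a) (L z b))
      ((G z (L z b)).comp ((fderiv ℝ L z).flip a) + (G z (L z a)).comp ((fderiv ℝ L z).flip b)
        + ((fderiv ℝ G z).flip (L z a)).flip (L z b)) z := by
  have h1 := ((h.differentiableAt hz).hasFDerivAt.clm_apply (hL.hasFDerivAt_apply h hz a)).clm_apply
    (hL.hasFDerivAt_apply h hz b)
  convert! h1 using 1
  ext u
  simp only [add_apply, ContinuousLinearMap.comp_apply, ContinuousLinearMap.flip_apply]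
  rw [h.symm z hz (L z b)]
  abel

theorem fderiv_gram (a b : V) (u : E) :
    fderiv ℝ (fun z => G z (L z a) (L z b)) z u =
      G z (Nop G (fun z => L z a) z u) (L z b) + G z (Nop G (fun z => L z b) z u) (L z a) := by
  rw [(hL.hasFDerivAt_gram h hz a b).fderiv, hL.Nop_eq h hz, hL.Nop_eq h hz]
  simp only [add_apply, ContinuousLinearMap.comp_apply, ContinuousLinearMap.flip_apply, map_add]
  rw [h.fderiv_eq hz, h.chris_symm hz u, h.chris_symm hz u, h.symm z hz (L z b),
    h.symm z hz (L z a) (fderiv ℝ L z u b), h.symm z hz (L z a) (chris G z (L z b) u)]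
  ring

/-- the derivative of the Gram form in the direction of one of the fields is totally symmetric -/
theorem fderiv_gram_apply (a b c : V) :
    fderiv ℝ (fun z => G z (L z a) (L z b)) z (L z c) = 2 * T3 G L z a b c := by
  rw [hL.fderiv_gram h hz]
  have h1 : G z (Nop G (fun z => L z a) z (L z c)) (L z b) = T3 G L z a c b := rfl
  have h2 : G z (Nop G (fun z => L z b) z (L z c)) (L z a) = T3 G L z b c a := rfl
  rw [h1, h2, hL.T3_comm23 h hz a c b, hL.T3_comm13 h hz b c a, hL.T3_comm23 h hz a c b]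
  ring

theorem Sfun_eq (a : V) (u : E) :
    Sfun G (fun z => L z a) z u = G z (Nop G (fun z => L z a) z u) u := by
  rw [Sfun, Nop, h.fderiv_eq hz, map_add, add_apply, h.symm z hz u]
  ring

/-- the cubic form at a combination -/
theorem T3_line (w w' : V) (s : ℝ) :
    T3 G L z (w + s • w') (w + s • w') (w + s • w') =
      T3 G L z w w w + 3 * T3 G L z w w w' * s + 3 * T3 G L z w w' w' * s ^ 2
        + T3 G L z w' w' w' * s ^ 3 := by
  have e1 := hL.T3_add h hz
  have e2 := hL.T3_smul h hz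
  have c12 := hL.T3_comm12 h hz
  have c23 := hL.T3_comm23 h hz
  have key3 : ∀ a b : V, T3 G L z a b (w + s • w') = T3 G L z a b w + s * T3 G L z a b w' := by
    intro a b; rw [e1, e2]
  have key2 : ∀ a b : V, T3 G L z a (w + s • w') b = T3 G L z a w b + s * T3 G L z a w' b := by
    intro a b; rw [c23, key3, c23 a b w, c23 a b w']
  have key1 : ∀ a b : V, T3 G L z (w + s • w') a b = T3 G L z w a b + s * T3 G L z w' a b := by
    intro a b; rw [c12, key2, c12 a w, c12 a w']
  simp only [key1, key2, key3]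
  rw [c23 w w' w, c12 w' w w, c23 w w' w, c12 w' w w', c23 w' w' w, c12 w' w w']
  ring

omit hz in
theorem contDiffOn_T3 : ContDiffOn ℝ ∞ (fun p : E × V => T3 G L p.1 p.2 p.2 p.2) (U ×ˢ univ) := by
  have c0 : ContDiffOn ℝ ∞ (fun p : E × V => G p.1) (U ×ˢ univ) :=
    h.smooth.comp contDiffOn_fst (fun p hp => hp.1)
  have c1 : ContDiffOn ℝ ∞ (fun p : E × V => chris G p.1) (U ×ˢ univ) :=
    h.contDiffOn_chris.comp contDiffOn_fst (fun p hp => hp.1)
  have c2 : ContDiffOn ℝ ∞ (fun p : E × V => L p.1) (U ×ˢ univ) :=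
    hL.smooth.comp contDiffOn_fst (fun p hp => hp.1)
  have c3 : ContDiffOn ℝ ∞ (fun p : E × V => fderiv ℝ L p.1) (U ×ˢ univ) :=
    (hL.smooth.fderiv_of_isOpen h.isOpen (m := ∞) (by simp)).comp contDiffOn_fst
      (fun p hp => hp.1)
  have c4 : ContDiffOn ℝ ∞ (fun p : E × V => L p.1 p.2) (U ×ˢ univ) := c2.clm_apply contDiffOn_snd
  have c5 : ContDiffOn ℝ ∞ (fun p : E × V => G p.1 (fderiv ℝ L p.1 (L p.1 p.2) p.2
      + chris G p.1 (L p.1 p.2) (L p.1 p.2)) (L p.1 p.2)) (U ×ˢ univ) :=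
    (c0.clm_apply (((c3.clm_apply c4).clm_apply contDiffOn_snd).add
      ((c1.clm_apply c4).clm_apply c4))).clm_apply c4
  refine c5.congr fun p hp => ?_
  rw [T3, hL.Nop_eq h hp.1]

omit hz in
/-- derivative of the cubic form along a curve -/
theorem hasDerivAt_T3 {y : ℝ → E} {w : ℝ → V} {t θ : ℝ} {w' : V} (hyt : y t ∈ U)
    (hy : HasDerivAt y (θ • L (y t) (w t)) t) (hw : HasDerivAt w w' t) :
    HasDerivAt (fun s => T3 G L (y s) (w s) (w s) (w s))
      (θ * (2 * G (y t) (Nop G (fun z => L z (w t)) (y t) (L (y t) (w t)))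
          (Nop G (fun z => L z (w t)) (y t) (L (y t) (w t)))
        - 2 * Rc G (y t) (L (y t) (w t)) (L (y t) (w t)))
        + 3 * T3 G L (y t) (w t) (w t) w') t := by
  set z := y t with hz
  set c := w t with hc
  have hopen : IsOpen (U ×ˢ (univ : Set V)) := h.isOpen.prod isOpen_univ
  have hmem : (z, c) ∈ U ×ˢ (univ : Set V) := ⟨hyt, mem_univ _⟩
  have hd : HasFDerivAt (fun p : E × V => T3 G L p.1 p.2 p.2 p.2)
      (fderiv ℝ (fun p : E × V => T3 G L p.1 p.2 p.2 p.2) (z, c)) (z, c) :=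
    (((hL.contDiffOn_T3 h).contDiffAt (hopen.mem_nhds hmem)).differentiableAt
      (by simp)).hasFDerivAt
  set D := fderiv ℝ (fun p : E × V => T3 G L p.1 p.2 p.2 p.2) (z, c) with hD
  have h1 : HasDerivAt (fun s => T3 G L (y s) (w s) (w s) (w s)) (D (θ • L z c, w')) t :=
    HasFDerivAt.comp_hasDerivAt (f := fun s => (y s, w s)) t hd (hy.prodMk hw)
  refine h1.congr_deriv ?_
  have h2 : D (θ • L z c, w') = θ * D (L z c, 0) + D (0, w') := by
    have : ((θ • L z c, w') : E × V) = θ • (L z c, 0) + (0, w') := by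
      ext <;> simp
    rw [this, map_add, map_smul, smul_eq_mul]
  rw [h2]
  congr 1
  · -- the space direction
    congr 1
    have hy1 : HasDerivAt (fun s : ℝ => z + s • L z c) (L z c) 0 := by
      simpa using ((hasDerivAt_id (0 : ℝ)).smul_const (L z c)).const_add z
    have hz0 : z + (0:ℝ) • L z c = z := by simp
    have hα1 : HasDerivAt (fun s : ℝ => L (z + s • L z c) c)
        (fderiv ℝ (fun z => L z c) z (L z c)) 0 := by
      have h3 : HasFDerivAt (fun z => L z c) (fderiv ℝ (fun z => L z c) z)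
          (z + (0:ℝ) • L z c) := by
        rw [hz0]
        exact (hL.hasFDerivAt_apply h hyt c).differentiableAt.hasFDerivAt
      exact HasFDerivAt.comp_hasDerivAt (f := fun s : ℝ => z + s • L z c) 0 h3 hy1
    have h3 := hasDerivAt_Sfun (a := L z c) h
      (contDiffOn_of_differentiableOn_complex h.isOpen (hL.holo c)) (hL.kill c) hyt hy1 (by simp)
      hα1 (by simp)
    have h4 : HasDerivAt (fun s : ℝ => T3 G L (z + s • L z c) c c c) (D (L z c, 0)) 0 := by
      have h5 : HasFDerivAt (fun p : E × V => T3 G L p.1 p.2 p.2 p.2) D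
          (z + (0:ℝ) • L z c, c) := by
        rw [hz0]; exact hd
      exact HasFDerivAt.comp_hasDerivAt (f := fun s : ℝ => (z + s • L z c, c)) 0 h5
        (hy1.prodMk (hasDerivAt_const 0 c))
    refine h4.unique (h3.congr_of_eventuallyEq ?_)
    have hev : ∀ᶠ s : ℝ in 𝓝 0, z + s • L z c ∈ U := by
      apply hy1.continuousAt
      simpa using h.isOpen.mem_nhds hyt
    filter_upwards [hev] with s hs
    rw [hL.Sfun_eq h hs]
    rfl
  · have h4 : HasDerivAt (fun s : ℝ => T3 G L z (c + s • w') (c + s • w') (c + s • w'))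
        (D (0, w')) 0 := by
      have hw1 : HasDerivAt (fun s : ℝ => c + s • w') w' 0 := by
        simpa using ((hasDerivAt_id (0 : ℝ)).smul_const w').const_add c
      have h5 : HasFDerivAt (fun p : E × V => T3 G L p.1 p.2 p.2 p.2) D
          (z, c + (0:ℝ) • w') := by
        rw [zero_smul, add_zero]; exact hd
      exact HasFDerivAt.comp_hasDerivAt (f := fun s : ℝ => (z, c + s • w')) 0 h5
        ((hasDerivAt_const 0 z).prodMk hw1)
    have h5 : HasDerivAt (fun s : ℝ => T3 G L z c c c + 3 * T3 G L z c c w' * s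
        + 3 * T3 G L z c w' w' * s ^ 2 + T3 G L z w' w' w' * s ^ 3)
        (3 * T3 G L z c c w') 0 := by
      have e1 := (hasDerivAt_id (0:ℝ)).const_mul (3 * T3 G L z c c w')
      have e2 := (hasDerivAt_pow 2 (0:ℝ)).const_mul (3 * T3 G L z c w' w')
      have e3 := (hasDerivAt_pow 3 (0:ℝ)).const_mul (T3 G L z w' w' w')
      have e4 := ((e1.const_add (T3 G L z c c c)).add e2).add e3
      refine e4.congr_deriv ?_
      simp
    refine h4.unique (h5.congr_of_eventuallyEq (Eventually.of_forall fun s => ?_))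
    exact hL.T3_line h hyt c w' s

omit hz in
/-- derivative of the Gram form along a curve -/
theorem hasDerivAt_gram_curve {y : ℝ → E} {w : ℝ → V} {t θ : ℝ} {w' : V} (hyt : y t ∈ U)
    (hy : HasDerivAt y (θ • L (y t) (w t)) t) (hw : HasDerivAt w w' t) (η : V) :
    HasDerivAt (fun s => G (y s) (L (y s) (w s)) (L (y s) η))
      (θ * (2 * T3 G L (y t) (w t) (w t) η) + G (y t) (L (y t) w') (L (y t) η)) t := by
  have h1 : HasDerivAt (fun s => G (y s)) (fderiv ℝ G (y t) (θ • L (y t) (w t))) t :=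
    (h.differentiableAt hyt).hasFDerivAt.comp_hasDerivAt t hy
  have h2 : HasDerivAt (fun s => L (y s)) (fderiv ℝ L (y t) (θ • L (y t) (w t))) t :=
    (hL.differentiableAt h hyt).hasFDerivAt.comp_hasDerivAt t hy
  have h3 := (h1.clm_apply (h2.clm_apply hw)).clm_apply (h2.clm_apply (hasDerivAt_const t η))
  refine h3.congr_deriv ?_
  have h4 := hL.fderiv_gram_apply h hyt (w t) η (w t)
  rw [hL.T3_comm23 h hyt (w t) (w t) η]
  rw [← h4, (hL.hasFDerivAt_gram h hyt (w t) η).fderiv]
  simp only [map_smul, smul_apply, add_apply, map_zero, add_zero, map_add, smul_eq_mul,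
    ContinuousLinearMap.comp_apply, ContinuousLinearMap.flip_apply]
  rw [h.symm (y t) hyt (L (y t) η)]
  ring

section main

variable {y : ℝ → E} {w : ℝ → V} {t θ : ℝ} {w' ζ : V} {ℓ : V →L[ℝ] ℝ}
  (hyt : y t ∈ U) (hy : HasDerivAt y (θ • L (y t) (w t)) t) (hw : HasDerivAt w w' t)
  (hrel : ∀ᶠ s in 𝓝 t, ∀ η, G (y s) (L (y s) (w s)) (L (y s) η) = ℓ η)
  (hζ : Nop G (fun z => L z (w t)) (y t) (L (y t) (w t)) = L (y t) ζ)
  (hinj : ∀ η, L (y t) η = 0 → η = 0)

omit hz
include hyt hy hw hrel hζ hinj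

theorem deriv_w : w' = -(2 * θ) • ζ := by
  have key : ∀ η, G (y t) (L (y t) (w' + (2 * θ) • ζ)) (L (y t) η) = 0 := by
    intro η
    have h1 := hL.hasDerivAt_gram_curve h hyt hy hw η
    have h2 : (fun s => G (y s) (L (y s) (w s)) (L (y s) η)) =ᶠ[𝓝 t] fun _ => ℓ η := by
      filter_upwards [hrel] with s hs using hs η
    have h3 := (h1.congr_of_eventuallyEq h2.symm).unique (hasDerivAt_const t _)
    have h4 : T3 G L (y t) (w t) (w t) η = G (y t) (L (y t) ζ) (L (y t) η) := by
      rw [T3, hζ]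
    rw [h4] at h3
    simp only [map_add, map_smul, add_apply, smul_apply, smul_eq_mul]
    linarith only [h3]
  have h1 := key (w' + (2 * θ) • ζ)
  by_contra hne
  have h2 : w' + (2 * θ) • ζ ≠ 0 := by
    intro h0
    apply hne
    rw [neg_smul]
    exact eq_neg_of_add_eq_zero_left h0
  have h3 := h.pos (y t) hyt (L (y t) (w' + (2 * θ) • ζ)) (fun h0 => h2 (hinj _ h0))
  linarith only [h1, h3]

theorem hasDerivAt_ell :
    HasDerivAt (fun s => ℓ (w s)) (-(2 * θ) * T3 G L (y t) (w t) (w t) (w t)) t := by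
  have h1 := hL.deriv_w h hyt hy hw hrel hζ hinj
  have h2 : HasDerivAt (fun s => ℓ (w s)) (ℓ w') t := ℓ.hasFDerivAt.comp_hasDerivAt t hw
  refine h2.congr_deriv ?_
  rw [← hrel.self_of_nhds w', h1, map_smul, map_smul, smul_eq_mul]
  have h4 : T3 G L (y t) (w t) (w t) (w t) = G (y t) (L (y t) (w t)) (L (y t) ζ) := by
    rw [T3, hζ, h.symm (y t) hyt]
  rw [h4]

theorem hasDerivAt_cubic :
    HasDerivAt (fun s => T3 G L (y s) (w s) (w s) (w s))
      (-(θ * (4 * G (y t) (L (y t) ζ) (L (y t) ζ)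
        + 2 * Rc G (y t) (L (y t) (w t)) (L (y t) (w t))))) t := by
  have h1 := hL.deriv_w h hyt hy hw hrel hζ hinj
  refine (hL.hasDerivAt_T3 h hyt hy hw).congr_deriv ?_
  have h4 : T3 G L (y t) (w t) (w t) w' = -(2 * θ) * G (y t) (L (y t) ζ) (L (y t) ζ) := by
    rw [T3, hζ, h1, map_smul, map_smul, smul_eq_mul]
  rw [h4, hζ]
  ring

/-- the inverse of `ℓ (w s)` -/
theorem hasDerivAt_inv (hpos : 0 < ℓ (w t)) :
    HasDerivAt (fun s => (ℓ (w s))⁻¹)
      (θ * (2 * T3 G L (y t) (w t) (w t) (w t) / (ℓ (w t)) ^ 2)) t := by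
  refine ((hL.hasDerivAt_ell h hyt hy hw hrel hζ hinj).inv hpos.ne').congr_deriv ?_
  ring

/-- the derivative of the inverse of `ℓ (w s)` decreases -/
theorem hasDerivAt_slope (hpos : 0 < ℓ (w t)) (hθ : 0 < θ)
    (hR : 0 < Rc G (y t) (L (y t) (w t)) (L (y t) (w t))) :
    ∃ D' < 0, HasDerivAt (fun s => 2 * T3 G L (y s) (w s) (w s) (w s) / (ℓ (w s)) ^ 2) D' t := by
  have h1 := hL.hasDerivAt_ell h hyt hy hw hrel hζ hinj
  have h2 := hL.hasDerivAt_cubic h hyt hy hw hrel hζ hinj
  set N := G (y t) (L (y t) ζ) (L (y t) ζ) with hN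
  set R := Rc G (y t) (L (y t) (w t)) (L (y t) (w t)) with hRdef
  set S := T3 G L (y t) (w t) (w t) (w t) with hS
  set f := ℓ (w t) with hf
  have h3 := (h2.const_mul 2).div (h1.pow 2) (pow_ne_zero 2 hpos.ne')
  refine ⟨_, ?_, h3⟩
  have hSS : S ^ 2 ≤ N * f := by
    -- Cauchy-Schwarz
    have e1 : S = G (y t) (L (y t) ζ) (L (y t) (w t)) := by rw [hS, T3, hζ]
    have e2 : f = G (y t) (L (y t) (w t)) (L (y t) (w t)) := (hrel.self_of_nhds (w t)).symm
    have e3 : 0 ≤ G (y t) (f • L (y t) ζ - S • L (y t) (w t)) (f • L (y t) ζ - S • L (y t) (w t)) := by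
      by_cases h0 : f • L (y t) ζ - S • L (y t) (w t) = 0
      · rw [h0]; simp
      · exact (h.pos (y t) hyt _ h0).le
    have e4 : G (y t) (f • L (y t) ζ - S • L (y t) (w t)) (f • L (y t) ζ - S • L (y t) (w t))
        = f * (f * N - S ^ 2) := by
      simp only [map_sub, map_smul, sub_apply, smul_apply, smul_eq_mul]
      rw [h.symm (y t) hyt (L (y t) (w t)) (L (y t) ζ), ← e1, ← e2]
      ring
    rw [e4] at e3
    have e5 : 0 ≤ f * N - S ^ 2 := by
      by_contra hcon
      push Not at hcon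
      nlinarith only [e3, hcon, hpos]
    linarith only [e5]
  have hden : 0 < (f ^ 2) ^ 2 := by positivity
  have e6 : (2 * -(θ * (4 * N + 2 * R)) * f ^ 2 - 2 * S * (2 * f ^ (2 - 1) * (-(2 * θ) * S)))
      = -4 * θ * (2 * f * (N * f - S ^ 2) + R * f ^ 2) := by
    norm_num
    ring
  push_cast
  simp only [Pi.pow_apply]
  rw [← hf, e6]
  apply div_neg_of_neg_of_pos _ hden
  have e7 : 0 ≤ 2 * f * (N * f - S ^ 2) := mul_nonneg (by linarith only [hpos]) (sub_nonneg.2 hSS)
  have e8 : 0 < R * f ^ 2 := mul_pos hR (pow_pos hpos 2)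
  have e9 : 0 < θ * (2 * f * (N * f - S ^ 2) + R * f ^ 2) := mul_pos hθ (by linarith only [e7, e8])
  linarith only [e9]

end main

end CommFam

end Vale.Agent.P253.H577
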