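import Vale.Agent.P253.H577.Act

/-!
P253: the linear part of a flow of holomorphic isometries at a zero of its generator determines the
flow.
-/

open scoped Manifold ContDiff Topology Bundle
open Set Metric Complex Filter Bundle IsManifold Manifold Vale.Agent.P253.Mfd

set_option maxSynthPendingDepth 3
set_option linter.unusedSectionVars false

noncomputable section

namespace Vale.Agent.P253.H577

variable {E : Type*} [NormedAddCommGroup E] [NormedSpace ℂ E] [FiniteDimensional ℂ E]
  {M : Type*} [MetricSpace M] [ChartedSpace E M]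

/-- identity theorem: a holomorphic self-map which is the identity near a point is the identity -/
theorem eq_id_of_eventually [IsManifold 𝓘(ℂ, E) 1 M] [ConnectedSpace M] {f : M → M}
    (hf : MDifferentiable 𝓘(ℂ, E) 𝓘(ℂ, E) f) {p : M} (hp : ∀ᶠ x in 𝓝 p, f x = x) (x : M) :
    f x = x := by
  have hCE : CompleteSpace E := FiniteDimensional.complete ℂ E
  set A : Set M := {x | ∀ᶠ y in 𝓝 x, f y = y} with hA
  have hopen : IsOpen A := isOpen_setOfPred_eventually_nhds
  have hclosed : IsClosed A := by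
    refine isClosed_of_closure_subset fun x hx => ?_
    have hfx : f x = x := by
      have h1 : IsClosed {y | f y = y} := isClosed_eq hf.continuous continuous_id
      exact closure_minimal (fun y (hy : ∀ᶠ z in 𝓝 y, f z = z) => hy.self_of_nhds) h1 hx
    have he : chartAt E x ∈ maximalAtlas 𝓘(ℂ, E) 1 M := chart_mem_maximalAtlas x
    set e := chartAt E x with hedef
    have hxe : x ∈ e.source := mem_chart_source E x
    have hUo : IsOpen (e.target ∩ e.symm ⁻¹' (e.source ∩ f ⁻¹' e.source)) :=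
      e.continuousOn_symm.isOpen_inter_preimage e.open_target
        (e.open_source.inter (e.open_source.preimage hf.continuous))
    have hzU : e x ∈ e.target ∩ e.symm ⁻¹' (e.source ∩ f ⁻¹' e.source) := by
      refine ⟨e.map_source hxe, ?_⟩
      simp only [mem_preimage, e.left_inv hxe, mem_inter_iff, hfx]
      exact ⟨hxe, hxe⟩
    obtain ⟨r, hr, hrU⟩ := Metric.isOpen_iff.1 hUo _ hzU
    set h : E → E := fun z => e (f (e.symm z)) - z with hh
    have hd : DifferentiableOn ℂ h (ball (e x) r) := by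
      intro z hz
      have h1 : MDifferentiableAt 𝓘(ℂ, E) 𝓘(ℂ, E) e.symm z :=
        ((contMDiffOn_symm_of_mem_maximalAtlas he).contMDiffAt
          (e.open_target.mem_nhds (hrU hz).1)).mdifferentiableAt (by simp)
      have h2 : MDifferentiableAt 𝓘(ℂ, E) 𝓘(ℂ, E) f (e.symm z) := hf _
      have h3 : MDifferentiableAt 𝓘(ℂ, E) 𝓘(ℂ, E) e (f (e.symm z)) :=
        ((contMDiffOn_of_mem_maximalAtlas he).contMDiffAt
          (e.open_source.mem_nhds (hrU hz).2.2)).mdifferentiableAt (by simp)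
      have h4 := h3.comp z (h2.comp z h1)
      exact (h4.differentiableAt.sub differentiableAt_id).differentiableWithinAt
    -- a point of `A` in the ball
    obtain ⟨y, hyB, hyA⟩ : ∃ y ∈ e.source ∩ e ⁻¹' (ball (e x) r), y ∈ A := by
      have h1 : IsOpen (e.source ∩ e ⁻¹' (ball (e x) r)) :=
        e.continuousOn.isOpen_inter_preimage e.open_source isOpen_ball
      obtain ⟨y, h2, h3⟩ := mem_closure_iff.1 hx _ h1 ⟨hxe, mem_ball_self hr⟩
      exact ⟨y, h2, h3⟩
    have hzero : ∀ z ∈ ball (e x) r, h z = 0 := by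
      intro z hz
      set z₁ := e y with hz₁
      set g : ℂ → E := fun w => h (z₁ + w • (z - z₁)) with hg
      have hΩo : IsOpen {w : ℂ | z₁ + w • (z - z₁) ∈ ball (e x) r} :=
        line_isOpen isOpen_ball z₁ (z - z₁)
      have hgd : DifferentiableOn ℂ g {w : ℂ | z₁ + w • (z - z₁) ∈ ball (e x) r} :=
        line_diffOn hd z₁ (z - z₁)
      have hconv : Convex ℝ {w : ℂ | z₁ + w • (z - z₁) ∈ ball (e x) r} := by
        intro w₁ hw₁ w₂ hw₂ a b ha hb hab
        have h1 := (convex_ball (e x) r) hw₁ hw₂ ha hb hab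
        have h2 : a • (z₁ + w₁ • (z - z₁)) + b • (z₁ + w₂ • (z - z₁)) =
            z₁ + (a • w₁ + b • w₂) • (z - z₁) := by
          rw [add_smul, smul_assoc, smul_assoc]
          generalize w₁ • (z - z₁) = p₁
          generalize w₂ • (z - z₁) = p₂
          calc a • (z₁ + p₁) + b • (z₁ + p₂) = (a + b) • z₁ + (a • p₁ + b • p₂) := by module
            _ = _ := by rw [hab, one_smul]
        rw [h2] at h1
        exact h1
      have hz₁B : z₁ ∈ ball (e x) r := hyB.2
      have h0mem : (0:ℂ) ∈ {w : ℂ | z₁ + w • (z - z₁) ∈ ball (e x) r} := by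
        simp only [mem_ofPred_eq, zero_smul, add_zero]; exact hz₁B
      have h1mem : (1:ℂ) ∈ {w : ℂ | z₁ + w • (z - z₁) ∈ ball (e x) r} := by
        simp only [mem_ofPred_eq, one_smul, add_sub_cancel]; exact hz
      have han : AnalyticOnNhd ℂ g {w : ℂ | z₁ + w • (z - z₁) ∈ ball (e x) r} :=
        hgd.analyticOnNhd hΩo
      have hev : g =ᶠ[𝓝 0] 0 := by
        have h1 : ∀ᶠ x' in 𝓝 z₁, f (e.symm x') = e.symm x' := by
          have h2 : ContinuousAt e.symm z₁ := e.continuousAt_symm (e.map_source hyB.1)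
          have h3 : e.symm z₁ = y := e.left_inv hyB.1
          rw [← h3] at hyA
          exact h2.eventually hyA
        have h2 : ∀ᶠ x' in 𝓝 z₁, x' ∈ e.target := e.open_target.mem_nhds (e.map_source hyB.1)
        have h3 : ContinuousAt (fun w : ℂ => z₁ + w • (z - z₁)) 0 := by fun_prop
        have h4 : z₁ + (0:ℂ) • (z - z₁) = z₁ := by simp
        have h5 : ∀ᶠ w : ℂ in 𝓝 0, f (e.symm (z₁ + w • (z - z₁))) = e.symm (z₁ + w • (z - z₁)) ∧
            z₁ + w • (z - z₁) ∈ e.target := by
          have h6 := h1.and h2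
          rw [← h4] at h6
          exact h3.eventually h6
        filter_upwards [h5] with w hw
        simp only [hg, hh, Pi.zero_apply]
        rw [hw.1, e.right_inv hw.2, sub_self]
      have h1 := han.eqOn_zero_of_preconnected_of_eventuallyEq_zero hconv.isPreconnected h0mem hev
        h1mem
      simpa [hg] using h1
    have hev : ∀ᶠ y in 𝓝 x, y ∈ e.source ∧ e y ∈ ball (e x) r :=
      Filter.Eventually.and (e.open_source.mem_nhds hxe)
        ((e.continuousAt hxe).eventually (ball_mem_nhds _ hr))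
    filter_upwards [hev] with y' hy'
    have h1 := hzero (e y') hy'.2
    simp only [hh, e.left_inv hy'.1, sub_eq_zero] at h1
    have h2 : f y' ∈ e.source := by
      have h3 := (hrU hy'.2).2.2
      simpa only [mem_preimage, e.left_inv hy'.1] using h3
    exact e.injOn h2 hy'.1 h1
  have huniv : A = univ := IsClopen.eq_univ ⟨hclosed, hopen⟩ ⟨p, hp⟩
  have hx : x ∈ A := huniv ▸ mem_univ x
  exact hx.self_of_nhds

section flow

variable [IsManifold 𝓘(ℂ, E) 1 M] [IsManifold 𝓘(ℝ, E) ∞ M]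
  [RiemannianBundle (fun x : M => TangentSpace 𝓘(ℝ, E) x)]
  [IsContMDiffRiemannianBundle 𝓘(ℝ, E) ∞ E (fun x : M => TangentSpace 𝓘(ℝ, E) x)]
  {ρ : ℝ → M → M} {e e' : OpenPartialHomeomorph M E} {p : M}

/-- a zero of the generator is a fixed point -/
theorem fixed_of_zero (hρ : IsHolIsomFlow E ρ) (he : e ∈ maximalAtlas 𝓘(ℂ, E) 1 M)
    (hp : p ∈ e.source) (h0 : vF ρ e (e p) = 0) (t : ℝ) : ρ t p = p := by
  have hx0 : xF ρ e (e p) = 0 := by rw [← I_smul_vF, h0, smul_zero]
  have hz : e p ∈ e.target := e.map_source hp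
  have hopen : {t : ℝ | (t, e p) ∈ HΩ ρ e e} ∈ 𝓝 (0:ℝ) :=
    ((isOpen_HΩ hρ).preimage (Continuous.prodMk continuous_id continuous_const :
      Continuous (fun t : ℝ => (t, e p)))).mem_nhds (mem_HΩ_zero hρ hz)
  obtain ⟨δ, hδ, hball⟩ := Metric.mem_nhds_iff.1 hopen
  -- the curve in the chart has zero derivative
  have hder : ∀ t ∈ ball (0:ℝ) δ, HasDerivAt (fun s => HF ρ e e (s, e p)) 0 t := by
    intro t ht
    have hq : (t, e p) ∈ HΩ ρ e e := hball ht
    have h1 := hasDerivAt_HF_left hρ he he hq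
    have h2 := xF_change hρ he he hq
    rw [hx0, map_zero] at h2
    -- the derivative at time `t` is the generator
    have hz' : HF ρ e e (t, e p) ∈ e.target := e.map_source hq.2
    have h3 := hasDerivAt_HF_left hρ he he (mem_HΩ_zero hρ hz')
    rw [← xF_eq hρ he hz', ← h2] at h3
    have h4 : HasDerivAt (fun s : ℝ => s - t) 1 t := (hasDerivAt_id t).sub_const t
    have h5 : HasDerivAt (fun s => HF ρ e e (s, HF ρ e e (t, e p))) 0 (t - t) := by
      rw [sub_self]; exact h3
    have h6 := HasDerivAt.scomp (h := fun s : ℝ => s - t) t h5 h4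
    rw [smul_zero] at h6
    refine h6.congr_of_eventuallyEq ?_
    filter_upwards with s
    simp only [HF, Function.comp_apply]
    rw [e.left_inv hq.2, ← hρ.add, sub_add_cancel]
  have hconst : ∀ t ∈ ball (0:ℝ) δ, ρ t p = p := by
    intro t ht
    have h1 : HF ρ e e (t, e p) = HF ρ e e (0, e p) := by
      have h2 := (convex_ball (0:ℝ) δ).is_const_of_fderivWithin_eq_zero (𝕜 := ℝ)
        (f := fun s => HF ρ e e (s, e p))
        (fun s hs => (hder s hs).differentiableAt.differentiableWithinAt)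
        (fun s hs => by
          rw [fderivWithin_of_isOpen isOpen_ball hs]
          ext
          simpa using (hder s hs).deriv) ht (mem_ball_self hδ)
      exact h2
    have h3 : e (ρ t p) = e p := by
      have h4 : HF ρ e e (t, e p) = e (ρ t p) := by simp only [HF, e.left_inv hp]
      have h5 : HF ρ e e (0, e p) = e p := by simp only [HF, e.left_inv hp, hρ.zero]
      rw [← h4, h1, h5]
    have hsrc : ρ t p ∈ e.source := by
      have h4 := (hball ht).2
      rwa [e.left_inv hp] at h4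
    exact e.injOn hsrc hp h3
  obtain ⟨N, hN⟩ := exists_nat_gt (|t| / δ)
  have hN0 : (0:ℝ) < N := by
    have : 0 ≤ |t| / δ := by positivity
    linarith only [hN, this]
  have hstep : t / N ∈ ball (0:ℝ) δ := by
    rw [mem_ball, dist_zero_right, Real.norm_eq_abs, abs_div, abs_of_pos hN0, div_lt_iff₀ hN0]
    rw [div_lt_iff₀ hδ] at hN
    linarith only [hN]
  have key : ∀ k : ℕ, ρ (k * (t / N)) p = p := by
    intro k
    induction k with
    | zero => simp [hρ.zero]
    | succ k ih =>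
      have h1 : (((k + 1 : ℕ) : ℝ)) * (t / N) = k * (t / N) + t / N := by push_cast; ring
      rw [h1, hρ.add, hconst _ hstep, ih]
  have h1 := key N
  have h2 : (N:ℝ) * (t / N) = t := by field_simp
  rwa [h2] at h1

/-- the differential of the flow at a fixed point -/
def TF (ρ : ℝ → M → M) (e : OpenPartialHomeomorph M E) (z : E) (t : ℝ) : E →L[ℂ] E :=
  fderiv ℂ (fun w => HF ρ e e (t, w)) z

section fixed

variable (hρ : IsHolIsomFlow E ρ) (he : e ∈ maximalAtlas 𝓘(ℂ, E) 1 M)
  (hp : p ∈ e.source) (hfix : ∀ t, ρ t p = p)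

include hρ he hp hfix

theorem mem_HΩ_fixed (t : ℝ) : (t, e p) ∈ HΩ ρ e e := by
  refine ⟨e.map_source hp, ?_⟩
  simp only [e.left_inv hp, hfix]
  exact hp

theorem HF_fixed (t : ℝ) : HF ρ e e (t, e p) = e p := by
  simp only [HF, e.left_inv hp, hfix]

theorem TF_apply (t : ℝ) (a : E) : TF ρ e (e p) t a = fderiv ℝ (HF ρ e e) (t, e p) (0, a) :=
  fderiv_complex_HF hρ he he (mem_HΩ_fixed hρ he hp hfix t) a

theorem TF_zero (a : E) : TF ρ e (e p) 0 a = a := by
  have h5 : (fun w => HF ρ e e (0, w)) =ᶠ[𝓝 (e p)] id := by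
    filter_upwards [e.open_target.mem_nhds (e.map_source hp)] with w hw
    simp [HF, hρ.zero, e.right_inv hw]
  rw [TF, h5.fderiv_eq, fderiv_id]
  rfl

theorem TF_add (s t : ℝ) (a : E) : TF ρ e (e p) (s + t) a = TF ρ e (e p) s (TF ρ e (e p) t a) := by
  have h1 := (HΩ_slice_holo hρ he he (mem_HΩ_fixed hρ he hp hfix t)).hasFDerivAt
  have h2 : HasFDerivAt (fun w => HF ρ e e (s, w)) (TF ρ e (e p) s) (HF ρ e e (t, e p)) := by
    rw [HF_fixed hρ he hp hfix]
    exact (HΩ_slice_holo hρ he he (mem_HΩ_fixed hρ he hp hfix s)).hasFDerivAt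
  have h3 := h2.comp (e p) h1
  have h4 : (fun w => HF ρ e e (s + t, w)) =ᶠ[𝓝 (e p)]
      (fun w => HF ρ e e (s, w)) ∘ (fun w => HF ρ e e (t, w)) := by
    have hopen : {w : E | (t, w) ∈ HΩ ρ e e} ∈ 𝓝 (e p) :=
      ((isOpen_HΩ hρ).preimage (Continuous.prodMk continuous_const continuous_id :
        Continuous (fun w : E => (t, w)))).mem_nhds (mem_HΩ_fixed hρ he hp hfix t)
    filter_upwards [hopen] with w hw
    simp only [HF, Function.comp_apply]
    rw [e.left_inv hw.2, ← hρ.add]
  have h5 := (h3.congr_of_eventuallyEq h4).fderiv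
  rw [TF, h5]
  rfl

theorem hasDerivAt_TF (t : ℝ) (a : E) :
    HasDerivAt (fun s => TF ρ e (e p) s a) (TF ρ e (e p) t (fderiv ℝ (xF ρ e) (e p) a)) t := by
  have h1 : HasDerivAt (fun s => TF ρ e (e p) s a) (fderiv ℝ (xF ρ e) (e p) a) (t - t) := by
    rw [sub_self]
    refine (hasDerivAt_fderiv_HF hρ he (e.map_source hp) a).congr_of_eventuallyEq ?_
    filter_upwards with s
    exact TF_apply hρ he hp hfix s a
  have h2 : HasDerivAt (fun s : ℝ => s - t) 1 t := (hasDerivAt_id t).sub_const t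
  have h3 := HasDerivAt.scomp (h := fun s : ℝ => s - t) t h1 h2
  rw [one_smul] at h3
  have h4 : HasFDerivAt (fun x : E => TF ρ e (e p) t x)
      ((TF ρ e (e p) t).restrictScalars ℝ) (TF ρ e (e p) (t - t) a) :=
    ((TF ρ e (e p) t).restrictScalars ℝ).hasFDerivAt
  have h5 := HasFDerivAt.comp_hasDerivAt (f := (fun s => TF ρ e (e p) s a) ∘ fun s => s - t) t h4 h3
  refine h5.congr_of_eventuallyEq ?_
  filter_upwards with s
  simp only [Function.comp_apply]
  rw [← TF_add hρ he hp hfix]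
  congr 2
  ring

/-- an eigenvector of the linear part of the generator is an eigenvector of the differential of
the flow -/
theorem TF_eigen {r : ℝ} {b : E} (hb : fderiv ℝ (vF ρ e) (e p) b = r • b) (t : ℝ) :
    TF ρ e (e p) t b = exp (t * r * I) • b := by
  have hxb : fderiv ℝ (xF ρ e) (e p) b = (r * I : ℂ) • b := by
    have h1 := fderiv_vF hρ he (e.map_source hp) b
    rw [hb] at h1
    have h2 := congrArg (fun x => I • x) h1
    simp only [smul_neg, smul_smul, I_mul_I, neg_one_smul, neg_neg] at h2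
    rw [← h2]
    have : r • b = (r : ℂ) • b := rfl
    rw [this, smul_smul, mul_comm]
  have h1 : ∀ t, HasDerivAt (fun s : ℝ => exp (-(s * r * I)) • TF ρ e (e p) s b) 0 t := by
    intro t
    have h2 : HasDerivAt (fun s : ℝ => exp (-(s * r * I))) (exp (-(t * r * I)) * (-(r * I))) t := by
      have h3 : HasDerivAt (fun s : ℝ => -((s:ℂ) * r * I)) (-(1 * r * I)) t :=
        (((hasDerivAt_id t).ofReal_comp.mul_const (r : ℂ)).mul_const I).neg
      rw [one_mul] at h3
      exact h3.cexp
    have h4 := h2.smul (hasDerivAt_TF hρ he hp hfix t b)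
    refine h4.congr_deriv ?_
    rw [hxb, map_smul, smul_smul, ← add_smul]
    have : exp (-(t * r * I)) * (r * I) + exp (-(t * r * I)) * (-(r * I)) = 0 := by ring
    rw [this, zero_smul]
  have h2 : exp (-(t * r * I)) • TF ρ e (e p) t b = b := by
    have h3 := is_const_of_deriv_eq_zero (f := fun s : ℝ => exp (-(s * r * I)) • TF ρ e (e p) s b)
      (fun s => (h1 s).differentiableAt) (fun s => (h1 s).deriv) t 0
    simp only [ofReal_zero, zero_mul, neg_zero, exp_zero, one_smul] at h3
    rw [h3, TF_zero hρ he hp hfix]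
  conv_rhs => rw [← h2]
  rw [smul_smul, ← exp_add]
  simp

end fixed

/-- the complex differential at a fixed point in the preferred chart -/
theorem mfderiv_eq_TF (hρ : IsHolIsomFlow E ρ) (hfix : ∀ t, ρ t p = p) (t : ℝ) (v : E) :
    (mfderiv 𝓘(ℂ, E) 𝓘(ℂ, E) (ρ t) p : E → E) v = TF ρ (chartAt E p) (chartAt E p p) t v := by
  have hmd : MDifferentiableAt 𝓘(ℂ, E) 𝓘(ℂ, E) (ρ t) p := hρ.holo t p
  have h0 : (mfderiv 𝓘(ℂ, E) 𝓘(ℂ, E) (ρ t) p : E →L[ℂ] E) =
      fderivWithin ℂ (writtenInExtChartAt 𝓘(ℂ, E) 𝓘(ℂ, E) p (ρ t)) (range 𝓘(ℂ, E))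
        (extChartAt 𝓘(ℂ, E) p p) := hmd.mfderiv
  have h1 : (mfderiv 𝓘(ℂ, E) 𝓘(ℂ, E) (ρ t) p : E →L[ℂ] E) v =
    (mfderiv 𝓘(ℂ, E) 𝓘(ℂ, E) (ρ t) p : E →L[ℂ] E) v := rfl
  conv_rhs at h1 => rw [h0]
  simp only [writtenInExtChartAt, hfix t, extChartAt, mfld_simps, fderivWithin_univ] at h1
  exact h1

variable [IsRiemannianManifold 𝓘(ℝ, E) M]

/-- rigidity: a generator which vanishes to second order vanishes -/
theorem rigid [ConnectedSpace M] (hρ : IsHolIsomFlow E ρ)
    (h0 : vF ρ (chartAt E p) (chartAt E p p) = 0)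
    (h1 : ∀ a, fderiv ℝ (vF ρ (chartAt E p)) (chartAt E p p) a = 0) (t : ℝ) (x : M) :
    ρ t x = x := by
  have he : chartAt E p ∈ maximalAtlas 𝓘(ℂ, E) 1 M := chart_mem_maximalAtlas p
  have hp : p ∈ (chartAt E p).source := mem_chart_source E p
  have hfix : ∀ t, ρ t p = p := fixed_of_zero hρ he hp h0
  have hT : ∀ (t : ℝ) (v : E), (mfderiv 𝓘(ℂ, E) 𝓘(ℂ, E) (ρ t) p : E → E) v = v := by
    intro t v
    rw [mfderiv_eq_TF hρ hfix, TF_eigen hρ he hp hfix (r := 0) (by rw [h1, zero_smul])]
    simp only [ofReal_zero, mul_zero, zero_mul, exp_zero]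
    exact one_smul ℂ v
  let φ : E ≃L[ℂ] (Fin (Module.finrank ℂ E) → ℂ) :=
    (Module.finBasis ℂ E).equivFun.toContinuousLinearEquiv
  obtain ⟨e₀, he₀, δ, hδ, hpe, -, -, hequiv⟩ := exists_linearizing_chart hρ hfix φ (fun _ => 0)
    (fun t v => by
      rw [hT]
      apply ext_coord (φ := φ)
      intro j
      rw [LE_coord]
      simp)
  refine eq_id_of_eventually (hρ.holo t) (p := p) ?_ x
  filter_upwards [e₀.open_source.mem_nhds hpe] with y hy
  obtain ⟨h2, h3⟩ := hequiv t y hy
  refine e₀.injOn h2 hy ?_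
  rw [h3]
  apply ext_coord (φ := φ)
  intro j
  rw [LE_coord]
  simp

end flow

end Vale.Agent.P253.H577
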