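import Vale.Agent.P253.H577.Rig

/-!
P253: rigidity in an arbitrary chart.
-/

open scoped Manifold ContDiff Topology Bundle
open Set Metric Complex Filter Bundle IsManifold Manifold Vale.Agent.P253.Mfd

set_option maxSynthPendingDepth 3
set_option linter.unusedSectionVars false

noncomputable section

namespace Vale.Agent.P253.H577

variable {E : Type*} [NormedAddCommGroup E] [NormedSpace ℂ E] [FiniteDimensional ℂ E]
  {M : Type*} [MetricSpace M] [ChartedSpace E M]
  [IsManifold 𝓘(ℂ, E) 1 M] [IsManifold 𝓘(ℝ, E) ∞ M]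
  [RiemannianBundle (fun x : M => TangentSpace 𝓘(ℝ, E) x)]
  [IsContMDiffRiemannianBundle 𝓘(ℝ, E) ∞ E (fun x : M => TangentSpace 𝓘(ℝ, E) x)]
  {ρ : ℝ → M → M} {e e' : OpenPartialHomeomorph M E} {p : M}

section change

variable (hρ : IsHolIsomFlow E ρ) (he : e ∈ maximalAtlas 𝓘(ℂ, E) 1 M)
  (he' : e' ∈ maximalAtlas 𝓘(ℂ, E) 1 M) (hp : p ∈ e.source) (hp' : p ∈ e'.source)

include hρ hp hp' in
theorem mem_HΩ_trans : ((0:ℝ), e p) ∈ HΩ ρ e e' := by
  refine ⟨e.map_source hp, ?_⟩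
  simp only [hρ.zero, e.left_inv hp]
  exact hp'

include hρ hp in
theorem HF_trans : HF ρ e e' (0, e p) = e' p := by
  simp only [HF, hρ.zero, e.left_inv hp]

include hρ he he' hp hp'

/-- the derivative of the transition map is surjective -/
theorem trans_surj (v : E) : ∃ u : E, fderiv ℂ (fun w => HF ρ e e' (0, w)) (e p) u = v := by
  have h1 := (HΩ_slice_holo hρ he he' (mem_HΩ_trans hρ hp hp')).hasFDerivAt
  have h2 := (HΩ_slice_holo hρ he' he (mem_HΩ_trans hρ hp' hp)).hasFDerivAt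
  rw [← HF_trans (e' := e) hρ hp'] at h1
  have h3 := h1.comp (e' p) h2
  have h4 : (fun w => HF ρ e e' (0, w)) ∘ (fun w => HF ρ e' e (0, w)) =ᶠ[𝓝 (e' p)] id := by
    have hopen : {w : E | ((0:ℝ), w) ∈ HΩ ρ e' e} ∈ 𝓝 (e' p) :=
      ((isOpen_HΩ hρ).preimage (Continuous.prodMk continuous_const continuous_id :
        Continuous (fun w : E => ((0:ℝ), w)))).mem_nhds (mem_HΩ_trans hρ hp' hp)
    filter_upwards [hopen] with w hw
    have hw1 : w ∈ e'.target := hw.1
    have hw2 : e'.symm w ∈ e.source := by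
      have := hw.2
      simpa only [hρ.zero] using this
    simp only [HF, Function.comp_apply, hρ.zero, id]
    rw [e.left_inv hw2, e'.right_inv hw1]
  have h5 := h3.unique ((hasFDerivAt_id (𝕜 := ℂ) (e' p)).congr_of_eventuallyEq h4)
  refine ⟨fderiv ℂ (fun w => HF ρ e' e (0, w)) (e' p) v, ?_⟩
  have h6 := congrArg (fun T : E →L[ℂ] E => T v) h5
  rw [HF_trans hρ hp'] at h6
  exact h6

theorem TF_change (hfix : ∀ t, ρ t p = p) (t : ℝ) (a : E) :
    TF ρ e' (e' p) t (fderiv ℂ (fun w => HF ρ e e' (0, w)) (e p) a) =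
      fderiv ℂ (fun w => HF ρ e e' (0, w)) (e p) (TF ρ e (e p) t a) := by
  have hD := (HΩ_slice_holo hρ he he' (mem_HΩ_trans hρ hp hp')).hasFDerivAt
  have h1 : HasFDerivAt (fun w => HF ρ e' e' (t, w)) (TF ρ e' (e' p) t)
      (HF ρ e e' (0, e p)) := by
    rw [HF_trans hρ hp]
    exact (HΩ_slice_holo hρ he' he' (mem_HΩ_fixed hρ he' hp' hfix t)).hasFDerivAt
  have h2 := h1.comp (e p) hD
  have h3 : HasFDerivAt (fun w => HF ρ e e (t, w)) (TF ρ e (e p) t) (e p) :=
    (HΩ_slice_holo hρ he he (mem_HΩ_fixed hρ he hp hfix t)).hasFDerivAt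
  have hD' : HasFDerivAt (fun w => HF ρ e e' (0, w))
      (fderiv ℂ (fun w => HF ρ e e' (0, w)) (e p)) (HF ρ e e (t, e p)) := by
    rw [HF_fixed hρ he hp hfix]; exact hD
  have h4 := hD'.comp (e p) h3
  have h5 : ((fun w => HF ρ e' e' (t, w)) ∘ (fun w => HF ρ e e' (0, w))) =ᶠ[𝓝 (e p)]
      ((fun w => HF ρ e e' (0, w)) ∘ (fun w => HF ρ e e (t, w))) := by
    have o1 : {w : E | ((0:ℝ), w) ∈ HΩ ρ e e'} ∈ 𝓝 (e p) :=
      ((isOpen_HΩ hρ).preimage (Continuous.prodMk continuous_const continuous_id :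
        Continuous (fun w : E => ((0:ℝ), w)))).mem_nhds (mem_HΩ_trans hρ hp hp')
    have o2 : {w : E | (t, w) ∈ HΩ ρ e e} ∈ 𝓝 (e p) :=
      ((isOpen_HΩ hρ).preimage (Continuous.prodMk continuous_const continuous_id :
        Continuous (fun w : E => (t, w)))).mem_nhds (mem_HΩ_fixed hρ he hp hfix t)
    filter_upwards [o1, o2] with w hw1 hw2
    have h6 : e.symm w ∈ e'.source := by
      have := hw1.2
      simpa only [hρ.zero] using this
    have h7 : ρ t (e.symm w) ∈ e.source := hw2.2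
    simp only [HF, Function.comp_apply, hρ.zero]
    rw [e'.left_inv h6, e.left_inv h7]
  have h6 := h2.unique (h4.congr_of_eventuallyEq h5)
  exact congrArg (fun T : E →L[ℂ] E => T a) h6

end change

variable [IsRiemannianManifold 𝓘(ℝ, E) M]

/-- the differential at a fixed point where the linear part vanishes -/
theorem mfderiv_eq_id (hρ : IsHolIsomFlow E ρ) (he : e ∈ maximalAtlas 𝓘(ℂ, E) 1 M)
    (hp : p ∈ e.source) (hfix : ∀ t, ρ t p = p)
    (h1 : ∀ a, fderiv ℝ (vF ρ e) (e p) a = 0) (t : ℝ) (v : E) :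
    (mfderiv 𝓘(ℂ, E) 𝓘(ℂ, E) (ρ t) p : E → E) v = v := by
  have hp' : p ∈ (chartAt E p).source := mem_chart_source E p
  have he' : chartAt E p ∈ maximalAtlas 𝓘(ℂ, E) 1 M := chart_mem_maximalAtlas p
  rw [mfderiv_eq_TF hρ hfix]
  obtain ⟨u, rfl⟩ := trans_surj hρ he he' hp hp' v
  rw [TF_change hρ he he' hp hp' hfix, TF_eigen hρ he hp hfix (r := 0) (by rw [h1, zero_smul])]
  simp only [ofReal_zero, mul_zero, zero_mul, exp_zero]
  rw [one_smul]

/-- an isometric flow whose differential at a fixed point is the identity is trivial -/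
theorem rigid_of_mfderiv [ConnectedSpace M] (hρ : IsHolIsomFlow E ρ) (hfix : ∀ t, ρ t p = p)
    (hT : ∀ (t : ℝ) (v : E), (mfderiv 𝓘(ℂ, E) 𝓘(ℂ, E) (ρ t) p : E → E) v = v) (t : ℝ) (x : M) :
    ρ t x = x := by
  let φ : E ≃L[ℂ] (Fin (Module.finrank ℂ E) → ℂ) :=
    (Module.finBasis ℂ E).equivFun.toContinuousLinearEquiv
  obtain ⟨e₀, he₀, δ, hδ, hpe, -, -, hequiv⟩ := exists_linearizing_chart hρ hfix φ (fun _ => 0)
    (fun t v => by
      rw [hT]
      apply ext_coord (φ := φ)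
      intro j
      rw [LE_coord]
      simp)
  refine eq_id_of_eventually (hρ.holo t) (p := p) ?_ x
  filter_upwards [e₀.open_source.mem_nhds hpe] with y hy
  obtain ⟨h2, h3⟩ := hequiv t y hy
  refine e₀.injOn h2 hy ?_
  rw [h3]
  apply ext_coord (φ := φ)
  intro j
  rw [LE_coord]
  simp

/-- rigidity: a generator which vanishes to second order vanishes -/
theorem rigid' [ConnectedSpace M] (hρ : IsHolIsomFlow E ρ) (he : e ∈ maximalAtlas 𝓘(ℂ, E) 1 M)
    (hp : p ∈ e.source) (h0 : vF ρ e (e p) = 0)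
    (h1 : ∀ a, fderiv ℝ (vF ρ e) (e p) a = 0) (t : ℝ) (x : M) :
    ρ t x = x := by
  have hfix : ∀ t, ρ t p = p := fixed_of_zero hρ he hp h0
  exact rigid_of_mfderiv hρ hfix (mfderiv_eq_id hρ he hp hfix h1) t x

end Vale.Agent.P253.H577
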