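import Vale.Agent.P253.H577.Core
import Vale.Agent.P253.H577.Rig2
import Vale.Agent.P253.H577.Grad

/-!
P253: weights, restriction to a complement of the isotropy, and isotropic orbits.
-/

open scoped Manifold ContDiff Topology Bundle
open Set Metric Complex Filter Bundle IsManifold Manifold Vale.Agent.P253.Mfd

set_option maxSynthPendingDepth 3
set_option linter.unusedSectionVars false

noncomputable section

namespace Vale.Agent.P253.H577

variable {E : Type*} [NormedAddCommGroup E] [NormedSpace ℂ E] [FiniteDimensional ℂ E]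
  {M : Type*} [MetricSpace M] [ChartedSpace E M]
  [IsManifold 𝓘(ℂ, E) 1 M] [IsManifold 𝓘(ℝ, E) ∞ M]
  [RiemannianBundle (fun x : M => TangentSpace 𝓘(ℝ, E) x)]
  [IsContMDiffRiemannianBundle 𝓘(ℝ, E) ∞ E (fun x : M => TangentSpace 𝓘(ℝ, E) x)]
  {e e' : OpenPartialHomeomorph M E}

section flow

variable {σ τ : ℝ → M → M}

theorem nW_eq_zero (hτ : IsHolIsomFlow E τ) (he : e ∈ maximalAtlas 𝓘(ℂ, E) 1 M) {x : M}
    (hx : x ∈ e.source) : nW (E := E) τ x = 0 ↔ vF τ e (e x) = 0 := by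
  rw [nW_eq hτ he hx]
  constructor
  · intro h
    by_contra hne
    exact (chartG_pos (mem_maximalAtlas_real he) (e.map_source hx) _ hne).ne' h
  · intro h
    rw [h]
    simp

theorem nW_inv (hσ : IsHolIsomFlow E σ) (hτ : IsHolIsomFlow E τ)
    (hcomm : ∀ s t x, σ s (τ t x) = τ t (σ s x)) (s : ℝ) (x : M) :
    nW (E := E) τ (σ s x) = nW (E := E) τ x := by
  have he : chartAt E x ∈ maximalAtlas 𝓘(ℂ, E) 1 M := chart_mem_maximalAtlas x
  have he' : chartAt E (σ s x) ∈ maximalAtlas 𝓘(ℂ, E) 1 M := chart_mem_maximalAtlas _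
  have hx : x ∈ (chartAt E x).source := mem_chart_source E x
  have hx' : σ s x ∈ (chartAt E (σ s x)).source := mem_chart_source E _
  have hq : (s, chartAt E x x) ∈ HΩ σ (chartAt E x) (chartAt E (σ s x)) :=
    ⟨(chartAt E x).map_source hx, by simpa only [(chartAt E x).left_inv hx] using hx'⟩
  have h1 := vF_push hσ hτ hcomm he he' hq
  have h2 := chartG_HF hσ he he' hq (vF τ (chartAt E x) (chartAt E x x))
    (vF τ (chartAt E x) (chartAt E x x))
  have h3 : HF σ (chartAt E x) (chartAt E (σ s x)) (s, chartAt E x x) =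
      chartAt E (σ s x) (σ s x) := by
    simp only [HF, (chartAt E x).left_inv hx]
  rw [nW_eq hτ he' hx', nW_eq hτ he hx, ← h2, h1, h3]

theorem nW_fixed (hτ : IsHolIsomFlow E τ) {x : M} (hfix : ∀ t, τ t x = x) :
    nW (E := E) τ x = 0 := by
  have he : chartAt E x ∈ maximalAtlas 𝓘(ℂ, E) 1 M := chart_mem_maximalAtlas x
  have hx : x ∈ (chartAt E x).source := mem_chart_source E x
  rw [nW_eq_zero hτ he hx, vF]
  have h1 : xF τ (chartAt E x) (chartAt E x x) = 0 := by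
    have h2 : (fun t : ℝ => chartAt E x (τ t ((chartAt E x).symm (chartAt E x x)))) =
        fun _ => chartAt E x x := by
      funext t
      rw [(chartAt E x).left_inv hx, hfix]
    rw [xF, h2, deriv_const]
  rw [h1]
  simp

theorem contDiffOn_nW (hτ : IsHolIsomFlow E τ) (he : e ∈ maximalAtlas 𝓘(ℂ, E) 1 M) :
    ContDiffOn ℝ ∞ (fun z => nW (E := E) τ (e.symm z)) e.target := by
  have h1 := contDiffOn_chartG (mem_maximalAtlas_real he)
  have h2 := (contDiffOn_vF hτ he).restrict_scalars ℝ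
  refine ((h1.clm_apply h2).clm_apply h2).congr fun z hz => ?_
  rw [nW_eq hτ he (e.map_target hz), e.right_inv hz]

end flow

section action

variable {V : Type*} [NormedAddCommGroup V] [NormedSpace ℝ V]
  {V' : Type*} [NormedAddCommGroup V'] [NormedSpace ℝ V'] {ρ : V → M → M}

omit [IsManifold 𝓘(ℂ, E) 1 M] [IsManifold 𝓘(ℝ, E) ∞ M]
  [IsContMDiffRiemannianBundle 𝓘(ℝ, E) ∞ E (fun x : M => TangentSpace 𝓘(ℝ, E) x)]
  [FiniteDimensional ℂ E] in
/-- pull back of an action under a linear map -/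
theorem IsHolIsomAction.pull (hρ : IsHolIsomAction E ρ) (A : V' →L[ℝ] V) :
    IsHolIsomAction E (fun ξ => ρ (A ξ)) where
  zero x := by simp [hρ.zero]
  add s t x := by simp [map_add, hρ.add]
  smooth := by
    have h1 : ContMDiff (𝓘(ℝ, V').prod 𝓘(ℝ, E)) (𝓘(ℝ, V).prod 𝓘(ℝ, E)) ∞
        (fun q : V' × M => (A q.1, q.2)) := by
      refine ContMDiff.prodMk ?_ contMDiff_snd
      exact A.contDiff.contMDiff.comp contMDiff_fst
    exact hρ.smooth.comp h1
  holo t := hρ.holo _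
  isom t := hρ.isom _

theorem ln_pull (A : V' →L[ℝ] V) (ξ : V') : ln (fun ξ => ρ (A ξ)) ξ = ln ρ (A ξ) := by
  funext t x
  simp [ln]

theorem vL_pull (hρ : IsHolIsomAction E ρ) (A : V' →L[ℝ] V)
    (he : e ∈ maximalAtlas 𝓘(ℂ, E) 1 M) {z : E} (hz : z ∈ e.target) (ξ : V') :
    vL (fun ξ => ρ (A ξ)) e z ξ = vL ρ e z (A ξ) := by
  rw [vL_apply (hρ.pull A) he hz, ln_pull, vL_apply hρ he hz]

variable (E) in
/-- the isotropy at `x` -/
def kerAt (ρ : V → M → M) (x : M) : Submodule ℝ V :=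
  LinearMap.ker (vL ρ (chartAt E x) (chartAt E x x) : V →ₗ[ℝ] E)

theorem mem_kerAt_nW (hρ : IsHolIsomAction E ρ) {x : M} {κ : V} :
    κ ∈ kerAt E ρ x ↔ nW (E := E) (ln ρ κ) x = 0 := by
  have he : chartAt E x ∈ maximalAtlas 𝓘(ℂ, E) 1 M := chart_mem_maximalAtlas x
  rw [nW_eq_zero (hρ.line κ) he (mem_chart_source E x), ← vL_apply hρ he (mem_chart_target E x)]
  rfl

theorem mem_kerAt (hρ : IsHolIsomAction E ρ) (he : e ∈ maximalAtlas 𝓘(ℂ, E) 1 M) {x : M}
    (hx : x ∈ e.source) {κ : V} : κ ∈ kerAt E ρ x ↔ vL ρ e (e x) κ = 0 := by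
  rw [mem_kerAt_nW hρ, nW_eq_zero (hρ.line κ) he hx, vL_apply hρ he (e.map_source hx)]

theorem fixed_of_mem_kerAt (hρ : IsHolIsomAction E ρ) {x : M} {κ : V} (hκ : κ ∈ kerAt E ρ x)
    (t : ℝ) : ln ρ κ t x = x := by
  have he : chartAt E x ∈ maximalAtlas 𝓘(ℂ, E) 1 M := chart_mem_maximalAtlas x
  rw [mem_kerAt_nW hρ, nW_eq_zero (hρ.line κ) he (mem_chart_source E x)] at hκ
  exact fixed_of_zero (hρ.line κ) he (mem_chart_source E x) hκ t

theorem mem_kerAt_of_fixed (hρ : IsHolIsomAction E ρ) {x : M} {κ : V}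
    (h : ∀ t, ln ρ κ t x = x) : κ ∈ kerAt E ρ x := by
  rw [mem_kerAt_nW hρ]
  exact nW_fixed (hρ.line κ) h

/-- sum of the squared lengths of the fields of a family -/
def cS {m : ℕ} (ρ : V → M → M) (κ : Fin m → V) (x : M) : ℝ :=
  ∑ k, nW (E := E) (ln ρ (κ k)) x

section cS

variable {m : ℕ} {κ : Fin m → V}

theorem cS_nonneg (hρ : IsHolIsomAction E ρ) (x : M) : 0 ≤ cS (E := E) ρ κ x :=
  Finset.sum_nonneg fun k _ => nW_nonneg (hρ.line (κ k)) x

theorem cS_eq_zero (hρ : IsHolIsomAction E ρ) (x : M) :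
    cS (E := E) ρ κ x = 0 ↔ ∀ k, κ k ∈ kerAt E ρ x := by
  rw [cS, Finset.sum_eq_zero_iff_of_nonneg fun k _ => nW_nonneg (hρ.line (κ k)) x]
  simp only [Finset.mem_univ, forall_true_left]
  exact forall_congr' fun k => (mem_kerAt_nW hρ).symm

theorem cS_smooth (hρ : IsHolIsomAction E ρ) (he : e ∈ maximalAtlas 𝓘(ℂ, E) 1 M) :
    ContDiffOn ℝ ∞ (fun z => cS (E := E) ρ κ (e.symm z)) e.target :=
  ContDiffOn.sum fun k _ => contDiffOn_nW (hρ.line (κ k)) he

theorem cS_inv (hρ : IsHolIsomAction E ρ) (η : V) (s : ℝ) (x : M) :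
    cS (E := E) ρ κ (ln ρ η s x) = cS (E := E) ρ κ x :=
  Finset.sum_congr rfl fun k _ =>
    nW_inv (hρ.line η) (hρ.line (κ k)) (fun _ _ x => hρ.comm _ _ x) s x

end cS

end action

end Vale.Agent.P253.H577
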